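import Vale.Agent.P080.FL

/-! Backward propagation of an almost extremal gap. -/

set_option linter.unusedSectionVars false

namespace Vale.Agent.P080

open scoped RealInnerProductSpace

variable {E : Type*} [NormedAddCommGroup E] [InnerProductSpace ℝ E]

/-- convexity and unit flatness at all small scales on a ball -/
def Hyp (u : E → ℝ) (x : E) (R Θ : ℝ) : Prop :=
  Good u x R Θ ∧ ∀ z, ‖z - x‖ ≤ R → ∀ ν, 0 < ν → ν ≤ Θ → ∃ e, Flat u z ν 1 e

theorem Hyp.mono {u : E → ℝ} {x x' : E} {R T R' T' : ℝ} (h : Hyp u x R T)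
    (hR : ‖x' - x‖ + R' ≤ R) (hT : T' ≤ T) : Hyp u x' R' T' := by
  refine ⟨h.1.mono hR hT, fun z hz ν h1 h2 => h.2 z ?_ ν h1 (h2.trans hT)⟩
  have e : z - x = (z - x') + (x' - x) := by abel
  rw [e]; exact (norm_add_le _ _).trans (by linarith)

theorem Hyp.neg {u : E → ℝ} {x : E} {R T : ℝ} (h : Hyp u x R T) :
    Hyp (fun y => - u y) x R T := by
  refine ⟨h.1.neg, fun z hz ν h1 h2 => ?_⟩
  obtain ⟨e, he⟩ := h.2 z hz ν h1 h2
  exact ⟨-e, he.neg⟩

theorem hyp_resc {L A μ R T : ℝ} {u : E → ℝ} (hu : Lip L u) {x0 : E} (hA : 0 < A) (hμ : 0 < μ)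
    (h : Good u x0 (A * μ * R) (μ * T))
    (h' : ∀ z, ‖z - x0‖ ≤ A * μ * R → ∀ ν, 0 < ν → ν ≤ μ * T → ∃ e, Flat u z ν A e) :
    Hyp (resc u x0 A μ) 0 R T := by
  refine ⟨Good.resc hu hA hμ h, fun z hz ν h1 h2 => ?_⟩
  rw [sub_zero] at hz
  obtain ⟨e, he⟩ := h' (x0 + (A * μ) • z) (by
    rw [add_sub_cancel_left, norm_smul, Real.norm_of_nonneg (by positivity)]
    exact mul_le_mul_of_nonneg_left hz (by positivity)) (μ * ν) (by positivity)
    (mul_le_mul_of_nonneg_left h2 hμ.le)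
  exact ⟨_, Flat.resc hA hμ h1 (by rwa [mul_one])⟩

theorem Flat.nbr {u : E → ℝ} {z x e e' k : E} {μ σ : ℝ} (hF : Flat u z μ 1 e)
    (hF' : Flat u x μ 1 e') (hμ : 0 < μ) (hx : x = z + σ • e + k) (hσ : |σ| ≤ μ)
    (hk : ‖k‖ ≤ μ / 2) : ‖e - e'‖ ≤ 7 := by
  refine norm_le_of_inner hμ (by norm_num) fun h hh => ?_
  have a1 := hF.lo (y := x + h) σ (k + h) (by rw [hx]; abel) hσ
  have a2 := hF.up σ k hx hσ
  have a3 := hF'.up (y := x + h) 0 h (by simp) (by simpa using hμ.le)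
  have a4 := V_diff u z e x h
  have a5 := V_diff u x e' x h
  rw [V_self] at a5
  have b1 : ‖h‖ ^ 2 / μ = μ := by rw [hh]; field_simp
  have b2 : ‖k‖ ^ 2 / μ ≤ μ / 4 := by
    rw [div_le_iff₀ hμ]; nlinarith [norm_nonneg k]
  have b3 : ‖k + h‖ ^ 2 / μ ≤ 9 / 4 * μ := by
    have : ‖k + h‖ ≤ 3 / 2 * μ := (norm_add_le _ _).trans (by linarith)
    rw [div_le_iff₀ hμ]; nlinarith [norm_nonneg (k + h)]
  rw [inner_sub_left]
  linarith

theorem vel2 {u : E → ℝ} {z x e k d : E} {L μ s σ D : ℝ} {N : ℕ} (hu : Lip L u)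
    (hF : Flat u z μ 1 e) (hμ : 0 < μ) (hx : x = z + s • e + k) (hs : |s| ≤ μ / 2)
    (hk : ‖k‖ ≤ μ / 2) (H : ∀ ν, 0 < ν → ν ≤ μ → ∃ e, Flat u x ν 1 e) (hsub : Sub u x (μ / 4))
    (hN : μ / 2 ^ N = 4 * σ)
    (hlev : σ * (‖e‖ ^ 2 / 2 - D) ≤ u (x + d) - u x - ‖d‖ ^ 2 / (2 * σ)) :
    ‖(1 / σ) • d - e‖ ^ 2 ≤ 8 * (28 + D) + 2 * (5 * ((N : ℝ) + 1) + 7) ^ 2 := by
  have hσ : 0 < σ := by
    have : 0 < μ / 2 ^ N := by positivity
    linarith
  have hσμ : 4 * σ ≤ μ := by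
    rw [← hN]; exact div_le_self hμ.le (one_le_pow₀ (by norm_num))
  obtain ⟨e1, hF1⟩ := H μ hμ le_rfl
  obtain ⟨e2, hF2⟩ := H (4 * σ) (by positivity) hσμ
  have a1 := hF.nbr hF1 hμ hx (by linarith) hk
  have a2 := (chain hu hμ H hF1 N e2 (by rwa [hN])).1
  have a3 := hF.UL hu hμ hx hs (by linarith) hsub hσ (by linarith)
  have a4 := hF2.S_lo hu hσ (by linarith)
  obtain ⟨w, rfl⟩ : ∃ w, d = σ • e2 + σ • w :=
    ⟨(1 / σ) • d - e2, by
      rw [smul_sub, smul_smul, mul_one_div_cancel hσ.ne', one_smul]; abel⟩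
  have a5 := pair_id hσ u x e2 x (σ • w)
  have a6 := hF2.up (y := x + (σ • e2 + σ • w)) σ (σ • w) (by abel)
    (by rw [abs_of_pos hσ]; linarith)
  rw [V_self] at a5
  rw [norm_smul_sq] at a5 a6
  have b1 : σ ^ 2 * ‖w‖ ^ 2 / (2 * σ) = σ * ‖w‖ ^ 2 / 2 := by field_simp
  have b2 : σ ^ 2 * ‖w‖ ^ 2 / (4 * σ) = σ * ‖w‖ ^ 2 / 4 := by field_simp
  have b3 : ‖w‖ ^ 2 ≤ 4 * (28 + D) := le_of_mul_le_mul_left (by linarith) hσ
  have e0 : (1 / σ) • (σ • e2 + σ • w) - e = w + (e2 - e) := by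
    rw [← smul_add, smul_smul, one_div_mul_cancel hσ.ne', one_smul]; abel
  have b4 : ‖e2 - e‖ ≤ 5 * ((N : ℝ) + 1) + 7 := by
    have : e2 - e = -((e - e1) + (e1 - e2)) := by abel
    rw [this, norm_neg]; exact (norm_add_le _ _).trans (by linarith)
  have b5 := pow_le_pow_left₀ (norm_nonneg _) b4 2
  have b6 := norm_add_sq_le w (e2 - e)
  rw [e0]
  linarith

theorem lev_neg_le [FiniteDimensional ℝ E] {L l : ℝ} {u : E → ℝ} {z : E} (hu : Lip L u)
    (hl : 0 < l) (H : ∀ ν, 0 < ν → ν ≤ 16 * l → ∃ e, Flat u z ν 1 e)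
    (hgood : Good u z (2 * L * l) (5 * l)) :
    lev (fun y => - u y) z l ≤ lev u z (4 * l) + 119 := by
  obtain ⟨e, hF⟩ := H (16 * l) (by positivity) le_rfl
  obtain ⟨e', hF'⟩ := H (4 * l) (by positivity) (by linarith)
  have hee := (chain hu (by positivity) H hF 2 e' (by
    have : 16 * l / 2 ^ 2 = 4 * l := by ring
    rwa [this])).1
  obtain ⟨m', hm1', hm2'⟩ := exists_S hu.neg hl z
  obtain ⟨p, rfl⟩ : ∃ p, m' = l • (-p) :=
    ⟨-((1 / l) • m'), by rw [neg_neg, smul_smul, mul_one_div_cancel hl.ne', one_smul]⟩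
  have hp' := opt_slope hu.neg hl hF'.neg hm2'
  have ez : z + l • (-p) = z - l • p := by rw [smul_neg, sub_eq_add_neg]
  have e1 : ‖l • (-p)‖ ^ 2 / (2 * l) = l * ‖p‖ ^ 2 / 2 := by
    rw [norm_smul_sq, norm_neg]; field_simp
  rw [ez, e1] at hm2'
  have elm : l * lev (fun y => - u y) z l = S l (fun y => - u y) z + u z := by
    unfold lev; field_simp; ring
  have elp : 4 * l * lev u z (4 * l) = S (4 * l) u z - u z := by
    unfold lev; field_simp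
  have hB : 32 + ‖e - p‖ ^ 2 ≤ 473 := by
    have a1 : ‖e - p‖ ≤ 21 := by
      have : e - p = (e - e') + -(-e' - -p) := by abel
      rw [this]
      refine (norm_add_le _ _).trans ?_
      rw [norm_neg]; push_cast at hee; linarith
    have := pow_le_pow_left₀ (norm_nonneg _) a1 2
    linarith
  have := (envelope (lm := lev (fun y => - u y) z l) (lp := lev u z (4 * l)) (ε := 0)
    (a := 4 * l) hu hl le_rfl (by
      have : 4 * (4 * l) = 16 * l := by ring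
      rwa [this]) hB (by linarith) (by linarith)
    (hgood _ (by rw [← ez, add_sub_cancel_left]; exact hm1')).1 (by linarith)).1
  exact le_of_mul_le_mul_left (a := 4 * l) (by linarith) (by positivity)

set_option maxHeartbeats 800000 in
theorem back_prop [FiniteDimensional ℝ E] {u : E → ℝ} {x0 e : E} {L m σ tb μ D W : ℝ}
    {n N : ℕ} (hu : Lip L u) (hμ : μ / 2 ^ n = 16) (hN : μ / 2 ^ N = 4 * σ) (hσ3 : σ ≤ 1 / 3)
    (htb0 : 0 < tb) (htb : tb ≤ 1) (hm2 : m ≤ 2) (hyp : Hyp u x0 (2 * μ * (L + 1)) μ)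
    (hF : Flat u x0 μ 1 e) (hD : D = 310 + 16 * (n : ℝ))
    (hW : 8 * (29 + D) + 2 * (5 * ((N : ℝ) + 1) + 7) ^ 2 ≤ W)
    (hnum : 2 * (D + 21) ^ 2 / (μ / 2) ^ 2 + 4 * (D + 21) * W / (μ / 2) ^ 2
      + 16 * (D + 21) ^ 3 / (μ / 2) ^ 4 < 1)
    (hgap : ∀ y t, ‖y - x0‖ ≤ μ * (L + 1) → tb ≤ t → t ≤ 4 → C t u y ≤ u y + m * t + σ)
    (hstart : u x0 + m - σ < C 1 u x0) :
    ∃ x' s h, x' = x0 + s • e + h ∧ |s| ≤ μ / 2 ∧ ‖h‖ ≤ μ ∧ ‖x' - x0‖ ≤ μ * (L + 1) ∧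
      u x' + m * tb - σ * (D + 20) < C tb u x' ∧
      ‖e‖ ^ 2 / 2 - D - 1 ≤ lev (fun y => - u y) x' σ := by
  have hL := hu.1
  have h2n : (1 : ℝ) ≤ 2 ^ n := one_le_pow₀ (by norm_num)
  have hμ16 : 16 ≤ μ := by
    rw [div_eq_iff (by positivity)] at hμ; linarith
  have hμ0 : 0 < μ := by linarith
  have hσ : 0 < σ := by
    have : 0 < μ / 2 ^ N := by positivity
    linarith
  have hn0 : (0 : ℝ) ≤ n := Nat.cast_nonneg n
  have hD0 : 310 ≤ D := by linarith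
  have he := hF.slope_le hu hμ0
  set c : ℝ := ‖e‖ ^ 2 / 2 with hc
  set ϱ : ℝ := μ / 2 with hϱ
  have hϱ0 : 0 < ϱ := by positivity
  set ρ : ℝ := ϱ ^ 2 / (2 * (σ * (D + 21))) with hρ
  have hρ0 : 0 < ρ := by positivity
  set κ : ℝ := σ * (D + 21) / (4 - tb) with hκ
  have h4tb : 0 < 4 - tb := by linarith
  have hκ0 : 0 < κ := by positivity
  have eκ : (4 - tb) * κ = σ * (D + 21) := by rw [hκ]; field_simp
  set α : ℝ := σ * c - σ * D - tb * κ - 4 * σ * tb with hα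
  set β : ℝ := m + κ + σ * (4 + tb) with hβ
  have hb : ∀ s, α + β * s - σ * s ^ 2
      = m * s + σ * c - σ * D + (s - tb) * κ + σ * ((s - tb) * (4 - s)) := fun s => by
    rw [hα, hβ]; ring
  have hb0 : ∀ s, tb ≤ s → s ≤ 4 → m * s + σ * c - σ * D ≤ α + β * s - σ * s ^ 2 := by
    intro s h1 h2
    rw [hb]
    have a1 : 0 ≤ s - tb := by linarith
    have a2 : 0 ≤ 4 - s := by linarith
    have a3 : 0 ≤ (s - tb) * κ := by positivity
    have a4 : 0 ≤ σ * ((s - tb) * (4 - s)) := by positivity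
    linarith
  set c0 : E := x0 - (1 + σ) • e with hc0
  have hpos : ∀ (s : ℝ) (k : E), c0 + s • e + k = x0 + (s - 1 - σ) • e + k := by
    intro s k; rw [hc0]; module
  have hσs : ∀ s, tb ≤ s → s ≤ 4 → |s - 1 - σ| ≤ 4 := fun s h1 h2 => by
    rw [abs_le]; constructor <;> linarith
  have hLμ : L * 16 ≤ L * μ := mul_le_mul_of_nonneg_left hμ16 hL
  have hLσ : L * σ ≤ L * (1 / 3) := mul_le_mul_of_nonneg_left hσ3 hL
  have hdist : ∀ s, tb ≤ s → s ≤ 4 → ‖c0 + s • e - x0‖ ≤ 4 * (L + 2) := by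
    intro s h1 h2
    have e0 : c0 + s • e - x0 = (s - 1 - σ) • e := by rw [hc0]; module
    rw [e0, norm_smul, Real.norm_eq_abs]
    exact mul_le_mul (hσs s h1 h2) he (norm_nonneg _) (by norm_num)
  have hdist2 : ∀ s k d, tb ≤ s → s ≤ 4 → ‖k‖ ≤ ϱ → ‖d‖ ≤ 2 * L * σ →
      ‖c0 + s • e + k + d - x0‖ ≤ μ * (L + 1) := by
    intro s k d h1 h2 hk hd
    have e0 : c0 + s • e + k + d - x0 = (c0 + s • e - x0) + (k + d) := by abel
    rw [e0]
    have := norm_add_le (c0 + s • e - x0) (k + d)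
    have := norm_add_le k d
    have := hdist s h1 h2
    linarith
  have hμL : 0 ≤ μ * (L + 1) := by positivity
  have hin : ∀ s k, tb ≤ s → s ≤ 4 → ‖k‖ ≤ ϱ →
      ‖c0 + s • e + k - x0‖ ≤ 2 * μ * (L + 1) := by
    intro s k h1 h2 hk
    have := hdist2 s k 0 h1 h2 hk (by simp; positivity)
    rw [add_zero] at this
    linarith
  have hUL : ∀ s k, tb ≤ s → s ≤ 4 → ‖k‖ ≤ ϱ →
      S σ u (c0 + s • e + k) ≤ u (c0 + s • e + k) + σ * (c + 20) := by
    intro s k h1 h2 hk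
    exact hF.UL hu hμ0 (hpos s k) (by linarith [hσs s h1 h2]) (by linarith)
      ((hyp.1 _ (hin s k h1 h2 hk)).1.mono (by linarith)) hσ (by linarith)
  have hU : ∀ s k, tb ≤ s → s ≤ 4 → ‖k‖ ≤ ϱ →
      S σ (C s u) (c0 + s • e + k) ≤ u (c0 + s • e + k) + m * s + σ * (c + 21) := by
    intro s k h1 h2 hk
    obtain ⟨d, hd, hde⟩ := exists_S (hu.C (by linarith : 0 < s)) hσ (c0 + s • e + k)
    have a1 := hgap _ s (hdist2 s k d h1 h2 hk hd) h1 h2
    have a2 := le_S' hu hσ (c0 + s • e + k) d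
    have a3 := hUL s k h1 h2 hk
    linarith
  have hvel : ∀ s k d, tb ≤ s → s ≤ 4 → ‖k‖ ≤ ϱ →
      σ * (c - (D + 1)) ≤ u (c0 + s • e + k + d) - u (c0 + s • e + k) - ‖d‖ ^ 2 / (2 * σ) →
      ‖(1 / σ) • d - e‖ ^ 2 ≤ W := by
    intro s k d h1 h2 hk hl
    have := vel2 hu hF hμ0 (hpos s k) (by linarith [hσs s h1 h2]) hk
      (hyp.2 _ (hin s k h1 h2 hk)) ((hyp.1 _ (hin s k h1 h2 hk)).1.mono (by linarith)) hN hl
    linarith
  have hW0 : 0 ≤ W := le_trans (by positivity) hW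
  by_cases hbot : ∀ k, ‖k‖ ≤ ϱ → S σ (C tb u) (c0 + tb • e + k) - u (c0 + tb • e + k)
      - ‖k‖ ^ 2 / (2 * ρ) ≤ α + β * tb - σ * tb ^ 2
  · exfalso
    have main := loc_conv (L := L) (γ := σ) (ρ := ρ) (K := σ) (α := α) (β := β) (t₁ := tb)
      (t₂ := 4) (ϱ := ϱ) (T := μ) (c := c0) (e := e) hu hσ hρ0 htb0 hμ0 ?_ ?_ ?_ ?_ (1 + σ) 0
      (by linarith) (by linarith) (by simpa using hϱ0.le)
    · have e0 : c0 + (1 + σ) • e + 0 = x0 := by rw [hc0]; abel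
      rw [e0, hb] at main
      have hx0 : ‖x0 - x0‖ ≤ 2 * μ * (L + 1) := by simp; positivity
      obtain ⟨e1, hF1⟩ := hyp.2 x0 hx0 16 (by norm_num) hμ16
      have a1 := (chain hu hμ0 (hyp.2 x0 hx0) hF n e1 (by rwa [hμ])).2
      have a2 := hF1.KB hu (by norm_num) (x := x0) (σ := 0) (h := 0) (t := 1) (γ := σ) (by simp)
        (by norm_num) (by norm_num) one_pos hσ (by linarith) (fun o ho =>
          (hyp.1 o (by linarith)).1.mono (by linarith))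
      have a3 : σ * (c - 8 * ((n : ℝ) + 1)) ≤ σ * (‖e1‖ ^ 2 / 2) :=
        mul_le_mul_of_nonneg_left (by linarith [(abs_le.1 a1).2]) hσ.le
      have a4 : 3 * ((1 + σ - tb) * κ) ≤ σ * (D + 21) := by
        rw [← eκ, ← mul_assoc]
        exact mul_le_mul_of_nonneg_right (by linarith) hκ0.le
      have a5 : σ * ((1 + σ - tb) * (4 - (1 + σ))) ≤ σ * 4 := by
        refine mul_le_mul_of_nonneg_left ?_ hσ.le
        nlinarith [sq_nonneg (1 + σ - 2)]
      have a6 : m * σ ≤ 2 * σ := mul_le_mul_of_nonneg_right hm2 hσ.le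
      have a7 : 0 ≤ σ * n := by positivity
      have e1' : σ * D = 310 * σ + 16 * (σ * n) := by rw [hD]; ring
      simp only [norm_zero, ne_eq, OfNat.ofNat_ne_zero, not_false_eq_true, zero_pow, zero_div]
        at main
      linarith
    · intro z s h1 h2 hz
      refine hyp.1 z ?_
      have e0 : z - x0 = (z - (c0 + s • e)) + (c0 + s • e - x0) := by abel
      rw [e0]
      have := norm_add_le (z - (c0 + s • e)) (c0 + s • e - x0)
      have := hdist s h1 h2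
      linarith
    · intro s k hk hs
      rcases hs with rfl | rfl
      · exact hbot k hk
      · have a1 := hU 4 k (by linarith) le_rfl hk
        have a2 : 0 ≤ ‖k‖ ^ 2 / (2 * ρ) := by positivity
        rw [hb]
        linarith
    · intro s k h1 h2 hk
      have a1 := hU s k h1 h2 hk.le
      have a2 := hb0 s h1 h2
      have e1 : ‖k‖ ^ 2 / (2 * ρ) = σ * (D + 21) := by rw [hk, hρ]; field_simp
      linarith
    · intro s k d h1 h2 hk hd hval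
      have a1 := hb0 s h1 h2
      have a2 : 0 ≤ ‖k‖ ^ 2 / (2 * ρ) := by positivity
      have a3 := hgap _ s (hdist2 s k d h1 h2 hk hd) h1 h2
      have a4 := hvel s k d h1 h2 hk (by linarith)
      have e0 : (1 / σ) • d - (1 / ρ) • k - e = ((1 / σ) • d - e) + -((1 / ρ) • k) := by abel
      have b1 := norm_add_sq_le ((1 / σ) • d - e) (-((1 / ρ) • k))
      rw [norm_neg, norm_smul_sq] at b1
      have hk3 : ‖k‖ ^ 2 ≤ ϱ ^ 2 := pow_le_pow_left₀ (norm_nonneg _) hk 2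
      have b2 : (1 / ρ) ^ 2 * ‖k‖ ^ 2 ≤ 4 * (D + 21) ^ 2 / ϱ ^ 2 := by
        have c1 : (1 / ρ) ^ 2 * ‖k‖ ^ 2 ≤ (1 / ρ) ^ 2 * ϱ ^ 2 :=
          mul_le_mul_of_nonneg_left hk3 (by positivity)
        have c2 : (1 / ρ) ^ 2 * ϱ ^ 2 = σ ^ 2 * (4 * (D + 21) ^ 2 / ϱ ^ 2) := by
          rw [hρ]; field_simp; ring
        have c3 : σ ^ 2 * (4 * (D + 21) ^ 2 / ϱ ^ 2) ≤ 1 * (4 * (D + 21) ^ 2 / ϱ ^ 2) :=
          mul_le_mul_of_nonneg_right (by nlinarith) (by positivity)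
        linarith
      have b3 : ‖k‖ ^ 2 / (2 * σ * ρ ^ 2) ≤ σ * (2 * (D + 21) ^ 2 / ϱ ^ 2) := by
        have c1 : ‖k‖ ^ 2 / (2 * σ * ρ ^ 2) ≤ ϱ ^ 2 / (2 * σ * ρ ^ 2) :=
          div_le_div_of_nonneg_right hk3 (by positivity)
        have c2 : ϱ ^ 2 / (2 * σ * ρ ^ 2) = σ * (2 * (D + 21) ^ 2 / ϱ ^ 2) := by
          rw [hρ]; field_simp
        linarith
      have b4 : ‖(1 / σ) • d - e + -((1 / ρ) • k)‖ ^ 2 / ρ
          ≤ (2 * W + 8 * (D + 21) ^ 2 / ϱ ^ 2) / ρ := by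
        refine div_le_div_of_nonneg_right ?_ hρ0.le
        have : 8 * (D + 21) ^ 2 / ϱ ^ 2 = 2 * (4 * (D + 21) ^ 2 / ϱ ^ 2) := by ring
        linarith
      have b5 : (2 * W + 8 * (D + 21) ^ 2 / ϱ ^ 2) / ρ
          = σ * (4 * (D + 21) * W / ϱ ^ 2 + 16 * (D + 21) ^ 3 / ϱ ^ 4) := by
        rw [hρ]; field_simp; ring
      have b6 := mul_lt_mul_of_pos_left hnum hσ
      rw [e0]
      linarith
  · push Not at hbot
    obtain ⟨k, hk, hval⟩ := hbot
    have a1 := hb0 tb le_rfl (by linarith)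
    have a2 : 0 ≤ ‖k‖ ^ 2 / (2 * ρ) := by positivity
    obtain ⟨d, hd, hde⟩ := exists_S (hu.C htb0) hσ (c0 + tb • e + k)
    have a0 := hdist2 tb k d le_rfl (by linarith) hk hd
    have a3 := hgap _ tb a0 le_rfl (by linarith)
    have a4 := hvel tb k d le_rfl (by linarith) hk (by linarith)
    have a5 := hUL tb k le_rfl (by linarith) hk
    have a6 := le_S' hu hσ (c0 + tb • e + k) d
    refine ⟨c0 + tb • e + k + d, tb - 1, k + σ • ((1 / σ) • d - e), ?_, ?_, ?_, a0,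
      by linarith, ?_⟩
    · rw [hpos, smul_sub, smul_smul, mul_one_div_cancel hσ.ne', one_smul]; module
    · rw [abs_le]; constructor <;> linarith
    · have b1 : W ≤ ϱ ^ 2 := by
        have c1 : 0 ≤ 2 * (D + 21) ^ 2 / ϱ ^ 2 := by positivity
        have c2 : 0 ≤ 16 * (D + 21) ^ 3 / ϱ ^ 4 := by positivity
        have c3 : 4 * (D + 21) * W / ϱ ^ 2 ≤ 1 := by linarith
        rw [div_le_one (by positivity)] at c3
        have c4 : 1 * W ≤ 4 * (D + 21) * W := mul_le_mul_of_nonneg_right (by linarith) hW0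
        linarith
      have b2 : ‖(1 / σ) • d - e‖ ≤ ϱ :=
        (pow_le_pow_iff_left₀ (norm_nonneg _) hϱ0.le two_ne_zero).1 (a4.trans b1)
      refine (norm_add_le _ _).trans ?_
      rw [norm_smul, Real.norm_of_nonneg hσ.le]
      have b3 := mul_le_mul (hσ3.trans (by norm_num : (1 / 3 : ℝ) ≤ 1)) b2 (norm_nonneg _)
        zero_le_one
      linarith
    · have b1 := le_S' hu.neg hσ (c0 + tb • e + k + d) (-d)
      rw [add_neg_cancel_right, norm_neg] at b1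
      unfold lev
      rw [le_div_iff₀ hσ]
      linarith

end Vale.Agent.P080
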