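import Mathlib

/-! Quadratic sup- and inf-convolutions of Lipschitz functions. -/

set_option linter.unusedSectionVars false

namespace Vale.Agent.P080

open scoped RealInnerProductSpace

variable {E : Type*} [NormedAddCommGroup E] [InnerProductSpace ℝ E]

/-- one-sided form of the Lipschitz condition -/
def Lip (L : ℝ) (u : E → ℝ) : Prop := 0 ≤ L ∧ ∀ x y, u x - u y ≤ L * ‖x - y‖

/-- sup-convolution -/
noncomputable def S (t : ℝ) (u : E → ℝ) (x : E) : ℝ := ⨆ y, (u y - ‖y - x‖ ^ 2 / (2 * t))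

/-- inf-convolution -/
noncomputable def I (t : ℝ) (u : E → ℝ) (x : E) : ℝ := - S t (fun y => - u y) x

/-- parabolic closing -/
noncomputable def C (t : ℝ) (u : E → ℝ) : E → ℝ := I t (S t u)

theorem Lip.neg {L : ℝ} {u : E → ℝ} (h : Lip L u) : Lip L (fun y => - u y) := by
  refine ⟨h.1, fun x y => ?_⟩
  have := h.2 y x
  rw [norm_sub_rev] at this
  linarith

theorem Lip.abs_le {L : ℝ} {u : E → ℝ} (h : Lip L u) (x y : E) :
    |u x - u y| ≤ L * ‖x - y‖ := by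
  have h1 := h.2 x y
  have h2 := h.2 y x
  rw [norm_sub_rev] at h2
  rw [_root_.abs_le]; constructor <;> linarith

theorem Lip.continuous {L : ℝ} {u : E → ℝ} (h : Lip L u) : Continuous u := by
  have : LipschitzWith (Real.toNNReal L) u := by
    refine LipschitzWith.of_dist_le_mul fun x y => ?_
    rw [Real.coe_toNNReal _ h.1, Real.dist_eq, dist_eq_norm]
    exact h.abs_le x y
  exact this.continuous

theorem quad_aux {L t r : ℝ} (ht : 0 < t) : L * r - r ^ 2 / (2 * t) ≤ L ^ 2 * t / 2 := by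
  have h : L ^ 2 * t / 2 - (L * r - r ^ 2 / (2 * t)) = (L * t - r) ^ 2 / (2 * t) := by
    field_simp; ring
  have : 0 ≤ (L * t - r) ^ 2 / (2 * t) := by positivity
  linarith

theorem Lip.term_le {L t : ℝ} {u : E → ℝ} (h : Lip L u) (ht : 0 < t) (x y : E) :
    u y - ‖y - x‖ ^ 2 / (2 * t) ≤ u x + L ^ 2 * t / 2 := by
  have h1 := h.2 y x
  have h2 := quad_aux (L := L) (r := ‖y - x‖) ht
  linarith

theorem le_S {L t : ℝ} {u : E → ℝ} (h : Lip L u) (ht : 0 < t) (x y : E) :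
    u y - ‖y - x‖ ^ 2 / (2 * t) ≤ S t u x :=
  le_ciSup (f := fun y => u y - ‖y - x‖ ^ 2 / (2 * t))
    ⟨u x + L ^ 2 * t / 2, by rintro _ ⟨y, rfl⟩; exact h.term_le ht x y⟩ y

theorem S_le {t c : ℝ} {u : E → ℝ} {x : E} (H : ∀ y, u y - ‖y - x‖ ^ 2 / (2 * t) ≤ c) :
    S t u x ≤ c := ciSup_le H

theorem le_S' {L t : ℝ} {u : E → ℝ} (h : Lip L u) (ht : 0 < t) (x m : E) :
    u (x + m) - ‖m‖ ^ 2 / (2 * t) ≤ S t u x := by
  simpa using le_S h ht x (x + m)

theorem S_le' {t c : ℝ} {u : E → ℝ} {x : E} (H : ∀ m, u (x + m) - ‖m‖ ^ 2 / (2 * t) ≤ c) :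
    S t u x ≤ c := S_le fun y => by simpa using H (y - x)

theorem self_le_S {L t : ℝ} {u : E → ℝ} (h : Lip L u) (ht : 0 < t) (x : E) : u x ≤ S t u x := by
  simpa using le_S h ht x x

theorem S_le_self {L t : ℝ} {u : E → ℝ} (h : Lip L u) (ht : 0 < t) (x : E) :
    S t u x ≤ u x + L ^ 2 * t / 2 := S_le fun y => h.term_le ht x y

theorem I_le {L t : ℝ} {u : E → ℝ} (h : Lip L u) (ht : 0 < t) (x y : E) :
    I t u x ≤ u y + ‖y - x‖ ^ 2 / (2 * t) := by
  have := le_S h.neg ht x y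
  unfold I; linarith

theorem le_I {t c : ℝ} {u : E → ℝ} {x : E} (H : ∀ y, c ≤ u y + ‖y - x‖ ^ 2 / (2 * t)) :
    c ≤ I t u x := by
  have : S t (fun y => - u y) x ≤ -c := S_le fun y => by have := H y; linarith
  unfold I; linarith

theorem I_le' {L t : ℝ} {u : E → ℝ} (h : Lip L u) (ht : 0 < t) (x m : E) :
    I t u x ≤ u (x + m) + ‖m‖ ^ 2 / (2 * t) := by
  simpa using I_le h ht x (x + m)

theorem le_I' {t c : ℝ} {u : E → ℝ} {x : E} (H : ∀ m, c ≤ u (x + m) + ‖m‖ ^ 2 / (2 * t)) :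
    c ≤ I t u x := le_I fun y => by simpa using H (y - x)

theorem I_le_self {L t : ℝ} {u : E → ℝ} (h : Lip L u) (ht : 0 < t) (x : E) : I t u x ≤ u x := by
  simpa using I_le h ht x x

theorem self_le_I {L t : ℝ} {u : E → ℝ} (h : Lip L u) (ht : 0 < t) (x : E) :
    u x - L ^ 2 * t / 2 ≤ I t u x := by
  have := S_le_self h.neg ht x
  unfold I; linarith

theorem Lip.S {L t : ℝ} {u : E → ℝ} (h : Lip L u) (ht : 0 < t) : Lip L (S t u) := by
  refine ⟨h.1, fun x y => ?_⟩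
  have : P080.S t u x ≤ P080.S t u y + L * ‖x - y‖ := S_le' fun m => by
    have h1 := le_S' h ht y m
    have h2 := h.2 (x + m) (y + m)
    have : x + m - (y + m) = x - y := by abel
    rw [this] at h2
    linarith
  linarith

theorem Lip.I {L t : ℝ} {u : E → ℝ} (h : Lip L u) (ht : 0 < t) : Lip L (I t u) :=
  (h.neg.S ht).neg

theorem Lip.C {L t : ℝ} {u : E → ℝ} (h : Lip L u) (ht : 0 < t) : Lip L (C t u) :=
  (h.S ht).I ht

theorem S_mono_add {L t c : ℝ} {u w : E → ℝ} (hw : Lip L w) (ht : 0 < t)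
    (H : ∀ y, u y ≤ w y + c) (x : E) : S t u x ≤ S t w x + c :=
  S_le fun y => by have := le_S hw ht x y; have := H y; linarith

theorem I_mono_add {L t c : ℝ} {u w : E → ℝ} (hu : Lip L u) (ht : 0 < t)
    (H : ∀ y, u y ≤ w y + c) (x : E) : I t u x ≤ I t w x + c := by
  have : I t u x - c ≤ I t w x := le_I fun y => by
    have := I_le hu ht x y; have := H y; linarith
  linarith

theorem C_mono_add {L t c : ℝ} {u w : E → ℝ} (hu : Lip L u) (hw : Lip L w) (ht : 0 < t)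
    (H : ∀ y, u y ≤ w y + c) (x : E) : C t u x ≤ C t w x + c :=
  I_mono_add (hu.S ht) ht (S_mono_add hw ht H) x

theorem norm_sq_split {a b : ℝ} (ha : 0 < a) (hb : 0 < b) (p q : E) :
    ‖p + q‖ ^ 2 / (2 * (a + b)) ≤ ‖p‖ ^ 2 / (2 * a) + ‖q‖ ^ 2 / (2 * b) := by
  have h1 : ‖p + q‖ ^ 2 ≤ (‖p‖ + ‖q‖) ^ 2 :=
    pow_le_pow_left₀ (norm_nonneg _) (norm_add_le p q) 2
  have h2 : ‖p‖ ^ 2 / (2 * a) + ‖q‖ ^ 2 / (2 * b) - (‖p‖ + ‖q‖) ^ 2 / (2 * (a + b))
      = (b * ‖p‖ - a * ‖q‖) ^ 2 / (2 * a * b * (a + b)) := by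
    field_simp; ring
  have h3 : 0 ≤ (b * ‖p‖ - a * ‖q‖) ^ 2 / (2 * a * b * (a + b)) := by positivity
  have h4 : ‖p + q‖ ^ 2 / (2 * (a + b)) ≤ (‖p‖ + ‖q‖) ^ 2 / (2 * (a + b)) :=
    div_le_div_of_nonneg_right h1 (by positivity)
  linarith

theorem S_S {L a b : ℝ} {u : E → ℝ} (h : Lip L u) (ha : 0 < a) (hb : 0 < b) :
    S a (S b u) = S (a + b) u := by
  funext x
  apply le_antisymm
  · refine S_le' fun m => ?_
    have : S b u (x + m) ≤ S (a + b) u x + ‖m‖ ^ 2 / (2 * a) := S_le' fun k => by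
      have h1 := le_S' h (add_pos ha hb) x (m + k)
      have h2 := norm_sq_split ha hb m k
      rw [← add_assoc] at h1
      linarith
    linarith
  · refine S_le' fun m => ?_
    have h1 := le_S' (h.S hb) ha x ((a / (a + b)) • m)
    have h2 := le_S' h hb (x + (a / (a + b)) • m) ((b / (a + b)) • m)
    have h3 : x + (a / (a + b)) • m + (b / (a + b)) • m = x + m := by
      rw [add_assoc, ← add_smul]
      have : a / (a + b) + b / (a + b) = 1 := by field_simp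
      rw [this, one_smul]
    rw [h3] at h2
    rw [norm_smul, Real.norm_of_nonneg (by positivity)] at h1 h2
    have h4 : ‖m‖ ^ 2 / (2 * (a + b)) = (a / (a + b) * ‖m‖) ^ 2 / (2 * a)
        + (b / (a + b) * ‖m‖) ^ 2 / (2 * b) := by
      field_simp
    linarith

theorem I_I {L a b : ℝ} {u : E → ℝ} (h : Lip L u) (ha : 0 < a) (hb : 0 < b) :
    I a (I b u) = I (a + b) u := by
  funext x
  have := congrFun (S_S h.neg ha hb) x
  unfold I
  simp only [neg_neg]
  rw [← this]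

theorem le_I_S {L t : ℝ} {u : E → ℝ} (h : Lip L u) (ht : 0 < t) (x : E) :
    u x ≤ I t (S t u) x := le_I fun y => by
  have := le_S h ht y x
  rw [norm_sub_rev] at this
  linarith

theorem le_C {L t : ℝ} {u : E → ℝ} (h : Lip L u) (ht : 0 < t) (x : E) : u x ≤ C t u x :=
  le_I_S h ht x

theorem S_mono_t {L a b : ℝ} {u : E → ℝ} (h : Lip L u) (ha : 0 < a) (hab : a ≤ b) (x : E) :
    S a u x ≤ S b u x := S_le fun y => by
  have h1 := le_S h (lt_of_lt_of_le ha hab) x y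
  have h2 : ‖y - x‖ ^ 2 / (2 * b) ≤ ‖y - x‖ ^ 2 / (2 * a) :=
    div_le_div_of_nonneg_left (by positivity) (by positivity) (by linarith)
  linarith

theorem S_le_t {L a b : ℝ} {u : E → ℝ} (h : Lip L u) (ha : 0 < a) (hab : a ≤ b) (x : E) :
    S b u x ≤ S a u x + L ^ 2 * (b - a) / 2 := by
  rcases hab.eq_or_lt with rfl | hlt
  · simp
  · have h1 := congrFun (S_S h (sub_pos.2 hlt) ha) x
    have h2 := S_le_self (h.S ha) (sub_pos.2 hlt) x
    have : b - a + a = b := by ring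
    rw [this] at h1
    linarith

theorem I_anti_t {L a b : ℝ} {u : E → ℝ} (h : Lip L u) (ha : 0 < a) (hab : a ≤ b) (x : E) :
    I b u x ≤ I a u x := by
  have := S_mono_t h.neg ha hab x
  unfold I; linarith

theorem C_mono_t {L a b : ℝ} {u : E → ℝ} (h : Lip L u) (ha : 0 < a) (hab : a ≤ b) (x : E) :
    C a u x ≤ C b u x := by
  rcases hab.eq_or_lt with rfl | hlt
  · exact le_rfl
  · have hd : 0 < b - a := sub_pos.2 hlt
    have h1 : S b u = S (b - a) (S a u) := by rw [S_S h hd ha]; congr 1; ring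
    have h2 : I b (S b u) = I a (I (b - a) (S b u)) := by
      rw [I_I (h.S (ha.trans hlt)) ha hd]; congr 1; ring
    unfold C
    rw [h2]
    have := I_mono_add (c := 0) (w := I (b - a) (S b u)) (h.S ha) ha (fun y => by
      rw [h1]; simpa using le_I_S (h.S ha) hd y) x
    simpa using this

theorem C_le_t {L a b : ℝ} {u : E → ℝ} (h : Lip L u) (ha : 0 < a) (hab : a ≤ b) (x : E) :
    C b u x ≤ C a u x + L ^ 2 * (b - a) / 2 := by
  have hb := lt_of_lt_of_le ha hab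
  have h1 := I_anti_t (h.S hb) ha hab x
  have h2 := I_mono_add (w := S a u) (h.S hb) ha (S_le_t h ha hab) x
  unfold C; linarith

theorem C_le_self {L t : ℝ} {u : E → ℝ} (h : Lip L u) (ht : 0 < t) (x : E) :
    C t u x ≤ u x + L ^ 2 * t / 2 := by
  have h1 := I_le_self (h.S ht) ht x
  have h2 := S_le_self h ht x
  unfold C; linarith

theorem norm_le_of_max {L t : ℝ} {u : E → ℝ} (h : Lip L u) (ht : 0 < t) {x m : E}
    (H : u x ≤ u (x + m) - ‖m‖ ^ 2 / (2 * t)) : ‖m‖ ≤ 2 * L * t := by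
  have h1 := h.2 (x + m) x
  rw [add_sub_cancel_left] at h1
  have h2 : ‖m‖ ^ 2 / (2 * t) ≤ L * ‖m‖ := by linarith
  rw [div_le_iff₀ (by positivity)] at h2
  rcases (norm_nonneg m).eq_or_lt with h0 | hpos
  · rw [← h0]; have := h.1; positivity
  · have : ‖m‖ * ‖m‖ ≤ (2 * L * t) * ‖m‖ := by nlinarith
    exact le_of_mul_le_mul_right this hpos

theorem exists_S [FiniteDimensional ℝ E] {L t : ℝ} {u : E → ℝ} (h : Lip L u) (ht : 0 < t)
    (x : E) : ∃ m, ‖m‖ ≤ 2 * L * t ∧ S t u x = u (x + m) - ‖m‖ ^ 2 / (2 * t) := by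
  have : ProperSpace E := FiniteDimensional.proper ℝ E
  have hc : Continuous fun m : E => u (x + m) - ‖m‖ ^ 2 / (2 * t) := by
    have := h.continuous
    fun_prop
  have hL := h.1
  obtain ⟨m, hm, hmax⟩ := (isCompact_closedBall (0 : E) (2 * L * t)).exists_isMaxOn
    ⟨0, by simp; positivity⟩ hc.continuousOn
  rw [mem_closedBall_zero_iff] at hm
  refine ⟨m, hm, le_antisymm (S_le' fun k => ?_) (le_S' h ht x m)⟩
  by_cases hk : ‖k‖ ≤ 2 * L * t
  · exact hmax (mem_closedBall_zero_iff.2 hk)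
  · have h0 : u (x + 0) - ‖(0 : E)‖ ^ 2 / (2 * t) ≤ u (x + m) - ‖m‖ ^ 2 / (2 * t) :=
      hmax (mem_closedBall_zero_iff.2 (by simp; positivity))
    by_contra hcon
    push Not at hcon
    apply hk
    apply norm_le_of_max h ht (x := x)
    simp at h0
    linarith

theorem exists_I [FiniteDimensional ℝ E] {L t : ℝ} {u : E → ℝ} (h : Lip L u) (ht : 0 < t)
    (x : E) : ∃ m, ‖m‖ ≤ 2 * L * t ∧ I t u x = u (x + m) + ‖m‖ ^ 2 / (2 * t) := by
  obtain ⟨m, hm, he⟩ := exists_S h.neg ht x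
  refine ⟨m, hm, ?_⟩
  unfold I; rw [he]; ring

/-- a touching paraboloid -/
theorem exists_parab [FiniteDimensional ℝ E] {L t : ℝ} {u : E → ℝ} (h : Lip L u) (ht : 0 < t)
    (x : E) : ∃ b : E, ∀ k, u (x + k) ≤ C t u x + ⟪b, k⟫ + ‖k‖ ^ 2 / (2 * t) := by
  obtain ⟨m, -, he⟩ := exists_I (h.S ht) ht x
  refine ⟨-(1 / t) • m, fun k => ?_⟩
  have h1 := le_S' h ht (x + m) (k - m)
  have h2 : x + m + (k - m) = x + k := by abel
  rw [h2, norm_sub_sq_real] at h1
  unfold C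
  rw [he, real_inner_smul_left, real_inner_comm]
  have : (‖k‖ ^ 2 - 2 * ⟪k, m⟫ + ‖m‖ ^ 2) / (2 * t)
      = ‖k‖ ^ 2 / (2 * t) - 1 / t * ⟪k, m⟫ + ‖m‖ ^ 2 / (2 * t) := by
    field_simp
  rw [this] at h1
  linarith

end Vale.Agent.P080
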