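import Vale.Agent.P080.Dual

/-! The coupled maximum principle and its localized form. -/

set_option linter.unusedSectionVars false

namespace Vale.Agent.P080

open scoped RealInnerProductSpace

variable {E : Type*} [NormedAddCommGroup E] [InnerProductSpace ℝ E]

/-- convexity in time of the sup-convolution at a point -/
def Sub (u : E → ℝ) (x : E) (T : ℝ) : Prop :=
  ∀ t₁ t t₂, 0 < t₁ → t₁ ≤ t → t ≤ t₂ → t₂ ≤ T →
    (t₂ - t₁) * S t u x ≤ (t₂ - t) * S t₁ u x + (t - t₁) * S t₂ u x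

theorem Sub.mono {u : E → ℝ} {x : E} {T T' : ℝ} (h : Sub u x T) (hT : T' ≤ T) : Sub u x T' :=
  fun t₁ t t₂ a b c d => h t₁ t t₂ a b c (d.trans hT)

theorem Sub.zero {L T t t₂ : ℝ} {u : E → ℝ} {x : E} (hu : Lip L u) (h : Sub u x T)
    (ht : 0 < t) (h2 : t ≤ t₂) (hT : t₂ ≤ T) :
    t₂ * (S t u x - u x) ≤ t * (S t₂ u x - u x) := by
  have hL := hu.1
  have ht2 : 0 < t₂ := lt_of_lt_of_le ht h2
  refine le_of_forall_eta (L := L ^ 2 * t₂) (by positivity) ht fun η hη hηt => ?_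
  have h1 := h η t t₂ hη hηt h2 hT
  have h3 := S_le_self hu hη x
  have h4 := self_le_S hu ht x
  have h5 := S_le_self hu ht x
  have h6 := self_le_S hu ht2 x
  have h7 : (t₂ - t) * S η u x ≤ (t₂ - t) * (u x + L ^ 2 * η / 2) :=
    mul_le_mul_of_nonneg_left h3 (by linarith)
  have h8 : η * S t u x ≤ η * (u x + L ^ 2 * t / 2) := mul_le_mul_of_nonneg_left h5 hη.le
  have h9 : η * u x ≤ η * S t₂ u x := mul_le_mul_of_nonneg_left h6 hη.le
  have h10 : 0 ≤ L ^ 2 * η * t₂ := by positivity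
  nlinarith

theorem Sub.disc {L T ε τ : ℝ} {u : E → ℝ} {x : E} (hu : Lip L u) (h : Sub u x T)
    (hτ : 0 < τ) (hε : τ < ε) (hT : ε + τ ≤ T) :
    2 * S ε u x ≤ S τ (S ε u) x + I τ (S ε u) x := by
  have hε0 := hτ.trans hε
  have hd : 0 < ε - τ := sub_pos.2 hε
  have h1 := h (ε - τ) ε (ε + τ) hd (by linarith) (by linarith) hT
  have h2 : S τ (S ε u) x = S (ε + τ) u x := by rw [S_S hu hτ hε0, add_comm]
  have h3 : S (ε - τ) u x ≤ I τ (S ε u) x := by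
    have := le_I_S (hu.S hd) hτ x
    rw [S_S hu hτ hd] at this
    have e : τ + (ε - τ) = ε := by ring
    rwa [e] at this
  have h4 : τ * (2 * S ε u x) ≤ τ * (S (ε - τ) u x + S (ε + τ) u x) := by nlinarith
  have := le_of_mul_le_mul_left h4 hτ
  linarith

theorem norm_add_sq_le (a b : E) : ‖a + b‖ ^ 2 ≤ 2 * ‖a‖ ^ 2 + 2 * ‖b‖ ^ 2 := by
  have h1 : ‖a + b‖ ^ 2 ≤ (‖a‖ + ‖b‖) ^ 2 :=
    pow_le_pow_left₀ (norm_nonneg _) (norm_add_le a b) 2
  nlinarith [sq_nonneg (‖a‖ - ‖b‖)]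

theorem norm_smul_sq (s : ℝ) (a : E) : ‖s • a‖ ^ 2 = s ^ 2 * ‖a‖ ^ 2 := by
  rw [norm_smul, mul_pow, Real.norm_eq_abs, sq_abs]

theorem coupled (F : E → ℝ → ℝ) (G : E → ℝ) (pb p0 e : E) {a A B K r Λ τ0 : ℝ}
    (hA : 0 ≤ A) (hB : 0 ≤ B) (hr : 0 < r) (hτ0 : 0 < τ0) (hΛ : 0 ≤ Λ)
    (F0 : F 0 0 = 0) (G0 : G 0 = 0)
    (h1 : ∀ k k' s, ‖k'‖ ≤ r → |s| ≤ r → F k s - G k' ≤
      ⟪pb, k⟫ - ⟪p0, k'⟫ + a * s + A * ‖k - k'‖ ^ 2 + B * ‖k' - s • e‖ ^ 2 - K * s ^ 2)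
    (h2 : ∀ τ, 0 < τ → τ < τ0 → ∃ m, ‖m‖ ≤ Λ * τ ∧ ∀ m',
      0 ≤ F m τ - ‖m‖ ^ 2 / (2 * τ) + F (-m') (-τ) + ‖m'‖ ^ 2 / (2 * τ))
    (h3 : ∀ τ, 0 < τ → τ < τ0 → ∃ m, ‖m‖ ≤ Λ * τ ∧ ∀ m',
      G m' - ‖m'‖ ^ 2 / (2 * τ) + G (-m) + ‖m‖ ^ 2 / (2 * τ) ≤ 0) :
    K ≤ A * ‖pb - p0‖ ^ 2 + 2 * B * ‖p0 - e‖ ^ 2 := by
  obtain ⟨κ, rfl⟩ : ∃ κ, pb = p0 + κ := ⟨pb - p0, by abel⟩
  rw [add_sub_cancel_left]
  set Ca : ℝ := A * Λ ^ 2 + A * ‖p0 + κ‖ ^ 2 + 2 * B * ‖e‖ ^ 2 + 2 * |K| with hCa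
  set Cb : ℝ := (A + B) * (‖p0‖ ^ 2 + Λ ^ 2) with hCb
  have hCa0 : 0 ≤ Ca := by positivity
  have hCb0 : 0 ≤ Cb := by positivity
  set D : ℝ := Λ + ‖κ‖ + ‖p0‖ + 1 with hD
  have hD0 : 0 < D := by positivity
  refine le_of_forall_eta (L := 2 * B * (Ca + Cb)) (t := min (τ0 / 2) (r / D)) (by positivity)
    (by positivity) fun τ hτ hτle => ?_
  have hτ1 : τ < τ0 := by have := hτle.trans (min_le_left _ _); linarith
  have hτ2 : τ * D ≤ r := by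
    have := hτle.trans (min_le_right _ _); rwa [le_div_iff₀ hD0] at this
  have hκ0 := norm_nonneg κ
  have hp0 := norm_nonneg p0
  have hτD : τ * Λ + τ * ‖κ‖ + τ * ‖p0‖ + τ ≤ r := by rw [hD] at hτ2; linarith
  have q1 : 0 ≤ τ * Λ := by positivity
  have q2 : 0 ≤ τ * ‖κ‖ := by positivity
  have q3 : 0 ≤ τ * ‖p0‖ := by positivity
  have hτr : τ ≤ r := by linarith
  have hτr' : |τ| ≤ r := by rwa [abs_of_pos hτ]
  have hτr'' : |-τ| ≤ r := by rwa [abs_neg]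
  obtain ⟨m, hm, Hm⟩ := h2 τ hτ hτ1
  obtain ⟨n, hn, Hn⟩ := h3 τ hτ hτ1
  have hm2 : ‖m‖ ^ 2 ≤ Λ ^ 2 * τ ^ 2 := by
    rw [← mul_pow]; exact pow_le_pow_left₀ (norm_nonneg _) hm 2
  have hn2 : ‖n‖ ^ 2 ≤ Λ ^ 2 * τ ^ 2 := by
    rw [← mul_pow]; exact pow_le_pow_left₀ (norm_nonneg _) hn 2
  have hK1 : -K ≤ |K| := neg_le_abs K
  -- velocity of the forward move
  have va : ‖m - τ • (p0 + κ)‖ ^ 2 ≤ 2 * τ ^ 3 * Ca := by
    have a1 := h1 m 0 τ (by simpa using hr.le) hτr'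
    have a2 := h1 (-(τ • (p0 + κ))) 0 (-τ) (by simpa using hr.le) hτr''
    have a3 := Hm (τ • (p0 + κ))
    simp only [G0, inner_zero_right, sub_zero, zero_sub, norm_neg, norm_smul_sq,
      inner_neg_right, real_inner_smul_right, real_inner_self_eq_norm_sq] at a1 a2 a3
    rw [norm_sub_sq_real, real_inner_smul_right, norm_smul_sq, real_inner_comm]
    have e1 : τ ^ 2 * ‖p0 + κ‖ ^ 2 / (2 * τ) = τ * ‖p0 + κ‖ ^ 2 / 2 := by field_simp
    rw [e1] at a3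
    have a4 : A * ‖m‖ ^ 2 ≤ A * (Λ ^ 2 * τ ^ 2) := mul_le_mul_of_nonneg_left hm2 hA
    have a5 : -K * τ ^ 2 ≤ |K| * τ ^ 2 := mul_le_mul_of_nonneg_right hK1 (by positivity)
    have a6 : ‖m‖ ^ 2 / (2 * τ) - ⟪p0 + κ, m⟫ + τ * ‖p0 + κ‖ ^ 2 / 2 ≤ τ ^ 2 * Ca := by
      rw [hCa]; linarith
    have a7 := mul_le_mul_of_nonneg_left a6 (by positivity : 0 ≤ 2 * τ)
    have e2 : 2 * τ * (‖m‖ ^ 2 / (2 * τ) - ⟪p0 + κ, m⟫ + τ * ‖p0 + κ‖ ^ 2 / 2)
        = ‖m‖ ^ 2 - 2 * (τ * ⟪p0 + κ, m⟫) + τ ^ 2 * ‖p0 + κ‖ ^ 2 := by field_simp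
    rw [e2] at a7
    linarith
  -- velocity of the backward move
  have vb : ‖n - τ • p0‖ ^ 2 ≤ 2 * τ ^ 3 * Cb := by
    have a1 := h1 0 (τ • p0) 0
      (by rw [norm_smul, Real.norm_of_nonneg hτ.le]; linarith) (by simpa using hr.le)
    have a2 := h1 0 (-n) 0 (by rw [norm_neg]; linarith) (by simpa using hr.le)
    have a3 := Hn (τ • p0)
    simp only [F0, inner_zero_right, sub_zero, zero_sub, norm_neg, norm_smul_sq, zero_smul,
      inner_neg_right, real_inner_smul_right, real_inner_self_eq_norm_sq, neg_neg] at a1 a2 a3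
    rw [norm_sub_sq_real, real_inner_smul_right, norm_smul_sq, real_inner_comm]
    have e1 : τ ^ 2 * ‖p0‖ ^ 2 / (2 * τ) = τ * ‖p0‖ ^ 2 / 2 := by field_simp
    rw [e1] at a3
    have a4 : (A + B) * ‖n‖ ^ 2 ≤ (A + B) * (Λ ^ 2 * τ ^ 2) :=
      mul_le_mul_of_nonneg_left hn2 (by positivity)
    have a6 : ‖n‖ ^ 2 / (2 * τ) - ⟪p0, n⟫ + τ * ‖p0‖ ^ 2 / 2 ≤ τ ^ 2 * Cb := by
      rw [hCb]; linarith
    have a7 := mul_le_mul_of_nonneg_left a6 (by positivity : 0 ≤ 2 * τ)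
    have e2 : 2 * τ * (‖n‖ ^ 2 / (2 * τ) - ⟪p0, n⟫ + τ * ‖p0‖ ^ 2 / 2)
        = ‖n‖ ^ 2 - 2 * (τ * ⟪p0, n⟫) + τ ^ 2 * ‖p0‖ ^ 2 := by field_simp
    rw [e2] at a7
    linarith
  -- the coupling
  have b1 := Hm (n + τ • κ)
  have b2 := Hn (m - τ • κ)
  have b3 := h1 m (m - τ • κ) τ (by
    refine (norm_sub_le _ _).trans ?_
    rw [norm_smul, Real.norm_of_nonneg hτ.le]; linarith) hτr'
  have b4 := h1 (-(n + τ • κ)) (-n) (-τ) (by rw [norm_neg]; linarith) hτr''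
  have e1 : ‖n + τ • κ‖ ^ 2 / (2 * τ) = ‖n‖ ^ 2 / (2 * τ) + ⟪κ, n⟫ + τ * ‖κ‖ ^ 2 / 2 := by
    rw [norm_add_sq_real, real_inner_smul_right, norm_smul_sq, real_inner_comm]; field_simp
  have e2 : ‖m - τ • κ‖ ^ 2 / (2 * τ) = ‖m‖ ^ 2 / (2 * τ) - ⟪κ, m⟫ + τ * ‖κ‖ ^ 2 / 2 := by
    rw [norm_sub_sq_real, real_inner_smul_right, norm_smul_sq, real_inner_comm]; field_simp
  have e3 : ⟪p0 + κ, m⟫ - ⟪p0, m - τ • κ⟫ = ⟪κ, m⟫ + τ * ⟪p0, κ⟫ := by
    rw [inner_add_left, inner_sub_right, real_inner_smul_right]; ring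
  have e4 : ⟪p0 + κ, -(n + τ • κ)⟫ - ⟪p0, -n⟫ = -⟪κ, n⟫ - τ * ⟪p0, κ⟫ - τ * ‖κ‖ ^ 2 := by
    simp only [inner_add_left, inner_neg_right, inner_add_right, real_inner_smul_right,
      real_inner_self_eq_norm_sq]
    ring
  have e5 : ‖m - (m - τ • κ)‖ ^ 2 = τ ^ 2 * ‖κ‖ ^ 2 := by
    rw [sub_sub_cancel, norm_smul_sq]
  have e6 : ‖-(n + τ • κ) - -n‖ ^ 2 = τ ^ 2 * ‖κ‖ ^ 2 := by
    have : -(n + τ • κ) - -n = -(τ • κ) := by abel
    rw [this, norm_neg, norm_smul_sq]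
  have e7 : ‖m - τ • κ - τ • e‖ ^ 2 ≤ 2 * (τ ^ 2 * ‖p0 - e‖ ^ 2) + 2 * (2 * τ ^ 3 * Ca) := by
    have : m - τ • κ - τ • e = τ • (p0 - e) + (m - τ • (p0 + κ)) := by
      simp only [smul_sub, smul_add]; abel
    rw [this]
    have := norm_add_sq_le (τ • (p0 - e)) (m - τ • (p0 + κ))
    rw [norm_smul_sq] at this
    linarith
  have e8 : ‖-n - -τ • e‖ ^ 2 ≤ 2 * (τ ^ 2 * ‖p0 - e‖ ^ 2) + 2 * (2 * τ ^ 3 * Cb) := by
    have : -n - -τ • e = -(τ • (p0 - e) + (n - τ • p0)) := by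
      simp only [smul_sub, neg_smul]; abel
    rw [this, norm_neg]
    have := norm_add_sq_le (τ • (p0 - e)) (n - τ • p0)
    rw [norm_smul_sq] at this
    linarith
  rw [e1] at b1
  rw [e2] at b2
  rw [e3, e5] at b3
  rw [e4, e6] at b4
  have c1 := mul_le_mul_of_nonneg_left e7 hB
  have c2 := mul_le_mul_of_nonneg_left e8 hB
  have c3 : τ ^ 2 * (2 * K) ≤ τ ^ 2 * (2 * (A * ‖κ‖ ^ 2 + 2 * B * ‖p0 - e‖ ^ 2
      + 2 * B * (Ca + Cb) * τ)) := by linarith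
  have := le_of_mul_le_mul_left c3 (by positivity)
  linarith

theorem SC_lip {L γ s s' : ℝ} {U : E → ℝ} (hU : Lip L U) (hγ : 0 < γ) (hs : 0 < s)
    (hs' : 0 < s') (x x' : E) :
    |S γ (C s U) x - S γ (C s' U) x'| ≤ L * ‖x - x'‖ + L ^ 2 * |s - s'| / 2 := by
  have key : ∀ a b : ℝ, 0 < a → 0 < b → ∀ y,
      S γ (C a U) y ≤ S γ (C b U) y + L ^ 2 * |a - b| / 2 := by
    intro a b ha hb y
    refine S_mono_add (hU.C hb) hγ (fun z => ?_) y
    rcases le_total a b with hab | hab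
    · have := C_mono_t hU ha hab z
      have : 0 ≤ L ^ 2 * |a - b| / 2 := by positivity
      linarith
    · have := C_le_t hU hb hab z
      rwa [abs_of_nonneg (by linarith)]
  have h1 := ((hU.C hs).S hγ).abs_le x x'
  have h2 := key s s' hs hs' x'
  have h3 := key s' s hs' hs x'
  rw [abs_sub_comm s' s] at h3
  rw [abs_le] at h1 ⊢
  constructor <;> linarith [h1.1, h1.2]

/-- the localized maximum principle for the penalized gap -/
theorem loc_conv [FiniteDimensional ℝ E] {L γ ρ K α β t₁ t₂ ϱ T : ℝ} {u : E → ℝ} {c e : E}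
    (hu : Lip L u) (hγ : 0 < γ) (hρ : 0 < ρ) (ht₁ : 0 < t₁) (hT : 0 < T)
    (good : ∀ z s, t₁ ≤ s → s ≤ t₂ → ‖z - (c + s • e)‖ ≤ ϱ + 2 * L * γ + (4 * L + 1) * t₂ →
      Sub u z T ∧ Sub (fun y => - u y) z T)
    (hend : ∀ s k, ‖k‖ ≤ ϱ → (s = t₁ ∨ s = t₂) →
      S γ (C s u) (c + s • e + k) - u (c + s • e + k) - ‖k‖ ^ 2 / (2 * ρ)
        ≤ α + β * s - K * s ^ 2)
    (hside : ∀ s k, t₁ ≤ s → s ≤ t₂ → ‖k‖ = ϱ →
      S γ (C s u) (c + s • e + k) - u (c + s • e + k) - ‖k‖ ^ 2 / (2 * ρ)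
        ≤ α + β * s - K * s ^ 2)
    (hK : ∀ s k d, t₁ ≤ s → s ≤ t₂ → ‖k‖ ≤ ϱ → ‖d‖ ≤ 2 * L * γ →
      α + β * s - K * s ^ 2 ≤ C s u (c + s • e + k + d) - u (c + s • e + k)
        - ‖d‖ ^ 2 / (2 * γ) - ‖k‖ ^ 2 / (2 * ρ) →
      ‖k‖ ^ 2 / (2 * γ * ρ ^ 2) + ‖(1 / γ) • d - (1 / ρ) • k - e‖ ^ 2 / ρ < K) :
    ∀ s k, t₁ ≤ s → s ≤ t₂ → ‖k‖ ≤ ϱ →
      S γ (C s u) (c + s • e + k) - u (c + s • e + k) - ‖k‖ ^ 2 / (2 * ρ)
        ≤ α + β * s - K * s ^ 2 := by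
  have : ProperSpace E := FiniteDimensional.proper ℝ E
  intro s0 k0 hs01 hs02 hk0
  by_contra hcon
  push Not at hcon
  have hL := hu.1
  set η : ℝ := (S γ (C s0 u) (c + s0 • e + k0) - u (c + s0 • e + k0) - ‖k0‖ ^ 2 / (2 * ρ)
    - (α + β * s0 - K * s0 ^ 2)) / 2 with hη
  have hη0 : 0 < η := by rw [hη]; linarith
  set ε : ℝ := min (T / 2) (η / (L ^ 2 + 1)) with hε
  have hε0 : 0 < ε := by positivity
  have hεT : ε ≤ T / 2 := min_le_left _ _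
  have hεη : L ^ 2 * ε ≤ η := by
    have h1 : ε ≤ η / (L ^ 2 + 1) := min_le_right _ _
    rw [le_div_iff₀ (by positivity)] at h1
    nlinarith
  set U := S ε u with hU
  set W := I ε u with hW
  have hUl : Lip L U := hu.S hε0
  have hWl : Lip L W := hu.I hε0
  have hCU : ∀ s, 0 < s → ∀ y, C s U y ≤ C s u y + L ^ 2 * ε / 2 := fun s hs y =>
    C_mono_add hUl hu hs (S_le_self hu hε0) y
  have hCU' : ∀ s, 0 < s → ∀ y, C s u y ≤ C s U y + 0 := fun s hs y =>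
    C_mono_add hu hUl hs (fun z => by simpa using self_le_S hu hε0 z) y
  set Ψ : E × ℝ → ℝ := fun p => S γ (C p.2 U) (c + p.2 • e + p.1) - W (c + p.2 • e + p.1)
    - ‖p.1‖ ^ 2 / (2 * ρ) - (α + β * p.2 - K * p.2 ^ 2) with hΨ
  set Kset : Set (E × ℝ) := Metric.closedBall 0 ϱ ×ˢ Set.Icc t₁ t₂ with hKset
  have hKc : IsCompact Kset := (isCompact_closedBall 0 ϱ).prod isCompact_Icc
  have hcont : ContinuousOn Ψ Kset := by
    have hW' := hWl.continuous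
    have h1 : ContinuousOn (fun p : E × ℝ => S γ (C p.2 U) (c + p.2 • e + p.1)) Kset := by
      intro p hp
      have hp2 : 0 < p.2 := lt_of_lt_of_le ht₁ hp.2.1
      rw [ContinuousWithinAt, tendsto_iff_norm_sub_tendsto_zero]
      have hlim : Filter.Tendsto (fun q : E × ℝ =>
          L * ‖(c + q.2 • e + q.1) - (c + p.2 • e + p.1)‖ + L ^ 2 * |q.2 - p.2| / 2)
          (nhdsWithin p Kset) (nhds 0) := by
        have hc : Continuous (fun q : E × ℝ =>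
          L * ‖(c + q.2 • e + q.1) - (c + p.2 • e + p.1)‖ + L ^ 2 * |q.2 - p.2| / 2) := by
          fun_prop
        have := hc.tendsto p
        simp only [sub_self, norm_zero, mul_zero, abs_zero, zero_div, add_zero] at this
        exact this.mono_left nhdsWithin_le_nhds
      refine squeeze_zero' (Filter.Eventually.of_forall fun _ => norm_nonneg _) ?_ hlim
      filter_upwards [self_mem_nhdsWithin] with q hq
      rw [Real.norm_eq_abs]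
      exact SC_lip hUl hγ (lt_of_lt_of_le ht₁ hq.2.1) hp2 _ _
    rw [hΨ]
    refine ((h1.sub ?_).sub ?_).sub ?_ <;> apply Continuous.continuousOn <;> fun_prop
  have hmem0 : (k0, s0) ∈ Kset := ⟨mem_closedBall_zero_iff.2 hk0, hs01, hs02⟩
  obtain ⟨⟨k, s⟩, ⟨hk, hs1, hs2⟩, hmax⟩ := hKc.exists_isMaxOn ⟨_, hmem0⟩ hcont
  rw [mem_closedBall_zero_iff] at hk
  simp only at hk hs1 hs2
  have hs0 : 0 < s := lt_of_lt_of_le ht₁ hs1
  have hup : ∀ s k, 0 < s → Ψ (k, s) ≤ S γ (C s u) (c + s • e + k) - u (c + s • e + k)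
      - ‖k‖ ^ 2 / (2 * ρ) - (α + β * s - K * s ^ 2) + η := by
    intro s k hs
    have h1 := S_mono_add (hu.C hs) hγ (hCU s hs) (c + s • e + k)
    have h2 := self_le_I hu hε0 (c + s • e + k)
    simp only [hΨ]
    linarith
  have hlow : 2 * η ≤ Ψ (k, s) := by
    have h0 : Ψ (k0, s0) ≤ Ψ (k, s) := hmax hmem0
    have hs00 : 0 < s0 := lt_of_lt_of_le ht₁ hs01
    have h1 := S_mono_add (hUl.C hs00) hγ (hCU' s0 hs00) (c + s0 • e + k0)
    have h2 := I_le_self hu hε0 (c + s0 • e + k0)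
    have : 2 * η ≤ Ψ (k0, s0) := by simp only [hΨ]; linarith
    linarith
  have hs1' : t₁ < s := by
    refine lt_of_le_of_ne hs1 fun h => ?_
    have := hend s k hk (Or.inl h.symm)
    have := hup s k hs0
    linarith
  have hs2' : s < t₂ := by
    refine lt_of_le_of_ne hs2 fun h => ?_
    have := hend s k hk (Or.inr h)
    have := hup s k hs0
    linarith
  have hk' : ‖k‖ < ϱ := by
    refine lt_of_le_of_ne hk fun h => ?_
    have := hside s k hs1 hs2 h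
    have := hup s k hs0
    linarith
  set x := c + s • e + k with hx
  obtain ⟨d, hd, hde⟩ := exists_S (hUl.C hs0) hγ x
  have hKc' := hK s k d hs1 hs2 hk hd (by
    have h1 := hCU s hs0 (x + d)
    have h2 := self_le_I hu hε0 x
    simp only [hΨ] at hlow
    rw [← hx, hde] at hlow
    linarith)
  set r : ℝ := min ((ϱ - ‖k‖) / (1 + ‖e‖)) (min (s - t₁) (t₂ - s)) with hr
  have hr0 : 0 < r := by
    have : 0 < ϱ - ‖k‖ := by linarith
    have : 0 < s - t₁ := by linarith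
    have : 0 < t₂ - s := by linarith
    positivity
  have hr1 : r * (1 + ‖e‖) ≤ ϱ - ‖k‖ := by
    have : r ≤ (ϱ - ‖k‖) / (1 + ‖e‖) := min_le_left _ _
    rwa [le_div_iff₀ (by positivity)] at this
  have hr2 : r ≤ s - t₁ := (min_le_right _ _).trans (min_le_left _ _)
  have hr3 : r ≤ t₂ - s := (min_le_right _ _).trans (min_le_right _ _)
  have hmain := coupled (fun k1 s1 => C (s + s1) U (x + d + k1) - C s U (x + d))
    (fun k' => W (x + k') - W x) ((1 / γ) • d) ((1 / γ) • d - (1 / ρ) • k) e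
    (a := β - 2 * K * s - ⟪k, e⟫ / ρ) (A := 1 / (2 * γ)) (B := 1 / (2 * ρ)) (K := K) (r := r)
    (Λ := 2 * L) (τ0 := min ε s) (by positivity) (by positivity) hr0 (by positivity)
    (by positivity) (by simp) (by simp) ?_ ?_ ?_
  · have e1 : (1 / γ) • d - ((1 / γ) • d - (1 / ρ) • k) = (1 / ρ) • k := by abel
    rw [e1, norm_smul_sq] at hmain
    have e2 : 1 / (2 * γ) * ((1 / ρ) ^ 2 * ‖k‖ ^ 2) = ‖k‖ ^ 2 / (2 * γ * ρ ^ 2) := by
      field_simp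
    have e3 : 2 * (1 / (2 * ρ)) * ‖(1 / γ) • d - (1 / ρ) • k - e‖ ^ 2
        = ‖(1 / γ) • d - (1 / ρ) • k - e‖ ^ 2 / ρ := by field_simp
    rw [e2, e3] at hmain
    linarith
  · intro k1 k' s1 hk1 hs1a
    have ha := abs_le.1 hs1a
    have hss : 0 < s + s1 := by linarith
    have hmem : (k + k' - s1 • e, s + s1) ∈ Kset := by
      refine ⟨mem_closedBall_zero_iff.2 ?_, by simp only; linarith, by simp only; linarith⟩
      have h1 := norm_sub_le (k + k') (s1 • e)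
      have h2 := norm_add_le k k'
      rw [norm_smul, Real.norm_eq_abs] at h1
      have h3 : |s1| * ‖e‖ ≤ r * ‖e‖ := mul_le_mul_of_nonneg_right hs1a (norm_nonneg _)
      simp only
      linarith
    have h1 : Ψ (k + k' - s1 • e, s + s1) ≤ Ψ (k, s) := hmax hmem
    simp only [hΨ] at h1
    have e0 : c + (s + s1) • e + (k + k' - s1 • e) = x + k' := by
      rw [hx, add_smul]; abel
    rw [e0, ← hx, hde] at h1
    have h2 := le_S' (hUl.C hss) hγ (x + k') (d + (k1 - k'))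
    have e1 : x + k' + (d + (k1 - k')) = x + d + k1 := by abel
    rw [e1] at h2
    have e2 : ‖d + (k1 - k')‖ ^ 2 / (2 * γ) = ‖d‖ ^ 2 / (2 * γ)
        + (1 / γ) * (⟪d, k1⟫ - ⟪d, k'⟫) + 1 / (2 * γ) * ‖k1 - k'‖ ^ 2 := by
      rw [norm_add_sq_real, inner_sub_right]; field_simp
    have e3 : ‖k + k' - s1 • e‖ ^ 2 / (2 * ρ) = ‖k‖ ^ 2 / (2 * ρ)
        + (1 / ρ) * ⟪k, k'⟫ - ⟪k, e⟫ / ρ * s1 + 1 / (2 * ρ) * ‖k' - s1 • e‖ ^ 2 := by
      rw [add_sub_assoc, norm_add_sq_real, inner_sub_right, real_inner_smul_right]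
      field_simp; ring
    rw [e2] at h2
    rw [e3] at h1
    simp only [inner_sub_left, real_inner_smul_left]
    linarith
  · intro τ hτ hτ0
    have hτε : τ < ε := lt_of_lt_of_le hτ0 (min_le_left _ _)
    have hτs : τ < s := lt_of_lt_of_le hτ0 (min_le_right _ _)
    have hki := key_ineq hUl hτ hτs (x + d) (fun z hz => by
      refine Sub.disc hu (good z s hs1 hs2 ?_).1 hτ hτε (by linarith)
      have e0 : z - (c + s • e) = (z - (x + d)) + (k + d) := by rw [hx]; abel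
      rw [e0]
      have h1 := norm_add_le (z - (x + d)) (k + d)
      have h2 := norm_add_le k d
      have h3 : (4 * L + 1) * s ≤ (4 * L + 1) * t₂ :=
        mul_le_mul_of_nonneg_left hs2 (by positivity)
      linarith)
    obtain ⟨m, hm, hme⟩ := exists_S (hUl.C (add_pos hs0 hτ)) hτ (x + d)
    refine ⟨m, hm, fun m' => ?_⟩
    have h1 := I_le' (hUl.C (sub_pos.2 hτs)) hτ (x + d) (-m')
    rw [norm_neg] at h1
    simp only [← sub_eq_add_neg] at h1 ⊢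
    linarith
  · intro τ hτ hτ0
    have hτε : τ < ε := lt_of_lt_of_le hτ0 (min_le_left _ _)
    have hg := (good x s hs1 hs2 (by
      have e0 : x - (c + s • e) = k := by rw [hx]; abel
      rw [e0]
      have : 0 ≤ 2 * L * γ + (4 * L + 1) * t₂ := by
        have : 0 < t₂ := by linarith
        positivity
      linarith)).2
    have h1 := Sub.disc hu.neg hg hτ hτε (by linarith)
    have hWe : W = fun y => - S ε (fun y => - u y) y := rfl
    have h2 : S τ W x + I τ W x ≤ 2 * W x := by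
      have a1 : I τ W x = - S τ (S ε fun y => - u y) x := by
        rw [hWe]; unfold I; simp only [neg_neg]
      have a2 : I τ (S ε fun y => - u y) x = - S τ W x := by rw [hWe]; rfl
      have a3 : W x = - S ε (fun y => - u y) x := rfl
      linarith
    obtain ⟨m, hm, hme⟩ := exists_I hWl hτ x
    refine ⟨-m, by rwa [norm_neg], fun m' => ?_⟩
    have h3 := le_S' hWl hτ x m'
    simp only [neg_neg, norm_neg]
    linarith

end Vale.Agent.P080
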