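import Vale.Agent.P080.Back

/-! Decay of the normalized gap. -/

set_option linter.unusedSectionVars false

namespace Vale.Agent.P080

open scoped RealInnerProductSpace

theorem T0_le : T0 ≤ 1 := by unfold T0; norm_num

theorem bottom {E : Type*} [NormedAddCommGroup E] [InnerProductSpace ℝ E]
    [FiniteDimensional ℝ E] {u : E → ℝ} {x0 e x' h : E} {L μ s σ tb D A ε : ℝ}
    {n J : ℕ} (hu : Lip L u) (hμ : 16 ≤ μ) (hyp : Hyp u x0 (2 * μ * (L + 1)) μ)
    (hF : Flat u x0 μ 1 e) (hx : x' = x0 + s • e + h) (hs : |s| ≤ μ / 2) (hh : ‖h‖ ≤ μ)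
    (hx' : ‖x' - x0‖ ≤ μ * (L + 1)) (hσ : 0 < σ) (hσt : σ ≤ tb) (hn : 2 ≤ n)
    (hscale : (2 ^ n) ^ J * (16 * tb / T0) ≤ 1)
    (hlev : ‖e‖ ^ 2 / 2 - D - 1 ≤ lev (fun y => - u y) x' σ) (hJ : 2 * D + 161 < J * ε)
    (hε : 0 ≤ ε) (hA : 0 < A) (hA4 : A ≤ 1 / 4)
    (hA2 : 48 * (ε + 153 * ((n : ℝ) + 1) ^ 2 / 2 ^ n) ≤ A ^ 2) :
    C tb u x' ≤ u x' + 96 / T0 * (4 * A) ^ 2 * tb := by
  have hL := hu.1
  have hT := T0_pos
  have hμ0 : 0 < μ := by linarith
  have htb : 0 < tb := by linarith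
  set l : ℝ := 16 * tb / T0 with hl
  have hl0 : 0 < l := by positivity
  have hl1 : 16 * tb ≤ l := by
    rw [hl, le_div_iff₀ hT]; exact mul_le_of_le_one_right (by positivity) T0_le
  have hl2 : l ≤ 1 := by
    have : (1 : ℝ) ≤ (2 ^ n) ^ J := one_le_pow₀ (one_le_pow₀ (by norm_num))
    have := le_mul_of_one_le_left hl0.le this
    linarith
  have hLμ : L * 16 ≤ L * μ := mul_le_mul_of_nonneg_left hμ hL
  have hyp' : Hyp u x' (μ * (L + 1)) μ := hyp.mono (by linarith) le_rfl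
  have hc : ‖x' - x'‖ ≤ μ * (L + 1) := by simp; positivity
  have hz := hyp'.1 x' hc
  have H := hyp'.2 x' hc
  have hLσ : L * σ ≤ L * 1 := mul_le_mul_of_nonneg_left (by linarith) hL
  have a1 := lev_neg_le hu hσ (fun ν h1 h2 => H ν h1 (by linarith))
    (hyp'.1.mono (by simp only [sub_self, norm_zero]; linarith) (by linarith))
  have a2 := lev_mono hu hz.1 (r := 4 * σ) (r' := l) (by positivity) (by linarith) (by linarith)
  have a3 := lev_mono hu.neg hz.2 (r' := l) hσ (by linarith) (by linarith)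
  have a4 := hF.UL hu hμ0 hx hs hh (hz.1.mono (by linarith)) one_pos (by linarith)
  have a5 := hF.neg.UL hu.neg hμ0 (x := x') (σ := -s) (h := h) (by rw [hx]; simp)
    (by rwa [abs_neg]) hh (hz.2.mono (by linarith)) one_pos (by linarith)
  rw [norm_neg] at a5
  obtain ⟨r, e', hr1, hr2, hF'⟩ := FL_pigeon (R := 1) (lo := ‖e‖ ^ 2 - 2 * D - 121)
    (hi := ‖e‖ ^ 2 + 40) hu hl0 hn hscale (fun ν h1 h2 => H ν h1 (by linarith))
    (hyp'.1.mono (by simp only [sub_self, norm_zero]; linarith) (by linarith)) (by linarith)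
    (by unfold lev; simp only [div_one]; linarith) (by linarith) hε hA hA2
  have hr0 : 0 < r := by linarith
  have := ZE (σ := 0) (h := 0) (t := tb) hu (by positivity) (by positivity) hF'
    (hyp'.1.mono (by
      simp only [sub_self, norm_zero]
      have : 2 * (r / 16) * (L + 4 * A) ≤ 1 * (L + 1) :=
        mul_le_mul (by linarith) (by linarith) (by positivity) (by norm_num)
      linarith) (by linarith)) (by simp; positivity) (by simp; positivity) htb (by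
      rw [hl, div_le_iff₀ hT] at hr1; linarith)
  simpa using this

theorem exists_pow_big (C r : ℝ) (k N : ℕ) (hr : 1 < r) :
    ∃ n : ℕ, N ≤ n ∧ C * ((n : ℝ) + 1) ^ k ≤ r ^ n := by
  have h1 := (tendsto_pow_const_div_const_pow_of_one_lt k hr).comp
    (Filter.tendsto_add_atTop_nat 1)
  have hr0 : 0 < r := by linarith
  have h2 := h1.eventually (gt_mem_nhds (by positivity : (0 : ℝ) < 1 / ((|C| + 1) * r)))
  obtain ⟨n, hn1, hn2⟩ := (h2.and (Filter.eventually_ge_atTop N)).exists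
  refine ⟨n, hn2, ?_⟩
  simp only [Function.comp] at hn1
  push_cast at hn1
  rw [div_lt_div_iff₀ (by positivity) (by positivity), pow_succ] at hn1
  have h3 : ((n : ℝ) + 1) ^ k * (|C| + 1) * r < r ^ n * r := by linarith
  have h4 := lt_of_mul_lt_mul_right h3 hr0.le
  have h5 : C * ((n : ℝ) + 1) ^ k ≤ (|C| + 1) * ((n : ℝ) + 1) ^ k :=
    mul_le_mul_of_nonneg_right (by linarith [le_abs_self C]) (by positivity)
  linarith

set_option maxHeartbeats 800000 in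
theorem exists_par {ε₁ : ℝ} (h0 : 0 < ε₁) (h2 : ε₁ ≤ 2) :
    ∃ (n N n' J : ℕ) (μ σ tb D W A ε : ℝ), μ / 2 ^ n = 16 ∧ μ / 2 ^ N = 4 * σ ∧ 0 < σ ∧
      σ ≤ tb ∧ tb ≤ 1 / 16 ∧ D = 310 + 16 * (n : ℝ) ∧
      8 * (29 + D) + 2 * (5 * ((N : ℝ) + 1) + 7) ^ 2 ≤ W ∧
      2 * (D + 21) ^ 2 / (μ / 2) ^ 2 + 4 * (D + 21) * W / (μ / 2) ^ 2
        + 16 * (D + 21) ^ 3 / (μ / 2) ^ 4 < 1 ∧ 2 ≤ n' ∧
      (2 ^ n') ^ J * (16 * tb / T0) ≤ 1 ∧ 2 * D + 161 < J * ε ∧ 0 ≤ ε ∧ 0 < A ∧ A ≤ 1 / 4 ∧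
      48 * (ε + 153 * ((n' : ℝ) + 1) ^ 2 / 2 ^ n') ≤ A ^ 2 ∧
      σ * (D + 20) + 96 / T0 * (4 * A) ^ 2 * tb ≤ ε₁ * tb := by
  have hT := T0_pos
  have hT1 := T0_le
  set A : ℝ := ε₁ * T0 / 3072 with hA
  have hA0 : 0 < A := by positivity
  have hA4 : A ≤ 1 / 4 := by
    have : ε₁ * T0 ≤ 2 * 1 := mul_le_mul h2 hT1 hT.le (by norm_num)
    rw [hA]; linarith
  set ε : ℝ := A ^ 2 / 96 with hε
  have hε0 : 0 < ε := by positivity
  obtain ⟨n', hn'2, hn'⟩ := exists_pow_big (153 / ε) 2 2 2 (by norm_num)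
  obtain ⟨J₀, hJ₀⟩ := exists_nat_gt (781 / ε)
  rw [div_lt_iff₀ hε0] at hJ₀
  obtain ⟨j₀, hj₀⟩ := pow_unbounded_of_one_lt (16 * 660 / (ε₁ * T0)) (by norm_num : (1 : ℝ) < 2)
  set a : ℝ := n' * J₀ + j₀ + 3 with ha
  have ha0 : 0 ≤ a := by positivity
  set b : ℝ := 2712 + 2 * (5 * a + 7) ^ 2 with hb
  have hb0 : 0 ≤ b := by positivity
  obtain ⟨n, -, hn⟩ := exists_pow_big (2 * 331 ^ 2 + 4 * 331 * b + 16 * 331 ^ 3) 4 3 0
    (by norm_num)
  have hn0 : (0 : ℝ) ≤ n := Nat.cast_nonneg n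
  set j : ℕ := n' * (J₀ * (n + 1)) + n + j₀ with hj
  have hn2 : (n : ℝ) + 1 ≤ 2 ^ n := by
    have : n + 1 ≤ 2 ^ n := Nat.lt_two_pow_self
    exact_mod_cast this
  have hscale : (2 ^ n') ^ (J₀ * (n + 1))
      * (16 * (1 / 2 ^ j * (660 + 32 * (n : ℝ)) / ε₁) / T0) ≤ 1 := by
    have e1 : (2 : ℝ) ^ j = (2 ^ n') ^ (J₀ * (n + 1)) * 2 ^ n * 2 ^ j₀ := by
      rw [hj, pow_add, pow_add, pow_mul]
    have e2 : (2 ^ n') ^ (J₀ * (n + 1)) * (16 * (1 / 2 ^ j * (660 + 32 * (n : ℝ)) / ε₁) / T0)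
        = (16 * 660 / (ε₁ * T0)) / 2 ^ j₀ * ((660 + 32 * (n : ℝ)) / (660 * 2 ^ n)) := by
      rw [e1]; field_simp
    rw [e2]
    refine mul_le_one₀ ?_ (by positivity) ?_
    · rw [div_le_one (by positivity)]; exact hj₀.le
    · rw [div_le_one (by positivity)]; linarith
  have htb : 1 / 2 ^ j * (660 + 32 * (n : ℝ)) / ε₁ ≤ 1 / 16 := by
    set t := 1 / 2 ^ j * (660 + 32 * (n : ℝ)) / ε₁ with ht
    have ht0 : 0 < t := by positivity
    have a1 : (1 : ℝ) ≤ (2 ^ n') ^ (J₀ * (n + 1)) := one_le_pow₀ (one_le_pow₀ (by norm_num))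
    have a2 := le_mul_of_one_le_left (by positivity : 0 ≤ 16 * t / T0) a1
    have a3 : 16 * t ≤ 16 * t / T0 := by
      rw [le_div_iff₀ hT]; exact mul_le_of_le_one_right (by positivity) T0_le
    linarith
  have hp1 : (1 : ℝ) ≤ (n : ℝ) + 1 := by linarith
  have hp2 : (n : ℝ) + 1 ≤ ((n : ℝ) + 1) ^ 2 := by nlinarith
  have hp3 : ((n : ℝ) + 1) ^ 2 ≤ ((n : ℝ) + 1) ^ 3 := pow_le_pow_right₀ hp1 (by norm_num)
  refine ⟨n, n + j + 2, n', J₀ * (n + 1), 16 * 2 ^ n, 1 / 2 ^ j,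
    1 / 2 ^ j * (660 + 32 * (n : ℝ)) / ε₁, 310 + 16 * (n : ℝ), b * ((n : ℝ) + 1) ^ 2, A, ε,
    by field_simp, ?_, by positivity, ?_, htb, rfl, ?_, ?_, hn'2, hscale, ?_, hε0.le, hA0, hA4,
    ?_, ?_⟩
  · rw [pow_add, pow_add]; field_simp; norm_num
  · rw [mul_div_assoc]
    refine le_mul_of_one_le_right (by positivity) ?_
    rw [le_div_iff₀ h0]; linarith
  · have a1 : 5 * (((n + j + 2 : ℕ) : ℝ) + 1) + 7 ≤ (5 * a + 7) * ((n : ℝ) + 1) := by
      rw [hj, ha]; push_cast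
      have : (0 : ℝ) ≤ j₀ * n := by positivity
      nlinarith
    have a2 := pow_le_pow_left₀ (by positivity) a1 2
    rw [mul_pow] at a2
    rw [hb]
    linarith
  · have a1 : 310 + 16 * (n : ℝ) + 21 ≤ 331 * ((n : ℝ) + 1) := by linarith
    set D' : ℝ := 310 + 16 * (n : ℝ) + 21 with hD'
    have hD0 : 0 ≤ D' := by positivity
    have e1 : (16 * 2 ^ n / 2 : ℝ) ^ 2 = 64 * 4 ^ n := by
      rw [show (4 : ℝ) = 2 ^ 2 by norm_num, ← pow_mul, mul_comm 2 n, pow_mul]; ring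
    have e2 : (16 * 2 ^ n / 2 : ℝ) ^ 4 = (64 * 4 ^ n) ^ 2 := by rw [← e1]; ring
    rw [e1, e2]
    have h4 : (1 : ℝ) ≤ 4 ^ n := one_le_pow₀ (by norm_num)
    have a2 : 16 * D' ^ 3 / (64 * 4 ^ n) ^ 2 ≤ 16 * D' ^ 3 / (64 * 4 ^ n) :=
      div_le_div_of_nonneg_left (by positivity) (by positivity) (by nlinarith)
    have a3 := pow_le_pow_left₀ hD0 a1 2
    have a4 := pow_le_pow_left₀ hD0 a1 3
    have a5 : D' * (b * ((n : ℝ) + 1) ^ 2) ≤ 331 * ((n : ℝ) + 1) * (b * ((n : ℝ) + 1) ^ 2) :=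
      mul_le_mul_of_nonneg_right a1 (by positivity)
    have a6 : (2 * D' ^ 2 + 4 * D' * (b * ((n : ℝ) + 1) ^ 2) + 16 * D' ^ 3) / (64 * 4 ^ n)
        < 1 := by
      rw [div_lt_one (by positivity)]
      rw [mul_pow] at a3 a4
      have h5 : (0 : ℝ) < 4 ^ n := by positivity
      linarith
    rw [add_div, add_div] at a6
    linarith
  · push_cast
    have := mul_lt_mul_of_pos_right hJ₀ (by linarith : (0 : ℝ) < n + 1)
    linarith
  · have a1 : 153 * ((n' : ℝ) + 1) ^ 2 / 2 ^ n' ≤ ε := by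
      rw [div_le_iff₀ (by positivity)]
      have := mul_le_mul_of_nonneg_left hn' hε0.le
      have e : ε * (153 / ε * ((n' : ℝ) + 1) ^ 2) = 153 * ((n' : ℝ) + 1) ^ 2 := by field_simp
      linarith
    linarith
  · set t := 1 / 2 ^ j * (660 + 32 * (n : ℝ)) / ε₁ with ht
    have ht0 : 0 < t := by positivity
    have e1 : 1 / 2 ^ j * (310 + 16 * (n : ℝ) + 20) = ε₁ * t / 2 := by
      rw [ht]; field_simp; ring
    have a1 : 96 / T0 * (4 * A) ^ 2 ≤ ε₁ / 2 := by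
      have b1 : A ^ 2 ≤ A := by nlinarith
      have b2 : 96 / T0 * (16 * A) = ε₁ / 2 := by rw [hA]; field_simp; ring
      have b3 : 96 / T0 * (4 * A) ^ 2 ≤ 96 / T0 * (16 * A) :=
        mul_le_mul_of_nonneg_left (by linarith) (by positivity)
      linarith
    have a2 := mul_le_mul_of_nonneg_right a1 ht0.le
    linarith

theorem DL_unit {ε₁ : ℝ} (h0 : 0 < ε₁) (h2 : ε₁ ≤ 2) : ∃ η Q : ℝ, 0 < η ∧ 0 < Q ∧
    ∀ (E : Type) [NormedAddCommGroup E] [InnerProductSpace ℝ E] [FiniteDimensional ℝ E]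
      (u : E → ℝ) (x0 : E) (L m : ℝ), Lip L u → ε₁ ≤ m → m ≤ 2 → Hyp u x0 (Q * (L + 1)) Q →
      (∀ w, ‖w - x0‖ ≤ Q * (L + 1) → C 4 u w ≤ u w + m * 4) → C 1 u x0 ≤ u x0 + (m - η) := by
  obtain ⟨n, N, n', J, μ, σ, tb, D, W, A, ε, p1, p2, p3, p4, p5, p6, p7, p8, p9, p10, p11, p12,
    p13, p14, p15, p16⟩ := exists_par h0 h2
  have htb : 0 < tb := by linarith
  have h2n : (1 : ℝ) ≤ 2 ^ n := one_le_pow₀ (by norm_num)
  have hμ16 : 16 ≤ μ := by
    rw [div_eq_iff (by positivity)] at p1; linarith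
  have hμ0 : 0 < μ := by linarith
  set τ : ℝ := min (1 / 16) (σ / 4 / (152 / (tb / 4) + 336 + 51200)) with hτ
  have hτ0 : 0 < τ := by positivity
  have hτ1 : τ ≤ 1 / 16 := min_le_left _ _
  have hτ2 : τ * (152 / (tb / 4) + 336 + 51200) ≤ σ / 4 := by
    have : τ ≤ σ / 4 / (152 / (tb / 4) + 336 + 51200) := min_le_right _ _
    rwa [le_div_iff₀ (by positivity)] at this
  set q : ℝ := 4 / τ ^ 2 with hq
  have hq0 : 0 < q := by positivity
  refine ⟨σ, 2 * μ + 2 * q, p3, by positivity, fun E _ _ _ u x0 L m hu hm1 hm2 hyp H => ?_⟩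
  have hL := hu.1
  by_contra hcon
  push Not at hcon
  have c1 : 0 ≤ μ * (L + 1) := by positivity
  have c2 : 0 ≤ q * (L + 1) := by positivity
  have hyp' : Hyp u x0 (2 * μ * (L + 1)) μ :=
    hyp.mono (by simp only [sub_self, norm_zero]; linarith) (by linarith)
  obtain ⟨e, hF⟩ := hyp'.2 x0 (by simp; positivity) μ hμ0 le_rfl
  obtain ⟨x', s, h, b1, b2, b3, b4, b5, b6⟩ := back_prop hu p1 p2 (by linarith) htb (by linarith)
    hm2 hyp' hF p6 p7 p8 (fun y t hy h1 h2 => by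
      obtain ⟨e', hF'⟩ := hyp.2 y (by linarith) q hq0 (by linarith)
      have := LMb (T := 4) (t := t) hτ0 hτ1 (by positivity) hτ2 hu (by norm_num)
        (by linarith : 0 < m) hm2 hF' (hyp.1.mono (by linarith) (by linarith)) (fun w hw => by
          refine H w ?_
          have e0 : w - x0 = (w - y) + (y - x0) := by abel
          rw [e0]
          exact (norm_add_le _ _).trans (by linarith)) (by linarith) h2
      linarith) (by linarith)
  have b7 := bottom hu hμ16 hyp' hF b1 b2 b3 b4 p3 p4 p9 p10 b6 p11 p12 p13 p14 p15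
  have b8 := mul_le_mul_of_nonneg_right hm1 htb.le
  linarith

/-- the normalized gap is at most `m` under the standing hypotheses -/
def Pm (m : ℝ) : Prop := ∃ Q : ℝ, 0 < Q ∧
  ∀ (E : Type) [NormedAddCommGroup E] [InnerProductSpace ℝ E] [FiniteDimensional ℝ E]
    (u : E → ℝ) (x0 : E) (L T : ℝ), Lip L u → 0 < T → Hyp u x0 (Q * (L + 1) * T) (Q * T) →
    C T u x0 ≤ u x0 + m * T

theorem Pm.mono {m m' : ℝ} (h : Pm m) (hm : m ≤ m') : Pm m' := by
  obtain ⟨Q, hQ, H⟩ := h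
  refine ⟨Q, hQ, fun E _ _ _ u x0 L T hu hT hyp => (H E u x0 L T hu hT hyp).trans ?_⟩
  have := mul_le_mul_of_nonneg_right hm hT.le
  linarith

theorem Pm_two : Pm 2 := by
  refine ⟨2, two_pos, fun E _ _ _ u x0 L T hu hT hyp => ?_⟩
  have hL := hu.1
  obtain ⟨e, hF⟩ := hyp.2 x0 (by simp; positivity) (2 * T) (by positivity) le_rfl
  simpa using hF.gap_center hu hT le_rfl

theorem Pm_all {ε₁ : ℝ} (h0 : 0 < ε₁) : Pm ε₁ := by
  rcases le_total 2 ε₁ with h2 | h2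
  · exact Pm_two.mono h2
  obtain ⟨η, Q₀, hη, hQ₀, H₀⟩ := DL_unit h0 h2
  have step : ∀ m, ε₁ ≤ m → m ≤ 2 → Pm m → Pm (m - η) := by
    rintro m h1 h2 ⟨Q, hQ, H⟩
    refine ⟨Q₀ + 4 * Q, by positivity, fun E _ _ _ u x0 L T hu hT hyp => ?_⟩
    have hL := hu.1
    have hv : Lip L (resc u x0 1 T) := by simpa using hu.resc x0 one_pos hT
    have hyp' : Hyp (resc u x0 1 T) 0 ((Q₀ + 4 * Q) * (L + 1)) (Q₀ + 4 * Q) :=
      hyp_resc hu one_pos hT (hyp.1.mono (by simp only [sub_self, norm_zero]; linarith)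
        (by linarith)) (fun z hz ν a1 a2 => hyp.2 z (by linarith) ν a1 (by linarith))
    have c1 : 0 ≤ Q * (L + 1) := by positivity
    have := H₀ E _ 0 L m hv h1 h2
      (hyp'.mono (by simp only [sub_self, norm_zero]; linarith) (by linarith))
      (fun w hw => H E _ w L 4 hv (by norm_num) (hyp'.mono (by linarith) (by linarith)))
    rw [gap_resc hu one_pos hT one_pos] at this
    simp only [smul_zero, add_zero, mul_one, one_pow, one_mul] at this
    linarith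
  have key : ∀ k : ℕ, Pm ε₁ ∨ Pm (2 - k * η) := by
    intro k
    induction k with
    | zero => right; simpa using Pm_two
    | succ k ih =>
      rcases ih with h | h
      · exact Or.inl h
      rcases le_total ε₁ (2 - k * η) with h1 | h1
      · right
        have := step _ h1 (by have : 0 ≤ k * η := by positivity
                              linarith) h
        push_cast
        exact this.mono (by linarith)
      · exact Or.inl (h.mono h1)
  obtain ⟨k, hk⟩ := exists_nat_gt (2 / η)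
  rw [div_lt_iff₀ hη] at hk
  rcases key k with h | h
  · exact h
  · exact h.mono (by linarith)

end Vale.Agent.P080
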