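import Mathlib

/-! Infinity-harmonic functions in the viscosity sense. -/

namespace Vale.Agent.P080

variable {E : Type*} [NormedAddCommGroup E] [InnerProductSpace ℝ E] [CompleteSpace E]

/-- the infinity Laplacian `⟨D²φ ∇φ, ∇φ⟩` at the point `z` -/
noncomputable def infLap (φ : E → ℝ) (z : E) : ℝ :=
  fderiv ℝ (fderiv ℝ φ) z (gradient φ z) (gradient φ z)

/-- continuous viscosity solutions of the infinity Laplace equation on `Ω` -/
def InfHarmonicOn (u : E → ℝ) (Ω : Set E) : Prop :=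
  ContinuousOn u Ω ∧ ∀ φ : E → ℝ, ContDiff ℝ 2 φ → ∀ z ∈ Ω,
    (IsLocalMax (fun y => u y - φ y) z → 0 ≤ infLap φ z) ∧
    (IsLocalMin (fun y => u y - φ y) z → infLap φ z ≤ 0)

end Vale.Agent.P080
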