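import Vale.Agent.P080.Conv

/-! The closing as a supremum over finitely many weighted points, and the midpoint inequality. -/

set_option linter.unusedSectionVars false

namespace Vale.Agent.P080

open scoped RealInnerProductSpace

variable {E : Type*} [NormedAddCommGroup E] [InnerProductSpace ℝ E]

/-- weights and displacements of mean zero -/
structure Tok {ι : Type} [Fintype ι] (w : ι → ℝ) (h : ι → E) : Prop where
  nonneg : ∀ i, 0 ≤ w i
  sum_one : ∑ i, w i = 1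
  mean : ∑ i, w i • h i = 0

theorem Tok.sum_sq {ι : Type} [Fintype ι] {w : ι → ℝ} {h : ι → E} (H : Tok w h) (a : E) :
    ∑ i, w i * ‖a + h i‖ ^ 2 = ‖a‖ ^ 2 + ∑ i, w i * ‖h i‖ ^ 2 := by
  have h1 : ∑ i, w i * ⟪a, h i⟫ = 0 := by
    have : ⟪a, ∑ i, w i • h i⟫ = ∑ i, w i * ⟪a, h i⟫ := by
      rw [inner_sum]; refine Finset.sum_congr rfl fun i _ => ?_
      rw [real_inner_smul_right]
    rw [← this, H.mean, inner_zero_right]
  have h2 : ∀ i, w i * ‖a + h i‖ ^ 2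
      = w i * ‖a‖ ^ 2 + 2 * (w i * ⟪a, h i⟫) + w i * ‖h i‖ ^ 2 := fun i => by
    rw [norm_add_sq_real]; ring
  simp only [h2, Finset.sum_add_distrib, ← Finset.sum_mul, ← Finset.mul_sum, H.sum_one, h1]
  ring

theorem Tok.sum_le {ι : Type} [Fintype ι] {w : ι → ℝ} {h : ι → E} (H : Tok w h)
    {a b : ι → ℝ} (hab : ∀ i, a i ≤ b i) : ∑ i, w i * a i ≤ ∑ i, w i * b i :=
  Finset.sum_le_sum fun i _ => mul_le_mul_of_nonneg_left (hab i) (H.nonneg i)

theorem Tok.sum_const {ι : Type} [Fintype ι] {w : ι → ℝ} {h : ι → E} (H : Tok w h) (c : ℝ) :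
    ∑ i, w i * c = c := by
  rw [← Finset.sum_mul, H.sum_one, one_mul]

theorem Tok.sum_affine {ι : Type} [Fintype ι] {w : ι → ℝ} {h : ι → E} (H : Tok w h)
    (a b : ι → ℝ) (c p q : ℝ) :
    ∑ i, w i * (c + p * a i + q * b i) = c + p * ∑ i, w i * a i + q * ∑ i, w i * b i := by
  have : ∀ i, w i * (c + p * a i + q * b i) = w i * c + p * (w i * a i) + q * (w i * b i) :=
    fun i => by ring
  simp only [this, Finset.sum_add_distrib, ← Finset.mul_sum, H.sum_const]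

theorem Tok.le_C {ι : Type} [Fintype ι] {w : ι → ℝ} {k : ι → E} (H : Tok w k)
    {L t : ℝ} {f : E → ℝ} (hf : Lip L f) (ht : 0 < t) (y : E) :
    ∑ i, w i * (f (y + k i) - ‖k i‖ ^ 2 / (2 * t)) ≤ C t f y := by
  refine le_I' fun m => ?_
  have h1 : ∀ i, f (y + k i) - ‖k i‖ ^ 2 / (2 * t)
      ≤ S t f (y + m) + (1 / (2 * t)) * ‖-m + k i‖ ^ 2 + (-(1 / (2 * t))) * ‖k i‖ ^ 2 := by
    intro i
    have h2 := le_S' hf ht (y + m) (-m + k i)
    have : y + m + (-m + k i) = y + k i := by abel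
    rw [this] at h2
    have e1 : ‖-m + k i‖ ^ 2 / (2 * t) = (1 / (2 * t)) * ‖-m + k i‖ ^ 2 := by ring
    have e2 : ‖k i‖ ^ 2 / (2 * t) = (1 / (2 * t)) * ‖k i‖ ^ 2 := by ring
    linarith
  refine (H.sum_le h1).trans ?_
  rw [H.sum_affine, H.sum_sq, norm_neg]
  apply le_of_eq; ring

theorem Tok.fwd [FiniteDimensional ℝ E] {ι : Type} [Fintype ι] {w : ι → ℝ} {h : ι → E}
    (H : Tok w h) {L t τ : ℝ} {U : E → ℝ} (hU : Lip L U) (ht : 0 < t) (hτ : 0 < τ) (x : E) :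
    ∑ i, w i * (S τ U (x + h i) - ‖h i‖ ^ 2 / (2 * t)) ≤ S τ (C (t + τ) U) x := by
  choose m _ hm using fun i => exists_S hU hτ (x + h i)
  set mb : E := ∑ i, w i • m i with hmb
  have Hm : Tok w (fun i => m i - mb) := ⟨H.nonneg, H.sum_one, by
    simp only [smul_sub, Finset.sum_sub_distrib, ← Finset.sum_smul, H.sum_one, one_smul]
    rw [← hmb, sub_self]⟩
  have Hk : Tok w (fun i => h i + (m i - mb)) := ⟨H.nonneg, H.sum_one, by
    simp only [smul_add, Finset.sum_add_distrib, H.mean, Hm.mean, add_zero]⟩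
  have h1 := Hk.le_C hU (add_pos ht hτ) (x + mb)
  have h2 := le_S' (hU.C (add_pos ht hτ)) hτ x mb
  have h3 := Hm.sum_sq mb
  simp only [add_sub_cancel] at h3
  have h4 : ∀ i, S τ U (x + h i) - ‖h i‖ ^ 2 / (2 * t)
      ≤ 0 + 1 * (U (x + mb + (h i + (m i - mb))) - ‖h i + (m i - mb)‖ ^ 2 / (2 * (t + τ)))
        + (1 / (2 * τ)) * (‖m i - mb‖ ^ 2 - ‖m i‖ ^ 2) := by
    intro i
    have e0 : x + mb + (h i + (m i - mb)) = x + h i + m i := by abel
    have e1 := norm_sq_split ht hτ (h i) (m i - mb)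
    rw [e0, hm i]
    have e2 : (1 / (2 * τ)) * (‖m i - mb‖ ^ 2 - ‖m i‖ ^ 2)
        = ‖m i - mb‖ ^ 2 / (2 * τ) - ‖m i‖ ^ 2 / (2 * τ) := by ring
    linarith
  refine (H.sum_le h4).trans ?_
  rw [H.sum_affine]
  have h5 : ∑ i, w i * (‖m i - mb‖ ^ 2 - ‖m i‖ ^ 2) = - ‖mb‖ ^ 2 := by
    simp only [mul_sub, Finset.sum_sub_distrib]
    linarith
  rw [h5]
  have e3 : 1 / (2 * τ) * -‖mb‖ ^ 2 = - (‖mb‖ ^ 2 / (2 * τ)) := by ring
  linarith

theorem Tok.bwd {ι : Type} [Fintype ι] {w : ι → ℝ} {h : ι → E}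
    (H : Tok w h) {L t τ : ℝ} {U : E → ℝ} (hU : Lip L U) (hτ : 0 < τ) (ht : τ < t) (x : E) :
    ∑ i, w i * (I τ U (x + h i) - ‖h i‖ ^ 2 / (2 * t)) ≤ I τ (C (t - τ) U) x := by
  have ht0 : 0 < t := hτ.trans ht
  have htτ : 0 < t - τ := sub_pos.2 ht
  refine le_I' fun m => ?_
  have Hk : Tok w (fun i => (1 - τ / t) • h i) := ⟨H.nonneg, H.sum_one, by
    simp only [smul_comm (w _) (1 - τ / t), ← Finset.smul_sum, H.mean, smul_zero]⟩
  have Hn : Tok w (fun i => (-(τ / t)) • h i) := ⟨H.nonneg, H.sum_one, by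
    simp only [smul_comm (w _) (-(τ / t)), ← Finset.smul_sum, H.mean, smul_zero]⟩
  have h1 := Hk.le_C hU htτ (x + m)
  have h3 := Hn.sum_sq m
  have hq : 0 ≤ 1 - τ / t := by
    rw [sub_nonneg, div_le_one ht0]; exact ht.le
  have h4 : ∀ i, I τ U (x + h i) - ‖h i‖ ^ 2 / (2 * t)
      ≤ 0 + 1 * (U (x + m + (1 - τ / t) • h i) - ‖(1 - τ / t) • h i‖ ^ 2 / (2 * (t - τ)))
        + (1 / (2 * τ)) * (‖m + (-(τ / t)) • h i‖ ^ 2 - ‖(-(τ / t)) • h i‖ ^ 2) := by
    intro i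
    have e1 := I_le' hU hτ (x + h i) (m + (-(τ / t)) • h i)
    have e0 : x + h i + (m + (-(τ / t)) • h i) = x + m + (1 - τ / t) • h i := by
      rw [sub_smul, one_smul, neg_smul]; abel
    rw [e0] at e1
    rw [norm_smul (1 - τ / t), norm_smul (-(τ / t)), Real.norm_of_nonneg hq, norm_neg,
      Real.norm_of_nonneg (by positivity : 0 ≤ τ / t)]
    have e2 : ‖h i‖ ^ 2 / (2 * t) = ((1 - τ / t) * ‖h i‖) ^ 2 / (2 * (t - τ))
        + (1 / (2 * τ)) * (τ / t * ‖h i‖) ^ 2 := by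
      field_simp; ring
    have e3 : ‖m + (-(τ / t)) • h i‖ ^ 2 / (2 * τ)
        = (1 / (2 * τ)) * ‖m + (-(τ / t)) • h i‖ ^ 2 := by ring
    linarith
  refine (H.sum_le h4).trans ?_
  rw [H.sum_affine]
  have h5 : ∑ i, w i * (‖m + (-(τ / t)) • h i‖ ^ 2 - ‖(-(τ / t)) • h i‖ ^ 2) = ‖m‖ ^ 2 := by
    simp only [mul_sub, Finset.sum_sub_distrib]
    linarith
  rw [h5]
  have e3 : 1 / (2 * τ) * ‖m‖ ^ 2 = ‖m‖ ^ 2 / (2 * τ) := by ring
  linarith

theorem mem_closure_hull [FiniteDimensional ℝ E] {L t : ℝ} {f : E → ℝ} (hf : Lip L f)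
    (ht : 0 < t) (x o : E)
    (ho : ∀ o', S t f o + ‖x - o‖ ^ 2 / (2 * t) ≤ S t f o' + ‖x - o'‖ ^ 2 / (2 * t)) :
    x ∈ closure (convexHull ℝ {z | f z - ‖z - o‖ ^ 2 / (2 * t) = S t f o}) := by
  have : ProperSpace E := FiniteDimensional.proper ℝ E
  have : CompleteSpace E := FiniteDimensional.complete ℝ E
  by_contra hx
  obtain ⟨φ, c, hφx, hφ⟩ := geometric_hahn_banach_point_closed
    (convex_convexHull ℝ _).closure isClosed_closure hx
  set ν : E := (InnerProductSpace.toDual ℝ E).symm φ with hν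
  have hνφ : ∀ z, ⟪ν, z⟫ = φ z := fun z => InnerProductSpace.toDual_symm_apply
  have hL := hf.1
  set R : ℝ := 2 * L * t + ‖ν‖ with hR
  set K : Set E := Metric.closedBall o R ∩ {z | ⟪ν, z - x⟫ ≤ 0} with hK
  have hKc : IsCompact K := (isCompact_closedBall o R).inter_right
    (isClosed_le (by fun_prop) continuous_const)
  set gap : E → ℝ := fun z => S t f o - (f z - ‖z - o‖ ^ 2 / (2 * t)) with hgap
  have hgc : Continuous gap := by
    have := hf.continuous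
    rw [hgap]; fun_prop
  have key : ∀ s : ℝ, 0 < s → s ≤ 1 →
      ∃ z ∈ K, gap z ≤ s * (‖ν‖ * (R + ‖o - x‖) / t) := by
    intro s hs hs1
    obtain ⟨m, hm, he⟩ := exists_S hf ht (o - s • ν)
    have h1 := ho (o - s • ν)
    set z := o - s • ν + m with hz
    have hzo : ‖z - o‖ ≤ R := by
      have : z - o = m - s • ν := by rw [hz]; abel
      rw [this]
      refine (norm_sub_le _ _).trans ?_
      rw [norm_smul, Real.norm_of_nonneg hs.le]
      have := mul_le_of_le_one_left (norm_nonneg ν) hs1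
      linarith
    have e1 : m = (z - o) + s • ν := by rw [hz]; abel
    have e2 : x - (o - s • ν) = (x - o) + s • ν := by abel
    have e3 : ‖m‖ ^ 2 = ‖z - o‖ ^ 2 + 2 * (s * ⟪ν, z - o⟫) + ‖s • ν‖ ^ 2 := by
      rw [e1, norm_add_sq_real, real_inner_smul_right, real_inner_comm]
    have e4 : ‖x - (o - s • ν)‖ ^ 2 = ‖x - o‖ ^ 2 + 2 * (s * ⟪ν, x - o⟫) + ‖s • ν‖ ^ 2 := by
      rw [e2, norm_add_sq_real, real_inner_smul_right, real_inner_comm]
    have e5 : ⟪ν, z - x⟫ = ⟪ν, z - o⟫ - ⟪ν, x - o⟫ := by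
      rw [← inner_sub_right]; congr 1; abel
    have h2 : gap z + s * ⟪ν, z - x⟫ / t ≤ 0 := by
      rw [he, e3, e4] at h1
      simp only [hgap]
      rw [e5]
      have e6 : (‖z - o‖ ^ 2 + 2 * (s * ⟪ν, z - o⟫) + ‖s • ν‖ ^ 2) / (2 * t)
          = ‖z - o‖ ^ 2 / (2 * t) + s * ⟪ν, z - o⟫ / t + ‖s • ν‖ ^ 2 / (2 * t) := by
        field_simp
      have e7 : (‖x - o‖ ^ 2 + 2 * (s * ⟪ν, x - o⟫) + ‖s • ν‖ ^ 2) / (2 * t)
          = ‖x - o‖ ^ 2 / (2 * t) + s * ⟪ν, x - o⟫ / t + ‖s • ν‖ ^ 2 / (2 * t) := by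
        field_simp
      have e8 : s * (⟪ν, z - o⟫ - ⟪ν, x - o⟫) / t
          = s * ⟪ν, z - o⟫ / t - s * ⟪ν, x - o⟫ / t := by ring
      rw [e6, e7] at h1
      linarith
    have hg0 : 0 ≤ gap z := by
      have := le_S hf ht o z
      simp only [hgap]; linarith
    have h3 : ⟪ν, z - x⟫ ≤ 0 := by
      by_contra hc
      push Not at hc
      have : 0 < s * ⟪ν, z - x⟫ / t := by positivity
      linarith
    refine ⟨z, ⟨by rwa [Metric.mem_closedBall, dist_eq_norm], h3⟩, ?_⟩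
    have h4 : -(‖ν‖ * (R + ‖o - x‖)) ≤ ⟪ν, z - x⟫ := by
      have a1 := abs_real_inner_le_norm ν (z - x)
      have a2 : ‖z - x‖ ≤ R + ‖o - x‖ := by
        have : z - x = (z - o) + (o - x) := by abel
        rw [this]; exact (norm_add_le _ _).trans (by linarith)
      have a3 := mul_le_mul_of_nonneg_left a2 (norm_nonneg ν)
      have a4 := neg_abs_le ⟪ν, z - x⟫
      linarith
    have h5 : -(s * (‖ν‖ * (R + ‖o - x‖) / t)) ≤ s * ⟪ν, z - x⟫ / t := by
      have := div_le_div_of_nonneg_right (mul_le_mul_of_nonneg_left h4 hs.le) ht.le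
      have e : s * -(‖ν‖ * (R + ‖o - x‖)) / t = -(s * (‖ν‖ * (R + ‖o - x‖) / t)) := by ring
      linarith
    linarith
  obtain ⟨z1, hz1, -⟩ := key 1 one_pos le_rfl
  obtain ⟨z, hzK, hzmin⟩ := hKc.exists_isMinOn ⟨z1, hz1⟩ hgc.continuousOn
  have hD : 0 ≤ ‖ν‖ * (R + ‖o - x‖) / t := by
    have : 0 ≤ R := by rw [hR]; positivity
    positivity
  have hz0 : gap z ≤ 0 := by
    refine le_of_forall_pos_le_add fun ε hε => ?_
    set D := ‖ν‖ * (R + ‖o - x‖) / t with hDdef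
    obtain ⟨z', hz', hle⟩ := key (min 1 (ε / (D + 1))) (by positivity) (min_le_left _ _)
    have h1 : gap z ≤ gap z' := hzmin hz'
    have h2 : min 1 (ε / (D + 1)) * D ≤ ε / (D + 1) * D :=
      mul_le_mul_of_nonneg_right (min_le_right _ _) hD
    have h3 : ε / (D + 1) * D ≤ ε := by
      rw [div_mul_eq_mul_div, div_le_iff₀ (by positivity)]; nlinarith
    linarith
  have hzZ : z ∈ {z | f z - ‖z - o‖ ^ 2 / (2 * t) = S t f o} := by
    have := le_S hf ht o z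
    simp only [hgap] at hz0
    show _ = _
    linarith
  have h6 := hφ z (subset_closure (subset_convexHull ℝ _ hzZ))
  have h7 : ⟪ν, z - x⟫ ≤ 0 := hzK.2
  rw [inner_sub_right, hνφ, hνφ] at h7
  linarith

theorem exists_tok [FiniteDimensional ℝ E] {L t η : ℝ} {f : E → ℝ} (hf : Lip L f)
    (ht : 0 < t) (hη : 0 < η) (x : E) :
    ∃ (ι : Type) (_ : Fintype ι) (w : ι → ℝ) (h : ι → E), Tok w h ∧
      (∀ i, ‖h i‖ ≤ 4 * L * t + η) ∧
      C t f x ≤ ∑ i, w i * (f (x + h i) - ‖h i‖ ^ 2 / (2 * t)) + 2 * L * η := by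
  obtain ⟨m, hm, he⟩ := exists_I (hf.S ht) ht x
  have hL := hf.1
  set o := x + m with ho
  have hxo : ‖x - o‖ = ‖m‖ := by rw [ho]; simp
  have hmin : ∀ o', S t f o + ‖x - o‖ ^ 2 / (2 * t) ≤ S t f o' + ‖x - o'‖ ^ 2 / (2 * t) := by
    intro o'
    have := I_le (hf.S ht) ht x o'
    rw [norm_sub_rev] at this
    rw [hxo]; linarith
  have hcl := mem_closure_hull hf ht x o hmin
  obtain ⟨x', hx', hd⟩ := Metric.mem_closure_iff.1 hcl η hη
  rw [dist_eq_norm] at hd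
  obtain ⟨ι, _, w, z, hw0, hw1, hz, hsum⟩ := mem_convexHull_iff_exists_fintype.1 hx'
  have H : Tok w (fun i => z i - x') := ⟨hw0, hw1, by
    simp only [smul_sub, Finset.sum_sub_distrib, ← Finset.sum_smul, hw1, one_smul, hsum,
      sub_self]⟩
  refine ⟨ι, inferInstance, w, fun i => z i - x', H, fun i => ?_, ?_⟩
  · have h1 : ‖z i - o‖ ≤ 2 * L * t := by
      apply norm_le_of_max hf ht (x := o)
      have h2 : f (z i) - ‖z i - o‖ ^ 2 / (2 * t) = S t f o := hz i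
      have h3 := self_le_S hf ht o
      rw [add_sub_cancel]; linarith
    have e : z i - x' = (z i - o) + ((o - x) + (x - x')) := by abel
    have h2 : ‖o - x‖ ≤ 2 * L * t := by rw [norm_sub_rev, hxo]; exact hm
    show ‖z i - x'‖ ≤ _
    rw [e]
    have := norm_add_le (z i - o) ((o - x) + (x - x'))
    have := norm_add_le (o - x) (x - x')
    linarith
  · have h1 : ∀ i, S t f o - L * η + (1 / (2 * t)) * ‖(x' - o) + (z i - x')‖ ^ 2
        + (-(1 / (2 * t))) * ‖z i - x'‖ ^ 2 ≤ f (x + (z i - x')) - ‖z i - x'‖ ^ 2 / (2 * t) := by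
      intro i
      have h2 : f (z i) - ‖z i - o‖ ^ 2 / (2 * t) = S t f o := hz i
      have e : x' - o + (z i - x') = z i - o := by abel
      have h3 := hf.2 (z i) (x + (z i - x'))
      have e' : z i - (x + (z i - x')) = -(x - x') := by abel
      rw [e', norm_neg] at h3
      have h4 := mul_le_mul_of_nonneg_left hd.le hL
      rw [e]
      have e1 : ‖z i - o‖ ^ 2 / (2 * t) = (1 / (2 * t)) * ‖z i - o‖ ^ 2 := by ring
      have e2 : ‖z i - x'‖ ^ 2 / (2 * t) = (1 / (2 * t)) * ‖z i - x'‖ ^ 2 := by ring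
      linarith
    have h2 := H.sum_le h1
    rw [H.sum_affine, H.sum_sq] at h2
    have h3 : C t f x' ≤ S t f o + ‖o - x'‖ ^ 2 / (2 * t) := I_le (hf.S ht) ht x' o
    rw [norm_sub_rev] at h3
    have h4 := (hf.C ht).2 x x'
    have h5 := mul_le_mul_of_nonneg_left hd.le hL
    have e1 : ‖x' - o‖ ^ 2 / (2 * t) = (1 / (2 * t)) * ‖x' - o‖ ^ 2 := by ring
    nlinarith

theorem le_of_forall_eta {a b L t : ℝ} (hL : 0 ≤ L) (ht : 0 < t)
    (H : ∀ η, 0 < η → η ≤ t → a ≤ b + L * η) : a ≤ b := by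
  refine le_of_forall_pos_le_add fun ε hε => ?_
  have h1 := H (min t (ε / (L + 1))) (by positivity) (min_le_left _ _)
  have h2 : L * min t (ε / (L + 1)) ≤ L * (ε / (L + 1)) :=
    mul_le_mul_of_nonneg_left (min_le_right _ _) hL
  have h3 : L * (ε / (L + 1)) ≤ ε := by
    rw [← mul_div_assoc, div_le_iff₀ (by positivity)]; nlinarith
  linarith

theorem C_S_le [FiniteDimensional ℝ E] {L t τ : ℝ} {f : E → ℝ} (hf : Lip L f)
    (ht : 0 < t) (hτ : 0 < τ) (x : E) : C t (S τ f) x ≤ S τ (C (t + τ) f) x := by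
  refine le_of_forall_eta (L := 2 * L) (by have := hf.1; positivity) ht fun η hη _ => ?_
  obtain ⟨ι, _, w, h, H, -, hC⟩ := exists_tok (hf.S hτ) ht hη x
  have := H.fwd hf ht hτ x
  linarith

/-- the midpoint inequality for the closing of a discrete subsolution -/
theorem key_ineq [FiniteDimensional ℝ E] {L t τ : ℝ} {U : E → ℝ} (hU : Lip L U)
    (hτ : 0 < τ) (ht : τ < t) (x : E)
    (hsub : ∀ z, ‖z - x‖ ≤ (4 * L + 1) * t → 2 * U z ≤ S τ U z + I τ U z) :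
    2 * C t U x ≤ S τ (C (t + τ) U) x + I τ (C (t - τ) U) x := by
  have ht0 := hτ.trans ht
  refine le_of_forall_eta (L := 4 * L) (by have := hU.1; positivity) ht0 fun η hη hηt => ?_
  obtain ⟨ι, _, w, h, H, hh, hC⟩ := exists_tok hU ht0 hη x
  have h1 := H.fwd hU ht0 hτ x
  have h2 := H.bwd hU hτ ht x
  have h3 : ∀ i, U (x + h i) - ‖h i‖ ^ 2 / (2 * t)
      ≤ 0 + (1 / 2) * (S τ U (x + h i) - ‖h i‖ ^ 2 / (2 * t))
        + (1 / 2) * (I τ U (x + h i) - ‖h i‖ ^ 2 / (2 * t)) := by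
    intro i
    have := hsub (x + h i) (by rw [add_sub_cancel_left]; have := hh i; linarith)
    linarith
  have h4 := H.sum_le h3
  rw [H.sum_affine] at h4
  linarith

end Vale.Agent.P080
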