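import Vale.Agent.P080.ZE

/-! Flatness from almost constant levels. -/

set_option linter.unusedSectionVars false

namespace Vale.Agent.P080

open scoped RealInnerProductSpace

variable {E : Type*} [NormedAddCommGroup E] [InnerProductSpace ℝ E]

/-- the level at time `r` -/
noncomputable def lev (u : E → ℝ) (z : E) (r : ℝ) : ℝ := (S r u z - u z) / r

theorem lev_mono {L T r r' : ℝ} {u : E → ℝ} {z : E} (hu : Lip L u) (hs : Sub u z T)
    (hr : 0 < r) (h1 : r ≤ r') (h2 : r' ≤ T) : lev u z r ≤ lev u z r' := by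
  have := Sub.zero hu hs hr h1 h2
  unfold lev
  rw [div_le_div_iff₀ hr (by linarith)]
  linarith

theorem opt_slope {L l : ℝ} {u : E → ℝ} {z e p : E} (hu : Lip L u) (hl : 0 < l)
    (hF : Flat u z (4 * l) 1 e) (hp : S l u z = u (z + l • p) - ‖l • p‖ ^ 2 / (2 * l)) :
    ‖e - p‖ ≤ 6 := by
  obtain ⟨n, hn⟩ : ∃ n, l • p = l • e + n := ⟨l • p - l • e, by abel⟩
  have h1 := hF.S_lo hu hl (by linarith)
  have h2 := pair_id hl u z e z n
  have h3 := hF.up (y := z + (l • e + n)) l n (by abel) (by rw [abs_of_pos hl]; linarith)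
  rw [V_self] at h2
  rw [hn] at hp
  have e1 : ‖n‖ ^ 2 / (2 * l) = 2 * (‖n‖ ^ 2 / (4 * l)) := by field_simp; ring
  have h4 : ‖n‖ ^ 2 / (4 * l) ≤ 8 * l := by linarith
  rw [div_le_iff₀ (by positivity)] at h4
  have e2 : n = -(l • (e - p)) := by rw [smul_sub, hn]; abel
  rw [e2, norm_neg, norm_smul_sq] at h4
  have h5 : l ^ 2 * ‖e - p‖ ^ 2 ≤ l ^ 2 * 6 ^ 2 := by nlinarith
  have h6 := le_of_mul_le_mul_left h5 (by positivity)
  exact (pow_le_pow_iff_left₀ (norm_nonneg _) (by norm_num) two_ne_zero).1 h6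

theorem S_back {L l a : ℝ} {u : E → ℝ} {z e : E} (hu : Lip L u) (hl : 0 < l) (ha : 4 * l ≤ a)
    (hF : Flat u z (4 * a) 1 e) (p : E) :
    S (a + l) u (z - l • p) ≤ S a u z - l * ‖p‖ ^ 2 / 2 + l * (32 + ‖e - p‖ ^ 2) := by
  have ha0 : 0 < a := by linarith
  refine S_le' fun m => ?_
  obtain ⟨w, rfl⟩ : ∃ w, m = l • p + (a • e + a • w) :=
    ⟨(1 / a) • (m - l • p) - e, by
      rw [smul_sub, smul_smul, mul_one_div_cancel ha0.ne', one_smul]; abel⟩
  have e0 : z - l • p + (l • p + (a • e + a • w)) = z + (a • e + a • w) := by abel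
  rw [e0]
  have h1 := le_S' hu ha0 z (a • e + a • w)
  have h2 := pair_id ha0 u z e z (a • w)
  have h3 := hF.up (y := z + (a • e + a • w)) a (a • w) (by abel)
    (by rw [abs_of_pos ha0]; linarith)
  have h4 := hF.S_lo hu ha0 (by linarith)
  rw [V_self] at h2
  rw [norm_smul_sq] at h2 h3
  have e1 : a ^ 2 * ‖w‖ ^ 2 / (2 * a) = a * ‖w‖ ^ 2 / 2 := by field_simp
  have e2 : a ^ 2 * ‖w‖ ^ 2 / (4 * a) = a * ‖w‖ ^ 2 / 4 := by field_simp
  set X := u (z + (a • e + a • w)) - ‖a • e + a • w‖ ^ 2 / (2 * a) - S a u z with hX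
  have h5 : X ≤ 0 := by linarith
  have h6 : X ≤ 8 * a - a * ‖w‖ ^ 2 / 4 := by linarith
  have h7 : X ≤ 32 * l - l * ‖w‖ ^ 2 := by
    have a1 := mul_le_mul_of_nonneg_left h6 (by positivity : 0 ≤ 4 * l)
    have a2 : (a - 4 * l) * X ≤ 0 := mul_nonpos_of_nonneg_of_nonpos (by linarith) h5
    have : a * X ≤ a * (32 * l - l * ‖w‖ ^ 2) := by linarith
    exact le_of_mul_le_mul_left this ha0
  have e3 : ‖l • p + (a • e + a • w)‖ ^ 2 / (2 * (a + l)) = ‖a • e + a • w‖ ^ 2 / (2 * a)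
      + l * ‖p‖ ^ 2 / 2 - a * l / (2 * (a + l)) * ‖(e + w) - p‖ ^ 2 := by
    rw [← smul_add, norm_add_sq_real, norm_sub_sq_real, norm_smul_sq, norm_smul_sq,
      real_inner_smul_left, real_inner_smul_right, real_inner_comm]
    field_simp; ring
  have h8 : ‖(e + w) - p‖ ^ 2 ≤ 2 * ‖w‖ ^ 2 + 2 * ‖e - p‖ ^ 2 := by
    have : e + w - p = w + (e - p) := by abel
    rw [this]; exact norm_add_sq_le _ _
  have h9 : a * l / (2 * (a + l)) ≤ l / 2 := by
    rw [div_le_div_iff₀ (by positivity) (by norm_num)]; nlinarith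
  have h10 := mul_le_mul h9 h8 (by positivity) (by positivity)
  rw [e3]
  linarith

theorem envelope {L l a B lp lm ε T : ℝ} {u : E → ℝ} {z e p : E} (hu : Lip L u) (hl : 0 < l)
    (ha : 4 * l ≤ a) (hF : Flat u z (4 * a) 1 e) (hB : 32 + ‖e - p‖ ^ 2 ≤ B)
    (hm : u z - u (z - l • p) - l * ‖p‖ ^ 2 / 2 = l * lm) (hp : S a u z - u z ≤ a * (lp + ε))
    (hs : Sub u (z - l • p) T) (hT : a + l ≤ T) :
    a * lm ≤ a * (lp + ε) + l * B ∧ ∀ t, 0 < t → t ≤ a + l →
      (a + l) * (S t u (z - l • p) - u (z - l • p)) ≤ t * (a * (lp + ε) + l * lm + l * B) := by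
  have h1 := S_back hu hl ha hF p
  have h2 := mul_le_mul_of_nonneg_left hB hl.le
  have key : ∀ t, 0 < t → t ≤ a + l →
      (a + l) * (S t u (z - l • p) - u (z - l • p)) ≤ t * (a * (lp + ε) + l * lm + l * B) := by
    intro t ht hta
    refine (Sub.zero hu hs ht hta hT).trans (mul_le_mul_of_nonneg_left ?_ ht.le)
    linarith
  refine ⟨?_, key⟩
  have h3 := key l hl (by linarith)
  have h4 := le_S' hu hl (z - l • p) (l • p)
  rw [sub_add_cancel, norm_smul_sq] at h4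
  have e1 : l ^ 2 * ‖p‖ ^ 2 / (2 * l) = l * ‖p‖ ^ 2 / 2 := by field_simp
  have h5 : (a + l) * (l * lm) ≤ (a + l) * (S l u (z - l • p) - u (z - l • p)) :=
    mul_le_mul_of_nonneg_left (by linarith) (by linarith)
  have h6 : l * (a * lm) ≤ l * (a * (lp + ε) + l * B) := by linarith
  exact le_of_mul_le_mul_left h6 hl

theorem flat_of_env {L l Λ ε A : ℝ} {u : E → ℝ} {z p q : E} (hu : Lip L u) (hl : 0 < l)
    (hA : 0 < A) (hA2 : 16 * ε ≤ A ^ 2)
    (hp : l * (Λ - ε) ≤ u z - u (z - l • p) - l * ‖p‖ ^ 2 / 2)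
    (hq : l * (Λ - ε) ≤ u (z + l • q) - u z - l * ‖q‖ ^ 2 / 2)
    (Hp : ∀ t, 0 < t → t ≤ 2 * l → S t u (z - l • p) - u (z - l • p) ≤ t * Λ)
    (Hq : ∀ t, 0 < t → t ≤ 2 * l →
      S t (fun y => - u y) (z + l • q) + u (z + l • q) ≤ t * Λ) :
    ∃ e, Flat u z (l / 16) (4 * A) e := by
  obtain ⟨δ, rfl⟩ : ∃ δ, q = p + δ := ⟨q - p, by abel⟩
  have hδ : ‖δ‖ ^ 2 ≤ 8 * ε := by
    have h1 := Hp (2 * l) (by positivity) le_rfl
    have h2 := le_S' hu (by positivity : 0 < 2 * l) (z - l • p) (l • (p + (p + δ)))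
    have e0 : z - l • p + l • (p + (p + δ)) = z + l • (p + δ) := by module
    rw [e0, norm_smul_sq] at h2
    have e1 : ‖p + (p + δ)‖ ^ 2 = 2 * ‖p‖ ^ 2 + 2 * ‖p + δ‖ ^ 2 - ‖δ‖ ^ 2 := by
      rw [norm_add_sq_real p (p + δ), norm_add_sq_real p δ, inner_add_right,
        real_inner_self_eq_norm_sq]; ring
    have e2 : l ^ 2 * ‖p + (p + δ)‖ ^ 2 / (2 * (2 * l)) = l * ‖p + (p + δ)‖ ^ 2 / 4 := by
      field_simp; ring
    rw [e2, e1] at h2
    have : l * ‖δ‖ ^ 2 ≤ l * (8 * ε) := by linarith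
    exact le_of_mul_le_mul_left this hl
  have hε : 0 ≤ ε := by have := sq_nonneg ‖δ‖; linarith
  have hμ : 0 < l / 4 := by positivity
  have := flat_of_pre (u := u) (z := z) (b := p) (κ := Λ + ‖p‖ ^ 2 / 2) hμ hA (fun σ h hσ => by
    have hσ' := abs_le.1 hσ
    have hAl := mul_le_mul_of_nonneg_right hA2 hμ.le
    have hlε : 0 ≤ l * ε := by positivity
    have hh : 0 ≤ ‖h‖ ^ 2 / l := by positivity
    have eh : ‖h‖ ^ 2 / (l / 4) = 4 * (‖h‖ ^ 2 / l) := by field_simp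
    rw [abs_le, eh]
    constructor
    · have ht : 0 < l - σ := by linarith
      have h1 := Hq (l - σ) ht (by linarith)
      have h2 := le_S' hu.neg ht (z + l • (p + δ)) ((l - σ) • (-(p + δ)) + (h - σ • δ))
      have e0 : z + l • (p + δ) + ((l - σ) • (-(p + δ)) + (h - σ • δ)) = z + σ • p + h := by
        module
      rw [e0, sq_div_shift ht, norm_neg, inner_neg_left] at h2
      have e1 : ⟪p + δ, h - σ • δ⟫ = ⟪p, h⟫ - σ * ⟪p, δ⟫ + ⟪δ, h⟫ - σ * ‖δ‖ ^ 2 := by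
        rw [inner_add_left, inner_sub_right, inner_sub_right, real_inner_smul_right,
          real_inner_smul_right, real_inner_self_eq_norm_sq]; ring
      have e2 := norm_add_sq_real p δ
      have h3 : ‖h - σ • δ‖ ^ 2 / (2 * (l - σ)) ≤ 2 * (‖h‖ ^ 2 / l) + l * ε := by
        have a1 : ‖h - σ • δ‖ ^ 2 ≤ 2 * ‖h‖ ^ 2 + 2 * (σ ^ 2 * ‖δ‖ ^ 2) := by
          have := norm_add_sq_le h (-(σ • δ))
          rwa [norm_neg, norm_smul_sq, ← sub_eq_add_neg] at this
        have a2 : σ ^ 2 ≤ (l / 4) ^ 2 := by rw [← sq_abs]; exact pow_le_pow_left₀ (abs_nonneg _) hσ 2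
        have a3 := mul_le_mul a2 hδ (by positivity) (by positivity)
        have a4 : ‖h - σ • δ‖ ^ 2 / (2 * (l - σ)) ≤ ‖h - σ • δ‖ ^ 2 / l :=
          div_le_div_of_nonneg_left (by positivity) hl (by linarith)
        have a5 : ‖h - σ • δ‖ ^ 2 / l ≤ (2 * ‖h‖ ^ 2 + l ^ 2 * ε) / l :=
          div_le_div_of_nonneg_right (by linarith) hl.le
        have a6 : (2 * ‖h‖ ^ 2 + l ^ 2 * ε) / l = 2 * (‖h‖ ^ 2 / l) + l * ε := by field_simp
        linarith
      have h4 := inner_le_split (by positivity : 0 < l / 16) (-δ) h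
      rw [inner_neg_left, norm_neg] at h4
      have e3 : ‖h‖ ^ 2 / (8 * (l / 16)) = 2 * (‖h‖ ^ 2 / l) := by field_simp; ring
      have h5 := mul_le_mul_of_nonneg_left hδ hl.le
      have h6 : σ * ‖δ‖ ^ 2 ≤ l / 4 * ‖δ‖ ^ 2 := mul_le_mul_of_nonneg_right hσ'.2 (by positivity)
      rw [e2] at h2 hq
      rw [e1] at h2
      linarith
    · have ht : 0 < l + σ := by linarith
      have h1 := Hp (l + σ) ht (by linarith)
      have h2 := le_S' hu ht (z - l • p) ((l + σ) • p + h)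
      have e0 : z - l • p + ((l + σ) • p + h) = z + σ • p + h := by module
      rw [e0, sq_div_shift ht] at h2
      have h3 : ‖h‖ ^ 2 / (2 * (l + σ)) ≤ ‖h‖ ^ 2 / l :=
        div_le_div_of_nonneg_left (by positivity) hl (by linarith)
      linarith)
  have e : l / 4 / 4 = l / 16 := by ring
  rwa [e] at this

theorem FL [FiniteDimensional ℝ E] {L l ε A : ℝ} {n : ℕ} {u : E → ℝ} {z : E} (hu : Lip L u)
    (hl : 0 < l) (hn : 2 ≤ n) (H : ∀ ν, 0 < ν → ν ≤ 4 * (2 ^ n * l) → ∃ e, Flat u z ν 1 e)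
    (hgood : Good u z (2 * L * l) (2 * (2 ^ n * l)))
    (hp : lev u z (2 ^ n * l) ≤ lev u z l + ε)
    (hm : lev (fun y => - u y) z (2 ^ n * l) ≤ lev (fun y => - u y) z l + ε)
    (hε : 0 ≤ ε) (hA : 0 < A) (hA2 : 48 * (ε + 153 * ((n : ℝ) + 1) ^ 2 / 2 ^ n) ≤ A ^ 2) :
    ∃ e, Flat u z (l / 16) (4 * A) e := by
  set a : ℝ := 2 ^ n * l with hadef
  have h2n : (4 : ℝ) ≤ 2 ^ n := by
    have : (2 : ℝ) ^ 2 ≤ 2 ^ n := pow_le_pow_right₀ (by norm_num) hn
    linarith
  have ha : 4 * l ≤ a := mul_le_mul_of_nonneg_right h2n hl.le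
  have ha0 : 0 < a := by linarith
  obtain ⟨e, hF⟩ := H (4 * a) (by positivity) le_rfl
  obtain ⟨e', hF'⟩ := H (4 * l) (by positivity) (by linarith)
  have hee := (chain hu (by positivity) H hF n e' (by
    have : 4 * a / 2 ^ n = 4 * l := by rw [hadef]; field_simp
    rwa [this])).1
  obtain ⟨m, hm1, hm2⟩ := exists_S hu hl z
  obtain ⟨m', hm1', hm2'⟩ := exists_S hu.neg hl z
  obtain ⟨q, rfl⟩ : ∃ q, m = l • q :=
    ⟨(1 / l) • m, by rw [smul_smul, mul_one_div_cancel hl.ne', one_smul]⟩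
  obtain ⟨p, rfl⟩ : ∃ p, m' = l • (-p) :=
    ⟨-((1 / l) • m'), by rw [neg_neg, smul_smul, mul_one_div_cancel hl.ne', one_smul]⟩
  have hq := opt_slope hu hl hF' hm2
  have hp' := opt_slope hu.neg hl hF'.neg hm2'
  set B : ℝ := 153 * ((n : ℝ) + 1) ^ 2 with hB
  have hn1 : (1 : ℝ) ≤ (n : ℝ) + 1 := by have : (0 : ℝ) ≤ n := Nat.cast_nonneg n
                                         linarith
  have hBd : ∀ w : E, ‖e' - w‖ ≤ 6 → 32 + ‖e - w‖ ^ 2 ≤ B := by
    intro w hw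
    have a1 : ‖e - w‖ ≤ 11 * ((n : ℝ) + 1) := by
      have : e - w = (e - e') + (e' - w) := by abel
      rw [this]; exact (norm_add_le _ _).trans (by linarith)
    have a2 := pow_le_pow_left₀ (norm_nonneg _) a1 2
    have a3 : (1 : ℝ) ≤ ((n : ℝ) + 1) ^ 2 := one_le_pow₀ hn1
    rw [hB]; nlinarith
  have e1 : ∀ w : E, ‖l • w‖ ^ 2 / (2 * l) = l * ‖w‖ ^ 2 / 2 := fun w => by
    rw [norm_smul_sq]; field_simp
  have ez : z + l • (-p) = z - l • p := by rw [smul_neg, sub_eq_add_neg]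
  have ez' : z - l • (-q) = z + l • q := by rw [smul_neg, sub_neg_eq_add]
  set lp := lev u z l with hlp
  set lm := lev (fun y => - u y) z l with hlm
  have elp : l * lp = S l u z - u z := by rw [hlp]; unfold lev; field_simp
  have elm : l * lm = S l (fun y => - u y) z + u z := by rw [hlm]; unfold lev; field_simp; ring
  have hpa : S a u z - u z ≤ a * (lp + ε) := by
    unfold lev at hp; rw [div_le_iff₀ ha0] at hp; linarith
  have hma : S a (fun y => - u y) z - - u z ≤ a * (lm + ε) := by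
    unfold lev at hm; rw [div_le_iff₀ ha0] at hm; linarith
  rw [ez, e1, norm_neg] at hm2'
  rw [e1] at hm2
  obtain ⟨c1, c2⟩ := envelope (lm := lm) hu hl ha hF (p := p) (hBd p (by
      have : e' - p = -(-e' - -p) := by abel
      rw [this, norm_neg]; exact hp')) (by linarith) hpa
    (hgood _ (by rw [← ez, add_sub_cancel_left]; exact hm1')).1 (by linarith)
  obtain ⟨d1, d2⟩ := envelope (lm := lp) (B := B) hu.neg hl ha hF.neg (p := -q) (by
      have : -e - -q = -(e - q) := by abel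
      rw [this, norm_neg]; exact hBd q hq) (by rw [ez', norm_neg]; linarith) hma
    (hgood _ (by rw [ez', add_sub_cancel_left]; exact hm1)).2 (by linarith)
  rw [ez'] at d2
  set ε₀ : ℝ := ε + B / 2 ^ n with hε₀
  have hB0 : 0 ≤ B := by positivity
  have hε₀0 : 0 ≤ ε₀ := by positivity
  have eε : a * ε₀ = a * ε + l * B := by rw [hε₀, hadef]; field_simp
  have c3 : lm ≤ lp + ε₀ := le_of_mul_le_mul_left (by linarith) ha0
  have d3 : lp ≤ lm + ε₀ := le_of_mul_le_mul_left (by linarith) ha0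
  have hal : 0 < a + l := by linarith
  have k1 := mul_le_mul_of_nonneg_left d3 ha0.le
  have k2 := mul_le_mul_of_nonneg_left d3 hl.le
  have k3 := mul_le_mul_of_nonneg_left c3 hl.le
  have k4 : 0 ≤ l * ε₀ := by positivity
  have k5 : 0 ≤ a * ε₀ := by positivity
  refine flat_of_env (Λ := lm + 2 * ε₀) (ε := 3 * ε₀) (p := p) (q := q) hu hl hA (by linarith)
    (by linarith) (by linarith) (fun t ht htl => ?_) (fun t ht htl => ?_)
  · have a1 := c2 t ht (by linarith)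
    have a2 : t * (a * (lp + ε) + l * lm + l * B) ≤ t * ((a + l) * (lm + 2 * ε₀)) :=
      mul_le_mul_of_nonneg_left (by linarith) ht.le
    exact le_of_mul_le_mul_left (by linarith) hal
  · have a1 := d2 t ht (by linarith)
    have a2 : t * (a * (lm + ε) + l * lp + l * B) ≤ t * ((a + l) * (lm + 2 * ε₀)) :=
      mul_le_mul_of_nonneg_left (by linarith) ht.le
    exact le_of_mul_le_mul_left (by linarith) hal

theorem exists_small_step (f : ℕ → ℝ) (J : ℕ) (ε : ℝ) (h : f J - f 0 < J * ε) :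
    ∃ l, l < J ∧ f (l + 1) ≤ f l + ε := by
  by_contra hc
  push Not at hc
  have : ∀ k, k ≤ J → k * ε ≤ f k - f 0 := by
    intro k
    induction k with
    | zero => simp
    | succ k ih =>
      intro hk
      have := ih (by omega)
      have := hc k (by omega)
      push_cast
      linarith
  linarith [this J le_rfl]

theorem FL_pigeon [FiniteDimensional ℝ E] {L l R ε A lo hi : ℝ} {n J : ℕ} {u : E → ℝ} {z : E}
    (hu : Lip L u) (hl : 0 < l) (hn : 2 ≤ n) (hR : (2 ^ n) ^ J * l ≤ R)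
    (H : ∀ ν, 0 < ν → ν ≤ 4 * R → ∃ e, Flat u z ν 1 e)
    (hgood : Good u z (2 * L * R) (2 * R))
    (hlo : lo ≤ lev u z l + lev (fun y => - u y) z l)
    (hhi : lev u z R + lev (fun y => - u y) z R ≤ hi) (hJ : hi - lo < J * ε)
    (hε : 0 ≤ ε) (hA : 0 < A) (hA2 : 48 * (ε + 153 * ((n : ℝ) + 1) ^ 2 / 2 ^ n) ≤ A ^ 2) :
    ∃ r e, l ≤ r ∧ r ≤ R ∧ Flat u z (r / 16) (4 * A) e := by
  have hL := hu.1
  have h2n : (1 : ℝ) ≤ 2 ^ n := one_le_pow₀ (by norm_num)
  set r : ℕ → ℝ := fun k => (2 ^ n) ^ k * l with hr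
  have hr0 : ∀ k, 0 < r k := fun k => by simp only [hr]; positivity
  have hrm : ∀ k k', k ≤ k' → r k ≤ r k' := fun k k' hk =>
    mul_le_mul_of_nonneg_right (pow_le_pow_right₀ h2n hk) hl.le
  have hrR : ∀ k, k ≤ J → r k ≤ R := fun k hk => (hrm k J hk).trans hR
  have hR0 : 0 < R := lt_of_lt_of_le (hr0 J) hR
  have hz := hgood z (by simp; positivity)
  obtain ⟨k, hk, hstep⟩ := exists_small_step
    (fun k => lev u z (r k) + lev (fun y => - u y) z (r k)) J ε (by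
      have a1 := lev_mono hu hz.1 (hr0 J) hR (by linarith)
      have a2 := lev_mono hu.neg hz.2 (hr0 J) hR (by linarith)
      have e0 : r 0 = l := by simp [hr]
      simp only [e0]
      linarith)
  have e1 : r (k + 1) = 2 ^ n * r k := by simp only [hr]; ring
  have b0 := hrR (k + 1) hk
  have b1 := lev_mono hu hz.1 (hr0 k) (hrm k (k + 1) (by omega)) (by linarith)
  have b2 := lev_mono hu.neg hz.2 (hr0 k) (hrm k (k + 1) (by omega)) (by linarith)
  rw [e1] at b0 b1 b2 hstep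
  have b3 := hrR k hk.le
  obtain ⟨e, he⟩ := FL hu (hr0 k) hn (fun ν h1 h2 => H ν h1 (by linarith))
    (hgood.mono (by
      have := mul_le_mul_of_nonneg_left b3 (by positivity : 0 ≤ 2 * L)
      simpa using this) (by linarith)) (ε := ε) (by linarith) (by linarith) hε hA hA2
  exact ⟨r k, e, by simpa [hr] using hrm 0 k (Nat.zero_le k), b3, he⟩

end Vale.Agent.P080
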