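import Vale.Agent.P080.Visc

/-! The interior gradient estimate for infinity-harmonic functions. -/

set_option linter.unusedSectionVars false

namespace Vale.Agent.P080

open scoped RealInnerProductSpace

theorem local_est : ∃ α C : ℝ, 0 < α ∧ 0 < C ∧
    ∀ (E : Type) [NormedAddCommGroup E] [InnerProductSpace ℝ E] [FiniteDimensional ℝ E]
      [CompleteSpace E] (u : E → ℝ) (Ω : Set E) (c : E) (r M : ℝ), InfHarmonicOn u Ω → 0 < r →
      0 < M → Metric.ball c r ⊆ Ω →
      (∀ p ∈ Metric.ball c r, ∀ q ∈ Metric.ball c r, u p - u q ≤ M) →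
      ∀ x ∈ Metric.ball c (r / 2), HasGradientAt u (gradient u x) x ∧
        ‖gradient u x‖ ≤ C * M / r ∧ ∀ y ∈ Metric.ball c (r / 2),
          ‖gradient u x - gradient u y‖ ≤ C * M / r ^ (1 + α) * ‖x - y‖ ^ α := by
  obtain ⟨α, C, hα, hC, H⟩ := holder
  have h40 : (1 : ℝ) ≤ 40 ^ α := Real.one_le_rpow (by norm_num) hα.le
  refine ⟨α, 8 * C * 40 ^ α, hα, by positivity, fun E _ _ _ _ u Ω c r M hu hr hM hΩ hosc => ?_⟩
  obtain ⟨h1, h2⟩ := hu.cone
  set L : ℝ := 8 * M / r with hL
  have hL0 : 0 < L := by positivity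
  have hlip := h1.lip hr hM.le hΩ hosc
  have hlo : LipschitzOnWith (Real.toNNReal L) u (Metric.ball c (3 * r / 4)) := by
    refine LipschitzOnWith.of_dist_le_mul fun x hx y hy => ?_
    rw [Real.coe_toNNReal _ hL0.le, Real.dist_eq, dist_eq_norm, abs_le]
    have a1 := hlip x hx y hy
    have a2 := hlip y hy x hx
    rw [norm_sub_rev] at a1
    constructor <;> linarith
  obtain ⟨g, hg, he⟩ := hlo.extend_real
  have hgl : Lip L g := ⟨hL0.le, fun x y => by
    have := hg.dist_le_mul x y
    rw [Real.coe_toNNReal _ hL0.le, Real.dist_eq, dist_eq_norm] at this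
    exact (le_abs_self _).trans this⟩
  have hsub : Metric.ball c (3 * r / 4) ⊆ Ω :=
    (Metric.ball_subset_ball (by linarith)).trans hΩ
  have c1 : Cone g (Metric.ball c (3 * r / 4)) := h1.congr hsub fun y hy => he hy
  have c2 : Cone (fun y => - g y) (Metric.ball c (3 * r / 4)) :=
    h2.congr hsub fun y hy => by simp only [he hy]
  have eL : L * (r / (40 * L)) = r / 40 := by field_simp
  obtain ⟨G, hG⟩ := H E g c L (r / 2) (r / (40 * L)) hgl hL0 (by positivity) (fun z hz => by
    have hB : Metric.closedBall z (L * (r / (40 * L))) ⊆ Metric.ball c (3 * r / 4) :=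
      Metric.closedBall_subset_ball' (by rw [dist_eq_norm]; linarith)
    exact ⟨c1.sub hgl hB, c2.sub hgl.neg hB⟩)
  have hgrad : ∀ x ∈ Metric.ball c (r / 2), HasGradientAt u (G x) x := by
    intro x hx
    have hx' : x ∈ Metric.ball c (3 * r / 4) := Metric.ball_subset_ball (by linarith) hx
    rw [Metric.mem_ball, dist_eq_norm] at hx
    refine (hG x hx.le).1.congr_of_eventuallyEq ?_
    filter_upwards [Metric.isOpen_ball.mem_nhds hx'] with y hy using he hy
  intro x hx
  have hx1 := hgrad x hx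
  rw [hx1.gradient]
  have hx2 : ‖x - c‖ ≤ r / 2 := by rw [Metric.mem_ball, dist_eq_norm] at hx; exact hx.le
  refine ⟨hx1, (hG x hx2).2.1.trans ?_, fun y hy => ?_⟩
  · have := mul_le_mul_of_nonneg_left h40 (by positivity : 0 ≤ C * L)
    have e : 8 * C * 40 ^ α * M / r = C * L * 40 ^ α := by rw [hL]; ring
    linarith
  · rw [(hgrad y hy).gradient]
    have hy2 : ‖y - c‖ ≤ r / 2 := by rw [Metric.mem_ball, dist_eq_norm] at hy; exact hy.le
    refine ((hG x hx2).2.2 y hy2).trans (le_of_eq ?_)
    rw [eL, Real.div_rpow (norm_nonneg _) (by positivity), Real.div_rpow hr.le (by norm_num),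
      Real.rpow_add hr, Real.rpow_one, hL]
    have : 0 < r ^ α := by positivity
    field_simp

theorem final : ∃ α C : ℝ, 0 < α ∧ 0 < C ∧
    ∀ (E : Type) [NormedAddCommGroup E] [InnerProductSpace ℝ E] [FiniteDimensional ℝ E]
      [CompleteSpace E] (u : E → ℝ) (Ω : Set E), IsOpen Ω → InfHarmonicOn u Ω →
      ContDiffOn ℝ 1 u Ω ∧ ∀ (c : E) (r M : ℝ), 0 < r → Metric.ball c r ⊆ Ω →
        (∀ p ∈ Metric.ball c r, ∀ q ∈ Metric.ball c r, u p - u q ≤ M) →
        ∀ x ∈ Metric.ball c (r / 2), ∀ y ∈ Metric.ball c (r / 2),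
          ‖gradient u x‖ ≤ C * M / r ∧
          ‖gradient u x - gradient u y‖ ≤ C * M / r ^ (1 + α) * ‖x - y‖ ^ α := by
  obtain ⟨α, C, hα, hC, H⟩ := local_est
  refine ⟨α, C, hα, hC, fun E _ _ _ _ u Ω hΩ hu => ⟨fun c hc => ?_, ?_⟩⟩
  · have : ProperSpace E := FiniteDimensional.proper ℝ E
    obtain ⟨r, hr, hsub⟩ := Metric.nhds_basis_closedBall.mem_iff.1 (hΩ.mem_nhds hc)
    obtain ⟨B, hB⟩ := (isCompact_closedBall c r).exists_bound_of_continuousOn (hu.1.mono hsub)
    have hB0 : 0 ≤ B := (norm_nonneg _).trans (hB c (Metric.mem_closedBall_self hr.le))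
    have key := H E u Ω c r (2 * B + 1) hu hr (by positivity)
      (Metric.ball_subset_closedBall.trans hsub) (fun p hp q hq => by
        have a1 := abs_le.1 (hB p (Metric.ball_subset_closedBall hp))
        have a2 := abs_le.1 (hB q (Metric.ball_subset_closedBall hq))
        linarith [a1.2, a2.1])
    refine ContDiffAt.contDiffWithinAt (contDiffAt_one_iff.2
      ⟨fun x => InnerProductSpace.toDual ℝ E (gradient u x), Metric.ball c (r / 2),
        Metric.ball_mem_nhds c (by positivity), ?_, fun x hx => (key x hx).1.hasFDerivAt⟩)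
    refine (InnerProductSpace.toDual ℝ E).continuous.comp_continuousOn fun x hx => ?_
    rw [ContinuousWithinAt, tendsto_iff_norm_sub_tendsto_zero]
    have hlim : Filter.Tendsto (fun y : E => C * (2 * B + 1) / r ^ (1 + α) * ‖y - x‖ ^ α)
        (nhdsWithin x (Metric.ball c (r / 2))) (nhds 0) := by
      have h1 : Continuous fun y : E => C * (2 * B + 1) / r ^ (1 + α) * ‖y - x‖ ^ α :=
        continuous_const.mul (Continuous.rpow_const (by fun_prop) fun _ => Or.inr hα.le)
      have := h1.tendsto x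
      simp only [sub_self, norm_zero, Real.zero_rpow hα.ne', mul_zero] at this
      exact this.mono_left nhdsWithin_le_nhds
    refine squeeze_zero' (Filter.Eventually.of_forall fun _ => norm_nonneg _) ?_ hlim
    filter_upwards [self_mem_nhdsWithin] with y hy using (key y hy).2.2 x hx
  · intro c r M hr hsub hosc x hx y hy
    have hM : 0 ≤ M := by simpa using hosc c (Metric.mem_ball_self hr) c (Metric.mem_ball_self hr)
    have key := fun η (hη : 0 < η) => H E u Ω c r (M + η) hu hr (by positivity) hsub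
      (fun p hp q hq => (hosc p hp q hq).trans (by linarith)) x hx
    constructor
    · refine le_of_forall_eta (L := C / r) (by positivity) one_pos fun η hη _ => ?_
      refine (key η hη).2.1.trans (le_of_eq ?_)
      ring
    · refine le_of_forall_eta (L := C / r ^ (1 + α) * ‖x - y‖ ^ α) (by positivity) one_pos
        fun η hη _ => ?_
      refine ((key η hη).2.2 y hy).trans (le_of_eq ?_)
      ring

end Vale.Agent.P080
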