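import Vale.Agent.P080.Couple

/-! Flatness on slanted cylinders and its first consequences. -/

set_option linter.unusedSectionVars false

namespace Vale.Agent.P080

open scoped RealInnerProductSpace

variable {E : Type*} [NormedAddCommGroup E] [InnerProductSpace ℝ E]

/-- flatness at time scale `μ` with amplitude `A` and slope `e` -/
def Flat (u : E → ℝ) (z : E) (μ A : ℝ) (e : E) : Prop :=
  ∀ (σ : ℝ) (h : E), |σ| ≤ μ →
    |u (z + σ • e + h) - u z - σ * ‖e‖ ^ 2 - ⟪e, h⟫| ≤ A ^ 2 * μ + ‖h‖ ^ 2 / μ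

/-- the function minus its affine approximation -/
def V (u : E → ℝ) (z e y : E) : ℝ := u y - u z - ⟪e, y - z⟫

theorem Flat.bd {u : E → ℝ} {z e : E} {μ A : ℝ} (hF : Flat u z μ A e) {y : E} (σ : ℝ) (h : E)
    (hy : y = z + σ • e + h) (hσ : |σ| ≤ μ) : |V u z e y| ≤ A ^ 2 * μ + ‖h‖ ^ 2 / μ := by
  have := hF σ h hσ
  have e1 : y - z = σ • e + h := by rw [hy]; abel
  unfold V
  rw [e1, inner_add_right, real_inner_smul_right, real_inner_self_eq_norm_sq, hy]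
  convert this using 2; ring

theorem Flat.up {u : E → ℝ} {z e : E} {μ A : ℝ} (hF : Flat u z μ A e) {y : E} (σ : ℝ) (h : E)
    (hy : y = z + σ • e + h) (hσ : |σ| ≤ μ) : V u z e y ≤ A ^ 2 * μ + ‖h‖ ^ 2 / μ :=
  (abs_le.1 (hF.bd σ h hy hσ)).2

theorem Flat.lo {u : E → ℝ} {z e : E} {μ A : ℝ} (hF : Flat u z μ A e) {y : E} (σ : ℝ) (h : E)
    (hy : y = z + σ • e + h) (hσ : |σ| ≤ μ) : -(A ^ 2 * μ + ‖h‖ ^ 2 / μ) ≤ V u z e y :=
  (abs_le.1 (hF.bd σ h hy hσ)).1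

theorem V_self (u : E → ℝ) (z e : E) : V u z e z = 0 := by simp [V]

theorem V_diff (u : E → ℝ) (z e y m : E) :
    u (y + m) - u y = V u z e (y + m) - V u z e y + ⟪e, m⟫ := by
  unfold V
  have : y + m - z = (y - z) + m := by abel
  rw [this, inner_add_right]; ring

theorem sq_div_shift {τ : ℝ} (hτ : 0 < τ) (e n : E) :
    ‖τ • e + n‖ ^ 2 / (2 * τ) = τ * ‖e‖ ^ 2 / 2 + ⟪e, n⟫ + ‖n‖ ^ 2 / (2 * τ) := by
  rw [norm_add_sq_real, real_inner_smul_left, norm_smul_sq]; field_simp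

theorem pair_id {τ : ℝ} (hτ : 0 < τ) (u : E → ℝ) (z e y n : E) :
    u (y + (τ • e + n)) - u y - ‖τ • e + n‖ ^ 2 / (2 * τ)
      = V u z e (y + (τ • e + n)) - V u z e y + τ * ‖e‖ ^ 2 / 2 - ‖n‖ ^ 2 / (2 * τ) := by
  rw [V_diff u z e, sq_div_shift hτ, inner_add_right, real_inner_smul_right,
    real_inner_self_eq_norm_sq]
  ring

theorem Flat.neg {u : E → ℝ} {z e : E} {μ A : ℝ} (hF : Flat u z μ A e) :
    Flat (fun y => - u y) z μ A (-e) := by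
  intro σ h hσ
  have := hF (-σ) h (by rwa [abs_neg])
  rw [← abs_neg] at this
  have e1 : z + σ • -e + h = z + -σ • e + h := by simp
  rw [e1, norm_neg, inner_neg_left]
  convert this using 2; ring

theorem Flat.mono {u : E → ℝ} {z e : E} {μ A A' : ℝ} (hF : Flat u z μ A e) (hμ : 0 ≤ μ)
    (hA : A ^ 2 ≤ A' ^ 2) : Flat u z μ A' e := fun σ h hσ =>
  (hF σ h hσ).trans (by have := mul_le_mul_of_nonneg_right hA hμ; linarith)

theorem norm_le_of_inner {w : E} {s c : ℝ} (hs : 0 < s) (hc : 0 ≤ c)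
    (H : ∀ h : E, ‖h‖ = s → ⟪w, h⟫ ≤ c * s) : ‖w‖ ≤ c := by
  rcases (norm_nonneg w).eq_or_lt with h0 | hpos
  · rwa [← h0]
  · have h1 := H ((s / ‖w‖) • w) (by
      rw [norm_smul, Real.norm_of_nonneg (by positivity)]; field_simp)
    rw [real_inner_smul_right, real_inner_self_eq_norm_sq] at h1
    have : s / ‖w‖ * ‖w‖ ^ 2 = ‖w‖ * s := by field_simp
    rw [this] at h1
    exact le_of_mul_le_mul_right h1 hs

theorem Flat.slope_le {u : E → ℝ} {z e : E} {L μ : ℝ} (hu : Lip L u) (hF : Flat u z μ 1 e)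
    (hμ : 0 < μ) : ‖e‖ ≤ L + 2 := by
  have hL := hu.1
  refine norm_le_of_inner hμ (by positivity) fun h hh => ?_
  have h1 := hF.lo (y := z + h) 0 h (by simp) (by simpa using hμ.le)
  have h2 := hu.2 (z + h) z
  unfold V at h1
  rw [add_sub_cancel_left] at h1 h2
  rw [hh] at h1 h2
  have : μ ^ 2 / μ = μ := by field_simp
  rw [this] at h1
  linarith

theorem Flat.S_lo {u : E → ℝ} {z e : E} {L μ A τ : ℝ} (hu : Lip L u) (hF : Flat u z μ A e)
    (hτ : 0 < τ) (hτμ : τ ≤ μ) : u z + τ * ‖e‖ ^ 2 / 2 - A ^ 2 * μ ≤ S τ u z := by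
  have h1 := le_S' hu hτ z (τ • e + 0)
  have h2 := pair_id hτ u z e z 0
  have h3 := hF.lo (y := z + (τ • e + 0)) τ 0 (by abel) (by rwa [abs_of_pos hτ])
  rw [V_self] at h2
  simp only [norm_zero, ne_eq, OfNat.ofNat_ne_zero, not_false_eq_true, zero_pow, zero_div]
    at h2 h3
  linarith

theorem Flat.S_up {u : E → ℝ} {z e : E} {μ A τ : ℝ} (hF : Flat u z μ A e)
    (hτ : 0 < τ) (hτμ : 2 * τ ≤ μ) : S τ u z ≤ u z + τ * ‖e‖ ^ 2 / 2 + A ^ 2 * μ := by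
  refine S_le' fun m => ?_
  obtain ⟨n, rfl⟩ : ∃ n, m = τ • e + n := ⟨m - τ • e, by abel⟩
  have h2 := pair_id hτ u z e z n
  have h3 := hF.up (y := z + (τ • e + n)) τ n (by abel) (by rw [abs_of_pos hτ]; linarith)
  rw [V_self] at h2
  have h4 : ‖n‖ ^ 2 / μ ≤ ‖n‖ ^ 2 / (2 * τ) :=
    div_le_div_of_nonneg_left (by positivity) (by positivity) hτμ
  linarith

theorem Flat.step {u : E → ℝ} {z e e' : E} {L μ μ' : ℝ} (hu : Lip L u) (hF : Flat u z μ 1 e)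
    (hF' : Flat u z μ' 1 e') (hμ : 0 < μ) (h1 : μ' ≤ μ) (h2 : μ ≤ 2 * μ') :
    ‖e - e'‖ ≤ 5 ∧ |‖e‖ ^ 2 / 2 - ‖e'‖ ^ 2 / 2| ≤ 8 := by
  have hμ' : 0 < μ' := by linarith
  constructor
  · refine norm_le_of_inner hμ (by norm_num) fun h hh => ?_
    have a1 := hF.lo (y := z + h) 0 h (by simp) (by simpa using hμ.le)
    have a2 := hF'.up (y := z + h) 0 h (by simp) (by simpa using hμ'.le)
    unfold V at a1 a2
    rw [add_sub_cancel_left, hh] at a1 a2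
    have b1 : μ ^ 2 / μ = μ := by field_simp
    have b2 : μ ^ 2 / μ' ≤ 2 * μ := by rw [div_le_iff₀ hμ']; nlinarith
    rw [inner_sub_left]
    linarith
  · have hτ : 0 < μ / 4 := by positivity
    have a1 := hF.S_lo hu hτ (by linarith)
    have a2 := hF.S_up hτ (by linarith)
    have a3 := hF'.S_lo hu hτ (by linarith)
    have a4 := hF'.S_up hτ (by linarith)
    rw [abs_le]
    constructor
    · have : μ * (-8) ≤ μ * (‖e‖ ^ 2 / 2 - ‖e'‖ ^ 2 / 2) := by linarith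
      exact le_of_mul_le_mul_left this hμ
    · have : μ * (‖e‖ ^ 2 / 2 - ‖e'‖ ^ 2 / 2) ≤ μ * 8 := by linarith
      exact le_of_mul_le_mul_left this hμ

theorem chain {u : E → ℝ} {z : E} {L μ : ℝ} (hu : Lip L u) (hμ : 0 < μ)
    (H : ∀ ν, 0 < ν → ν ≤ μ → ∃ e, Flat u z ν 1 e) {e : E} (hF : Flat u z μ 1 e) (n : ℕ) :
    ∀ e', Flat u z (μ / 2 ^ n) 1 e' →
      ‖e - e'‖ ≤ 5 * ((n : ℝ) + 1) ∧ |‖e‖ ^ 2 / 2 - ‖e'‖ ^ 2 / 2| ≤ 8 * ((n : ℝ) + 1) := by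
  induction n with
  | zero =>
    intro e' hF'
    have := hF.step hu hF' hμ (by simp) (by simp; linarith)
    simpa using this
  | succ n ih =>
    intro e' hF'
    have hp : (0 : ℝ) < μ / 2 ^ n := by positivity
    obtain ⟨e1, hF1⟩ := H (μ / 2 ^ n) hp
      (div_le_self hμ.le (one_le_pow₀ (by norm_num)))
    obtain ⟨a1, a2⟩ := ih e1 hF1
    have e0 : μ / 2 ^ n = 2 * (μ / 2 ^ (n + 1)) := by field_simp; ring
    obtain ⟨b1, b2⟩ := hF1.step hu hF' hp (by linarith) e0.le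
    have c1 : e - e' = (e - e1) + (e1 - e') := by abel
    have c2 := norm_add_le (e - e1) (e1 - e')
    rw [abs_le] at a2 b2 ⊢
    push_cast
    refine ⟨by rw [c1]; linarith, by linarith [a2.1, b2.1], by linarith [a2.2, b2.2]⟩

/-- upper bound for the levels inside a flat cylinder -/
theorem Flat.UL {u : E → ℝ} {z e x h : E} {L μ σ τ : ℝ} (hu : Lip L u) (hF : Flat u z μ 1 e)
    (hμ : 0 < μ) (hx : x = z + σ • e + h) (hσ : |σ| ≤ μ / 2) (hh : ‖h‖ ≤ μ)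
    (hs : Sub u x (μ / 4)) (hτ : 0 < τ) (hτμ : τ ≤ μ / 4) :
    S τ u x ≤ u x + τ * (‖e‖ ^ 2 / 2 + 20) := by
  have hq : 0 < μ / 4 := by positivity
  have hσ' := abs_le.1 hσ
  have h1 : S (μ / 4) u x ≤ u x + μ / 4 * (‖e‖ ^ 2 / 2 + 20) := by
    refine S_le' fun m => ?_
    obtain ⟨n, rfl⟩ : ∃ n, m = (μ / 4) • e + n := ⟨m - (μ / 4) • e, by abel⟩
    have h2 := pair_id hq u z e x n
    have h3 := hF.up (y := x + ((μ / 4) • e + n)) (σ + μ / 4) (h + n)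
      (by rw [hx, add_smul]; abel) (by rw [abs_le]; constructor <;> linarith)
    have h4 := hF.lo σ h hx (by linarith)
    have h5 := div_le_div_of_nonneg_right (norm_add_sq_le h n) hμ.le
    have h6 : ‖h‖ ^ 2 / μ ≤ μ := by
      rw [div_le_iff₀ hμ]; nlinarith [norm_nonneg h]
    have e1 : ‖n‖ ^ 2 / (2 * (μ / 4)) = 2 * (‖n‖ ^ 2 / μ) := by field_simp; ring
    have e2 : (2 * ‖h‖ ^ 2 + 2 * ‖n‖ ^ 2) / μ = 2 * (‖h‖ ^ 2 / μ) + 2 * (‖n‖ ^ 2 / μ) := by ring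
    linarith
  have h2 := Sub.zero hu hs hτ hτμ le_rfl
  have h3 : μ / 4 * (S τ u x - u x) ≤ μ / 4 * (τ * (‖e‖ ^ 2 / 2 + 20)) := by
    have := mul_le_mul_of_nonneg_left (sub_le_iff_le_add'.2 h1) hτ.le
    linarith
  have := le_of_mul_le_mul_left h3 hq
  linarith

theorem C_le_fwd {L t : ℝ} {u : E → ℝ} (hu : Lip L u) (ht : 0 < t) (y e : E) {c : ℝ}
    (H : ∀ k, u (y + k) - ⟪e, k⟫ - ‖k‖ ^ 2 / (2 * t) ≤ c) : C t u y ≤ c := by
  have h1 : C t u y ≤ S t u (y + -(t • e)) + ‖-(t • e)‖ ^ 2 / (2 * t) := I_le' (hu.S ht) ht y _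
  have h2 : S t u (y + -(t • e)) ≤ c - t * ‖e‖ ^ 2 / 2 := by
    refine S_le' fun m => ?_
    obtain ⟨n, rfl⟩ : ∃ n, m = t • e + n := ⟨m - t • e, by abel⟩
    have e0 : y + -(t • e) + (t • e + n) = y + n := by abel
    rw [e0, sq_div_shift ht]
    have := H n
    linarith
  rw [norm_neg, norm_smul_sq] at h1
  have : t ^ 2 * ‖e‖ ^ 2 / (2 * t) = t * ‖e‖ ^ 2 / 2 := by field_simp
  linarith

theorem Flat.gap_center {u : E → ℝ} {z e : E} {L μ A t : ℝ} (hu : Lip L u)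
    (hF : Flat u z μ A e) (ht : 0 < t) (htμ : 2 * t ≤ μ) : C t u z ≤ u z + A ^ 2 * μ := by
  refine C_le_fwd hu ht z e fun k => ?_
  have h3 := hF.up (y := z + k) 0 k (by simp) (by simp; linarith)
  unfold V at h3
  rw [add_sub_cancel_left] at h3
  have h4 : ‖k‖ ^ 2 / μ ≤ ‖k‖ ^ 2 / (2 * t) :=
    div_le_div_of_nonneg_left (by positivity) (by positivity) htμ
  linarith

theorem Flat.C_crude {u : E → ℝ} {z e y h : E} {L σ t : ℝ} (hu : Lip L u)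
    (hF : Flat u z 1 1 e) (hy : y = z + σ • e + h) (hσ : |σ| ≤ 1) (ht : 0 < t)
    (htμ : t ≤ 1 / 4) : C t u y ≤ u y - V u z e y + 1 + 2 * ‖h‖ ^ 2 := by
  refine C_le_fwd hu ht y e fun k => ?_
  have h3 := hF.up (y := y + k) σ (h + k) (by rw [hy]; abel) hσ
  have h4 := V_diff u z e y k
  have h5 := norm_add_sq_le h k
  have h6 : 2 * ‖k‖ ^ 2 ≤ ‖k‖ ^ 2 / (2 * t) := by
    rw [le_div_iff₀ (by positivity)]; nlinarith [sq_nonneg ‖k‖]
  simp only [one_pow, mul_one, div_one] at h3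
  linarith

/-- lower bound for the bonus gained by an extra sup-convolution -/
theorem Flat.KB [FiniteDimensional ℝ E] {u : E → ℝ} {z e x h : E} {L μ σ t γ : ℝ}
    (hu : Lip L u) (hF : Flat u z μ 1 e) (hμ : 0 < μ) (hx : x = z + σ • e + h)
    (hσ : |σ| ≤ μ / 2) (hh : ‖h‖ ≤ μ / 2) (ht : 0 < t) (hγ : 0 < γ) (htγ : t + γ ≤ μ / 8)
    (hs : ∀ o, ‖o - x‖ ≤ 2 * L * t → Sub u o (μ / 8)) :
    C t u x + γ * (‖e‖ ^ 2 / 2 - 9 * μ / t) ≤ S γ (C (t + γ) u) x := by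
  have htγ0 : 0 < t + γ := add_pos ht hγ
  have hσ' := abs_le.1 hσ
  refine le_trans ?_ (C_S_le hu ht hγ x)
  unfold C
  rw [S_S hu ht hγ]
  obtain ⟨m, hm, hme⟩ := exists_I (hu.S htγ0) ht x
  obtain ⟨n, rfl⟩ : ∃ n, m = -(t • e) + n := ⟨m + t • e, by abel⟩
  set o := x + (-(t • e) + n) with ho
  have hh2 : ‖h‖ ^ 2 / μ ≤ μ / 4 := by
    rw [div_le_iff₀ hμ]; nlinarith [norm_nonneg h]
  have hn0 : 0 ≤ ‖n‖ ^ 2 / μ := by positivity
  have em : ‖-(t • e) + n‖ ^ 2 / (2 * t) = t * ‖e‖ ^ 2 / 2 - ⟪e, n⟫ + ‖n‖ ^ 2 / (2 * t) := by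
    have := sq_div_shift ht (-e) n
    rw [smul_neg, norm_neg, inner_neg_left] at this
    rw [this]; ring
  -- the displacement `n` is bounded
  have hn : ‖n‖ ^ 2 / μ ≤ 3 * μ / 2 := by
    have a1 : I t (S (t + γ) u) x ≤ S (t + γ) u (x + -(t • e)) + ‖-(t • e)‖ ^ 2 / (2 * t) :=
      I_le' (hu.S htγ0) ht x _
    have a2 : S (t + γ) u (x + -(t • e)) ≤ u x - V u z e x - t * ‖e‖ ^ 2
        + (t + γ) * ‖e‖ ^ 2 / 2 + μ + 2 * (‖h‖ ^ 2 / μ) := by
      refine S_le' fun m => ?_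
      obtain ⟨k, rfl⟩ : ∃ k, m = (t + γ) • e + k := ⟨m - (t + γ) • e, by abel⟩
      have b1 := pair_id htγ0 u z e (x + -(t • e)) k
      have b2 := hF.up (y := x + -(t • e) + ((t + γ) • e + k)) (σ + γ) (h + k)
        (by rw [hx, add_smul, add_smul]; abel) (by rw [abs_le]; constructor <;> linarith)
      have b3 := V_diff u z e x (-(t • e))
      rw [inner_neg_right, real_inner_smul_right, real_inner_self_eq_norm_sq] at b3
      have b4 := div_le_div_of_nonneg_right (norm_add_sq_le h k) hμ.le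
      have b5 : ‖k‖ ^ 2 / (μ / 4) ≤ ‖k‖ ^ 2 / (2 * (t + γ)) :=
        div_le_div_of_nonneg_left (by positivity) (by positivity) (by linarith)
      have e1 : ‖k‖ ^ 2 / (μ / 4) = 4 * (‖k‖ ^ 2 / μ) := by field_simp
      have e2 : (2 * ‖h‖ ^ 2 + 2 * ‖k‖ ^ 2) / μ
          = 2 * (‖h‖ ^ 2 / μ) + 2 * (‖k‖ ^ 2 / μ) := by ring
      have b6 : 0 ≤ ‖k‖ ^ 2 / μ := by positivity
      linarith
    have a3 := le_S' hu htγ0 o ((t + γ) • e + 0)
    have a4 := pair_id htγ0 u z e o 0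
    have a5 := hF.lo (y := o + ((t + γ) • e + 0)) (σ + γ) (h + n)
      (by rw [ho, hx, add_smul, add_smul]; abel) (by rw [abs_le]; constructor <;> linarith)
    have a6 := V_diff u z e x (-(t • e) + n)
    rw [inner_add_right, inner_neg_right, real_inner_smul_right, real_inner_self_eq_norm_sq,
      ← ho] at a6
    rw [norm_neg, norm_smul_sq] at a1
    have e0 : t ^ 2 * ‖e‖ ^ 2 / (2 * t) = t * ‖e‖ ^ 2 / 2 := by field_simp
    have b4 := div_le_div_of_nonneg_right (norm_add_sq_le h n) hμ.le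
    have b5 : ‖n‖ ^ 2 / (μ / 4) ≤ ‖n‖ ^ 2 / (2 * t) :=
      div_le_div_of_nonneg_left (by positivity) (by positivity) (by linarith)
    have e1 : ‖n‖ ^ 2 / (μ / 4) = 4 * (‖n‖ ^ 2 / μ) := by field_simp
    have e2 : (2 * ‖h‖ ^ 2 + 2 * ‖n‖ ^ 2) / μ
        = 2 * (‖h‖ ^ 2 / μ) + 2 * (‖n‖ ^ 2 / μ) := by ring
    simp only [norm_zero, ne_eq, OfNat.ofNat_ne_zero, not_false_eq_true, zero_pow, zero_div]
      at a4
    linarith
  have hlev : t * ‖e‖ ^ 2 / 2 - 9 * μ ≤ S t u o - u o := by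
    have a3 := le_S' hu ht o (t • e + 0)
    have a4 := pair_id ht u z e o 0
    have a5 := hF.lo (y := o + (t • e + 0)) σ (h + n)
      (by rw [ho, hx]; abel) (by linarith)
    have a6 := hF.up (y := o) (σ - t) (h + n)
      (by rw [ho, hx, sub_smul]; abel) (by rw [abs_le]; constructor <;> linarith)
    have b4 := div_le_div_of_nonneg_right (norm_add_sq_le h n) hμ.le
    have e2 : (2 * ‖h‖ ^ 2 + 2 * ‖n‖ ^ 2) / μ
        = 2 * (‖h‖ ^ 2 / μ) + 2 * (‖n‖ ^ 2 / μ) := by ring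
    simp only [norm_zero, ne_eq, OfNat.ofNat_ne_zero, not_false_eq_true, zero_pow, zero_div]
      at a4
    linarith
  have hso := Sub.zero hu (hs o (by rw [ho, add_sub_cancel_left]; exact hm)) ht
    (by linarith : t ≤ t + γ) htγ
  have hgain : S t u o + γ * (‖e‖ ^ 2 / 2 - 9 * μ / t) ≤ S (t + γ) u o := by
    have c1 := mul_le_mul_of_nonneg_left hlev hγ.le
    have c2 : t * (γ * (‖e‖ ^ 2 / 2 - 9 * μ / t)) = γ * (t * ‖e‖ ^ 2 / 2 - 9 * μ) := by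
      field_simp
    have c3 : t * (S t u o + γ * (‖e‖ ^ 2 / 2 - 9 * μ / t)) ≤ t * S (t + γ) u o := by
      linarith
    exact le_of_mul_le_mul_left c3 ht
  have hfin : I t (S t u) x ≤ S t u o + ‖-(t • e) + n‖ ^ 2 / (2 * t) := I_le' (hu.S ht) ht x _
  linarith

/-- from an affine approximation with a free time slope to flatness -/
theorem flat_of_pre {u : E → ℝ} {z b : E} {μ A κ : ℝ} (hμ : 0 < μ) (hA : 0 < A)
    (H : ∀ (σ : ℝ) (h : E), |σ| ≤ μ →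
      |u (z + σ • b + h) - u z - κ * σ - ⟪b, h⟫| ≤ A ^ 2 * μ + ‖h‖ ^ 2 / μ) :
    ∃ e, Flat u z (μ / 4) (4 * A) e := by
  have key : ∀ σ, 0 < σ → σ ≤ μ → σ * |κ - ‖b‖ ^ 2| ≤ A ^ 2 * μ + σ ^ 2 * ‖b‖ ^ 2 / μ := by
    intro σ hσ hσμ
    have := H σ (-(σ • b)) (by rwa [abs_of_pos hσ])
    rw [add_neg_cancel_right, norm_neg, norm_smul_sq, inner_neg_right, real_inner_smul_right,
      real_inner_self_eq_norm_sq] at this
    have e : u z - u z - κ * σ - -(σ * ‖b‖ ^ 2) = -(σ * (κ - ‖b‖ ^ 2)) := by ring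
    rwa [e, abs_neg, abs_mul, abs_of_pos hσ] at this
  have hq : ∀ h : E, ‖h‖ ^ 2 / (μ / 4) = 4 * (‖h‖ ^ 2 / μ) := fun h => by field_simp
  by_cases hb : ‖b‖ ≤ A
  · refine ⟨b, fun σ h hσ => ?_⟩
    have h1 := key μ hμ le_rfl
    have h2 : μ ^ 2 * ‖b‖ ^ 2 / μ = μ * ‖b‖ ^ 2 := by field_simp
    have h3 : ‖b‖ ^ 2 ≤ A ^ 2 := pow_le_pow_left₀ (norm_nonneg _) hb 2
    have h4 : |κ - ‖b‖ ^ 2| ≤ 2 * A ^ 2 := by
      have : μ * |κ - ‖b‖ ^ 2| ≤ μ * (2 * A ^ 2) := by nlinarith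
      exact le_of_mul_le_mul_left this hμ
    have h5 := H σ h (by linarith)
    have h6 : |σ * (κ - ‖b‖ ^ 2)| ≤ μ / 4 * (2 * A ^ 2) := by
      rw [abs_mul]; exact mul_le_mul hσ h4 (abs_nonneg _) (by positivity)
    have h7 : 0 ≤ ‖h‖ ^ 2 / μ := by positivity
    have h8 : 0 ≤ A ^ 2 * μ := by positivity
    rw [hq, abs_le] at *
    constructor <;> linarith [h5.1, h5.2, h6.1, h6.2]
  · push Not at hb
    have hb0 : 0 < ‖b‖ := hA.trans hb
    have h1 := key (A * μ / ‖b‖) (by positivity) (by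
      rw [div_le_iff₀ hb0]; nlinarith)
    have h2 : (A * μ / ‖b‖) ^ 2 * ‖b‖ ^ 2 / μ = A ^ 2 * μ := by field_simp
    have h4 : |κ - ‖b‖ ^ 2| ≤ 2 * A * ‖b‖ := by
      have e : A * μ / ‖b‖ * (2 * A * ‖b‖) = 2 * (A ^ 2 * μ) := by field_simp
      have : A * μ / ‖b‖ * |κ - ‖b‖ ^ 2| ≤ A * μ / ‖b‖ * (2 * A * ‖b‖) := by linarith
      exact le_of_mul_le_mul_left this (by positivity)
    set lam := κ / ‖b‖ ^ 2 with hlam
    have h5 : |lam - 1| * ‖b‖ ≤ 2 * A := by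
      have e : lam - 1 = (κ - ‖b‖ ^ 2) / ‖b‖ ^ 2 := by rw [hlam]; field_simp
      rw [e, abs_div, abs_of_pos (by positivity : 0 < ‖b‖ ^ 2)]
      rw [div_mul_eq_mul_div, div_le_iff₀ (by positivity)]
      nlinarith
    have h6 : |lam| ≤ 3 := by
      have : |lam - 1| ≤ 2 := by
        have : |lam - 1| * ‖b‖ ≤ 2 * ‖b‖ := by linarith
        exact le_of_mul_le_mul_right this hb0
      rw [abs_le] at *; constructor <;> linarith [this.1, this.2]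
    refine ⟨lam • b, fun σ h hσ => ?_⟩
    have h7 := H (σ * lam) h (by
      rw [abs_mul]
      have := mul_le_mul hσ h6 (abs_nonneg _) (by positivity)
      linarith)
    rw [smul_smul, norm_smul_sq, real_inner_smul_left]
    have e1 : σ * (lam ^ 2 * ‖b‖ ^ 2) = κ * (σ * lam) := by rw [hlam]; field_simp
    have h8 : |(lam - 1) * ⟪b, h⟫| ≤ 2 * A * ‖h‖ := by
      rw [abs_mul]
      have a1 := mul_le_mul_of_nonneg_left (abs_real_inner_le_norm b h) (abs_nonneg (lam - 1))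
      have a2 := mul_le_mul_of_nonneg_right h5 (norm_nonneg h)
      linarith
    have h9 : 2 * A * ‖h‖ ≤ A ^ 2 * μ + ‖h‖ ^ 2 / μ := by
      have e : A ^ 2 * μ + ‖h‖ ^ 2 / μ - 2 * A * ‖h‖ = (A * μ - ‖h‖) ^ 2 / μ := by
        field_simp; ring
      have : 0 ≤ (A * μ - ‖h‖) ^ 2 / μ := by positivity
      linarith
    have h10 : 0 ≤ ‖h‖ ^ 2 / μ := by positivity
    have h11 : 0 ≤ A ^ 2 * μ := by positivity
    rw [e1, hq]
    rw [abs_le] at *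
    constructor <;> linarith [h7.1, h7.2, h8.1, h8.2]

end Vale.Agent.P080
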