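import Vale.Agent.P080.TL

/-! Iteration of the improvement of flatness and the gradient estimate. -/

set_option linter.unusedSectionVars false

namespace Vale.Agent.P080

open scoped RealInnerProductSpace

section
variable {E : Type*} [NormedAddCommGroup E] [InnerProductSpace ℝ E]

theorem flat_zero {L μ : ℝ} {u : E → ℝ} (hu : Lip L u) (hμ : 0 < μ) (z : E) :
    Flat u z μ L 0 := by
  intro σ h _
  have h1 := hu.abs_le (z + h) z
  rw [add_sub_cancel_left] at h1
  have h2 : L ^ 2 * μ + ‖h‖ ^ 2 / μ - 2 * (L * ‖h‖) = (L * μ - ‖h‖) ^ 2 / μ := by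
    field_simp; ring
  have h3 : 0 ≤ (L * μ - ‖h‖) ^ 2 / μ := by positivity
  have h4 : 0 ≤ L * ‖h‖ := mul_nonneg hu.1 (norm_nonneg _)
  simp only [smul_zero, add_zero, norm_zero, inner_zero_left]
  norm_num
  linarith

/-- affine approximation at all dyadic scales -/
def Camp (u : E → ℝ) (z g : E) (L r Q : ℝ) : Prop :=
  ∀ (i : ℕ) (h : E), |u (z + h) - u z - ⟪g, h⟫|
    ≤ L / 2 ^ i * (r / (2 * Q) ^ i + ‖h‖ ^ 2 / (r / (2 * Q) ^ i) + (2 * Q + 6) * ‖h‖)

theorem camp_of_flat [CompleteSpace E] {L μ Q : ℝ} {u : E → ℝ} {z : E} (hL : 0 < L)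
    (hμ : 0 < μ) (hQ : 1 ≤ Q) (H : ∀ i : ℕ, ∃ e, Flat u z (μ / Q ^ i) (L / 2 ^ i) e) :
    ∃ g, Camp u z g L (L * μ) Q := by
  choose e he using H
  have hQ0 : 0 < Q := by linarith
  have key : ∀ (i : ℕ) (h : E), |u (z + h) - u z - ⟪e i, h⟫|
      ≤ L / 2 ^ i * (L * μ / (2 * Q) ^ i + ‖h‖ ^ 2 / (L * μ / (2 * Q) ^ i)) := by
    intro i h
    have := he i 0 h (by simp; positivity)
    simp only [zero_smul, add_zero, zero_mul, sub_zero] at this
    refine this.trans (le_of_eq ?_)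
    rw [mul_pow]; field_simp
  have step : ∀ i, dist (e i) (e (i + 1)) ≤ (2 * Q + 6) * L / 2 / 2 ^ i := by
    intro i
    rw [dist_eq_norm]
    set r : ℝ := L * μ / (2 * Q) ^ i with hr
    have hr0 : 0 < r := by positivity
    refine norm_le_of_inner hr0 (by positivity) fun h hh => ?_
    have a1 := (abs_le.1 (key i h)).1
    have a2 := (abs_le.1 (key (i + 1) h)).2
    have e1 : L * μ / (2 * Q) ^ (i + 1) = r / (2 * Q) := by rw [hr, pow_succ]; field_simp
    rw [← hr, hh] at a1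
    rw [e1, hh] at a2
    have e2 : L / 2 ^ i * (r + r ^ 2 / r) = 2 * (L / 2 ^ i * r) := by field_simp; ring
    have e3 : L / 2 ^ (i + 1) * (r / (2 * Q) + r ^ 2 / (r / (2 * Q)))
        = L / 2 ^ i * r / (4 * Q) + Q * (L / 2 ^ i * r) := by
      rw [pow_succ]; field_simp; ring
    have a3 : L / 2 ^ i * r / (4 * Q) ≤ L / 2 ^ i * r :=
      div_le_self (by positivity) (by linarith)
    have e4 : (2 * Q + 6) * L / 2 / 2 ^ i * r = (Q + 3) * (L / 2 ^ i * r) := by ring
    rw [inner_sub_left]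
    linarith
  obtain ⟨g, hg⟩ := cauchySeq_tendsto_of_complete (cauchySeq_of_le_geometric_two step)
  refine ⟨g, fun i h => ?_⟩
  have a1 := dist_le_of_le_geometric_two_of_tendsto step hg i
  rw [dist_eq_norm] at a1
  have a2 := (abs_real_inner_le_norm (e i - g) h).trans
    (mul_le_mul_of_nonneg_right a1 (norm_nonneg h))
  have a3 := key i h
  rw [inner_sub_left] at a2
  have e1 : (2 * Q + 6) * L / 2 ^ i * ‖h‖ = L / 2 ^ i * ((2 * Q + 6) * ‖h‖) := by ring
  rw [abs_le] at a2 a3 ⊢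
  constructor <;> linarith [a2.1, a2.2, a3.1, a3.2]

theorem Camp.at {L r Q s : ℝ} {u : E → ℝ} {z g : E} (hc : Camp u z g L r Q) (hL : 0 < L)
    (hr : 0 < r) (hQ : 1 ≤ Q) (i : ℕ) (h : E) (hs : 0 ≤ s) (hh : ‖h‖ ≤ s * (r / (2 * Q) ^ i)) :
    |u (z + h) - u z - ⟪g, h⟫|
      ≤ (1 + s ^ 2 + (2 * Q + 6) * s) * (L / 2 ^ i * (r / (2 * Q) ^ i)) := by
  have hQ0 : 0 < Q := by linarith
  refine (hc i h).trans ?_
  set ρ : ℝ := r / (2 * Q) ^ i with hρ
  have hρ0 : 0 < ρ := by positivity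
  have a1 : ‖h‖ ^ 2 / ρ ≤ s ^ 2 * ρ := by
    rw [div_le_iff₀ hρ0]
    have := pow_le_pow_left₀ (norm_nonneg _) hh 2
    linarith
  have a2 := mul_le_mul_of_nonneg_left hh (by positivity : 0 ≤ 2 * Q + 6)
  have a3 : L / 2 ^ i * (ρ + ‖h‖ ^ 2 / ρ + (2 * Q + 6) * ‖h‖)
      ≤ L / 2 ^ i * (ρ + s ^ 2 * ρ + (2 * Q + 6) * (s * ρ)) :=
    mul_le_mul_of_nonneg_left (by linarith) (by positivity)
  linarith

theorem Camp.norm_le {L r Q : ℝ} {u : E → ℝ} {z g : E} (hc : Camp u z g L r Q) (hu : Lip L u)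
    (hL : 0 < L) (hr : 0 < r) (hQ : 1 ≤ Q) : ‖g‖ ≤ (2 * Q + 9) * L := by
  refine norm_le_of_inner hr (by positivity) fun h hh => ?_
  have a1 := (abs_le.1 (hc.at hL hr hQ 0 h zero_le_one (by simp [hh]))).1
  have a2 := hu.2 (z + h) z
  rw [add_sub_cancel_left, hh] at a2
  simp only [pow_zero, div_one] at a1
  linarith

theorem Camp.close {L r Q : ℝ} {u : E → ℝ} {z g z' g' : E} (hc : Camp u z g L r Q)
    (hc' : Camp u z' g' L r Q) (hL : 0 < L) (hr : 0 < r) (hQ : 1 ≤ Q) (i : ℕ)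
    (hz : ‖z - z'‖ ≤ r / (2 * Q) ^ i) : ‖g - g'‖ ≤ (8 * Q + 33) * (L / 2 ^ i) := by
  have hQ0 : 0 < Q := by linarith
  refine norm_le_of_inner (s := r / (2 * Q) ^ i) (by positivity) (by positivity) fun h hh => ?_
  have a1 := (abs_le.1 (hc.at hL hr hQ i h zero_le_one (by simp [hh]))).1
  have a2 := (abs_le.1 (hc'.at hL hr hQ i (z - z' + h) zero_le_two
    ((norm_add_le _ _).trans (by linarith)))).2
  have a3 := (abs_le.1 (hc'.at hL hr hQ i (z - z') zero_le_one (by linarith))).1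
  have e1 : z' + (z - z' + h) = z + h := by abel
  have e2 : z' + (z - z') = z := by abel
  rw [e1, inner_add_right] at a2
  rw [e2] at a3
  rw [inner_sub_left]
  linarith

theorem exists_scale {s r q : ℝ} (hs : 0 < s) (hsr : s ≤ r) (hq : 1 < q) :
    ∃ i : ℕ, s ≤ r / q ^ i ∧ r / q ^ i ≤ q * s ∧
      1 / (2 : ℝ) ^ i ≤ 2 * (s / r) ^ Real.logb q 2 := by
  have hr : 0 < r := by linarith
  have hq0 : 0 < q := by linarith
  obtain ⟨i, h1, h2⟩ := exists_nat_pow_near_of_lt_one (x := s / r) (y := 1 / q)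
    (by positivity) (by rwa [div_le_one hr]) (by positivity) (by rwa [div_lt_one hq0])
  refine ⟨i, ?_, ?_, ?_⟩
  · rw [one_div_pow, div_le_div_iff₀ hr (by positivity)] at h2
    rw [le_div_iff₀ (by positivity)]; linarith
  · rw [one_div_pow, div_lt_div_iff₀ (by positivity) hr, pow_succ] at h1
    rw [div_le_iff₀ (by positivity)]; linarith
  · have a1 := Real.rpow_le_rpow (by positivity) h1.le (Real.logb_pos hq one_lt_two).le
    rw [← Real.rpow_pow_comm (by positivity), Real.div_rpow zero_le_one hq0.le, Real.one_rpow,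
      Real.rpow_logb hq0 hq.ne' two_pos, pow_succ, one_div_pow] at a1
    linarith

theorem Camp.hasGradientAt [CompleteSpace E] {L r Q : ℝ} {u : E → ℝ} {z g : E}
    (hc : Camp u z g L r Q) (hL : 0 < L) (hr : 0 < r) (hQ : 1 ≤ Q) : HasGradientAt u g z := by
  have hQ0 : 0 < Q := by linarith
  have hq : 1 < 2 * Q := by linarith
  rw [hasGradientAt_iff_isLittleO_nhds_zero, Asymptotics.isLittleO_iff]
  intro c hc0
  have hα := Real.logb_pos hq one_lt_two
  have hlim : Filter.Tendsto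
      (fun h : E => (2 * Q + 8) * (L * (2 * (‖h‖ / r) ^ Real.logb (2 * Q) 2) * (2 * Q)))
      (nhds 0) (nhds 0) := by
    have h1 : Continuous fun h : E =>
        (2 * Q + 8) * (L * (2 * (‖h‖ / r) ^ Real.logb (2 * Q) 2) * (2 * Q)) := by
      have : Continuous fun h : E => (‖h‖ / r) ^ Real.logb (2 * Q) 2 :=
        Continuous.rpow_const (by fun_prop) fun _ => Or.inr hα.le
      fun_prop
    have := h1.tendsto 0
    simpa [Real.zero_rpow hα.ne'] using this
  filter_upwards [hlim.eventually (ge_mem_nhds hc0), Metric.closedBall_mem_nhds (0 : E) hr]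
    with h h1 h2
  rw [mem_closedBall_zero_iff] at h2
  rcases (norm_nonneg h).eq_or_lt with h0 | h0
  · have : h = 0 := norm_eq_zero.1 h0.symm
    simp [this]
  obtain ⟨i, a1, a2, a3⟩ := exists_scale h0 h2 hq
  rw [Real.norm_eq_abs]
  refine (hc.at hL hr hQ i h zero_le_one (by linarith)).trans ?_
  have b1 : L / 2 ^ i ≤ L * (2 * (‖h‖ / r) ^ Real.logb (2 * Q) 2) := by
    rw [div_eq_mul_one_div]; exact mul_le_mul_of_nonneg_left a3 hL.le
  have b2 := mul_le_mul b1 a2 (by positivity) (by positivity)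
  have b3 := mul_le_mul_of_nonneg_left b2 (by positivity : 0 ≤ 2 * Q + 8)
  have b4 := mul_le_mul_of_nonneg_right h1 (norm_nonneg h)
  linarith

theorem Camp.holder {L r Q : ℝ} {u : E → ℝ} {z g z' g' : E} (hc : Camp u z g L r Q)
    (hc' : Camp u z' g' L r Q) (hu : Lip L u) (hL : 0 < L) (hr : 0 < r) (hQ : 1 ≤ Q) :
    ‖g - g'‖ ≤ (16 * Q + 66) * L * (‖z - z'‖ / r) ^ Real.logb (2 * Q) 2 := by
  have hQ0 : 0 < Q := by linarith
  have hq : 1 < 2 * Q := by linarith
  have hα := Real.logb_pos hq one_lt_two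
  rcases (norm_nonneg (z - z')).eq_or_lt with h0 | h0
  · rw [← h0, zero_div, Real.zero_rpow hα.ne', mul_zero]
    have hlim : Filter.Tendsto (fun i : ℕ => (8 * Q + 33) * (L / 2 ^ i)) Filter.atTop
        (nhds 0) := by
      have := (tendsto_pow_atTop_nhds_zero_of_lt_one (r := (1 / 2 : ℝ)) (by norm_num)
        (by norm_num)).const_mul ((8 * Q + 33) * L)
      rw [mul_zero] at this
      refine this.congr fun i => ?_
      rw [one_div_pow]; ring
    exact ge_of_tendsto' hlim fun i => hc.close hc' hL hr hQ i (by rw [← h0]; positivity)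
  rcases le_total ‖z - z'‖ r with h1 | h1
  · obtain ⟨i, a1, -, a3⟩ := exists_scale h0 h1 hq
    refine (hc.close hc' hL hr hQ i a1).trans ?_
    have b1 : L / 2 ^ i ≤ L * (2 * (‖z - z'‖ / r) ^ Real.logb (2 * Q) 2) := by
      rw [div_eq_mul_one_div]; exact mul_le_mul_of_nonneg_left a3 hL.le
    have := mul_le_mul_of_nonneg_left b1 (by positivity : 0 ≤ 8 * Q + 33)
    linarith
  · have a1 := hc.norm_le hu hL hr hQ
    have a2 := hc'.norm_le hu hL hr hQ
    have a3 := norm_sub_le g g'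
    have a4 : 1 ≤ (‖z - z'‖ / r) ^ Real.logb (2 * Q) 2 :=
      Real.one_le_rpow (by rwa [one_le_div hr]) hα.le
    have a5 := mul_le_mul_of_nonneg_left a4 (by positivity : 0 ≤ (16 * Q + 66) * L)
    have a6 : 0 < Q * L := by positivity
    linarith

end

theorem holder : ∃ α C : ℝ, 0 < α ∧ 0 < C ∧
    ∀ (E : Type) [NormedAddCommGroup E] [InnerProductSpace ℝ E] [FiniteDimensional ℝ E]
      [CompleteSpace E] (u : E → ℝ) (x : E) (L ρ μ : ℝ), Lip L u → 0 < L → 0 < μ →
      Good u x (ρ + 4 * L * μ) μ → ∃ g : E → E, ∀ z, ‖z - x‖ ≤ ρ →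
        HasGradientAt u (g z) z ∧ ‖g z‖ ≤ C * L ∧
        ∀ z', ‖z' - x‖ ≤ ρ → ‖g z - g z'‖ ≤ C * L * (‖z - z'‖ / (L * μ)) ^ α := by
  obtain ⟨Q, hQ, H⟩ := improve
  have hQ0 : 0 < Q := by linarith
  refine ⟨Real.logb (2 * Q) 2, 16 * Q + 66, Real.logb_pos (by linarith) one_lt_two,
    by positivity, fun E _ _ _ _ u x L ρ μ hu hL hμ hgood => ?_⟩
  have key : ∀ i : ℕ, ∀ z, ‖z - x‖ ≤ ρ + 4 * L * μ / 2 ^ i → ∀ ν, 0 < ν → ν ≤ μ / Q ^ i →
      ∃ e, Flat u z ν (L / 2 ^ i) e := by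
    intro i
    induction i with
    | zero => intro z _ ν hν _; exact ⟨0, by simpa using flat_zero hu hν z⟩
    | succ i ih =>
      intro z hz ν hν hνμ
      set A : ℝ := L / 2 ^ i with hA
      have hA0 : 0 < A := by positivity
      have h2i : (1 : ℝ) ≤ 2 ^ i := one_le_pow₀ (by norm_num)
      have hAL : A ≤ L := div_le_self hL.le h2i
      have h1 : ν * Q ≤ μ / Q ^ i := by
        rw [pow_succ, ← div_div, le_div_iff₀ hQ0] at hνμ; exact hνμ
      have h2 : μ / Q ^ i ≤ μ / 2 ^ i :=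
        div_le_div_of_nonneg_left hμ.le (by positivity) (pow_le_pow_left₀ (by norm_num) hQ i)
      have h3 : μ / 2 ^ i ≤ μ := div_le_self hμ.le h2i
      have h4 : A * ν * (Q * (L / A + 1)) ≤ 2 * L * (μ / 2 ^ i) := by
        have e : A * ν * (Q * (L / A + 1)) = (L + A) * (ν * Q) := by field_simp
        rw [e]
        exact mul_le_mul (by linarith) (by linarith) (by positivity) (by positivity)
      have e1 : 4 * L * μ / 2 ^ (i + 1) = 2 * L * (μ / 2 ^ i) := by rw [pow_succ]; field_simp; ring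
      have e2 : 4 * L * μ / 2 ^ i = 4 * L * (μ / 2 ^ i) := by ring
      have h5 := mul_le_mul_of_nonneg_left h3 (by positivity : 0 ≤ 4 * L)
      obtain ⟨e, he⟩ := H E (resc u z A ν) 0 (L / A) (hu.resc z hA0 hν)
        (hyp_resc hu hA0 hν (hgood.mono (by linarith) (by linarith)) (fun w hw ν' a1 a2 => by
          refine ih w ?_ ν' a1 (by linarith)
          have e0 : w - x = (w - z) + (z - x) := by abel
          rw [e0]
          exact (norm_add_le _ _).trans (by linarith)))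
      rw [flat_resc_iff hA0 hν one_pos] at he
      refine ⟨A • e, ?_⟩
      have e3 : L / 2 ^ (i + 1) = A * (1 / 2) := by rw [hA, pow_succ]; field_simp
      rw [e3]
      simpa using he
  have hc : ∀ z, ∃ g, ‖z - x‖ ≤ ρ → Camp u z g L (L * μ) Q := by
    intro z
    by_cases hz : ‖z - x‖ ≤ ρ
    · obtain ⟨g, hg⟩ := camp_of_flat (u := u) (z := z) hL hμ (by linarith : 1 ≤ Q) fun i =>
        key i z (by have : 0 ≤ 4 * L * μ / 2 ^ i := by positivity
                    linarith) _ (by positivity) le_rfl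
      exact ⟨g, fun _ => hg⟩
    · exact ⟨0, fun h => absurd h hz⟩
  choose g hg using hc
  have hr : 0 < L * μ := by positivity
  refine ⟨g, fun z hz => ⟨(hg z hz).hasGradientAt hL hr (by linarith), ?_,
    fun z' hz' => (hg z hz).holder (hg z' hz') hu hL hr (by linarith)⟩⟩
  refine ((hg z hz).norm_le hu hL hr (by linarith)).trans ?_
  exact mul_le_mul_of_nonneg_right (by linarith) hL.le

end Vale.Agent.P080
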