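import Vale.Agent.P080.Scale

/-! Local monotonicity of the gap. -/

set_option linter.unusedSectionVars false

namespace Vale.Agent.P080

open scoped RealInnerProductSpace

variable {E : Type*} [NormedAddCommGroup E] [InnerProductSpace ℝ E]

theorem inner_le_split {γ : ℝ} (hγ : 0 < γ) (b n : E) :
    ⟪b, n⟫ ≤ ‖n‖ ^ 2 / (8 * γ) + 2 * γ * ‖b‖ ^ 2 := by
  have h1 := real_inner_le_norm b n
  have h2 : ‖n‖ ^ 2 / (8 * γ) + 2 * γ * ‖b‖ ^ 2 - ‖b‖ * ‖n‖
      = (‖n‖ - 4 * γ * ‖b‖) ^ 2 / (8 * γ) := by field_simp; ring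
  have h3 : 0 ≤ (‖n‖ - 4 * γ * ‖b‖) ^ 2 / (8 * γ) := by positivity
  linarith

theorem Flat.far {u : E → ℝ} {z e x h n : E} {L σ s γ ϱ : ℝ} (hu : Lip L u)
    (hF : Flat u z 1 1 e) (hx : x = z + σ • e + h) (hσ : |σ| ≤ 1 / 2) (hh : ‖h‖ ≤ 1)
    (hs : 0 < s) (hs' : s ≤ 1 / 4) (hγ : 0 < γ) (hγ' : γ ≤ 1 / 64) (hϱ0 : 0 ≤ ϱ)
    (hϱ : 28 * γ ≤ ϱ ^ 2) (hn : ϱ ≤ ‖n‖) :
    C s u (x + (γ • e + n)) - u x - ‖γ • e + n‖ ^ 2 / (2 * γ) ≤ γ * ‖e‖ ^ 2 / 2 := by
  have hσ' := abs_le.1 hσ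
  have h1 := hF.C_crude hu (y := x + (γ • e + n)) (σ := σ + γ) (h := h + n)
    (by rw [hx, add_smul]; abel) (by rw [abs_le]; constructor <;> linarith) hs hs'
  have h2 := pair_id hγ u z e x n
  have h3 := hF.lo σ h hx (by linarith)
  have h4 := norm_add_sq_le h n
  have h5 : ‖h‖ ^ 2 ≤ 1 := by nlinarith [norm_nonneg h]
  have h6 : ϱ ^ 2 ≤ ‖n‖ ^ 2 := pow_le_pow_left₀ hϱ0 hn 2
  have h7 : 7 + 4 * ‖n‖ ^ 2 ≤ ‖n‖ ^ 2 / (2 * γ) := by
    rw [le_div_iff₀ (by positivity)]; nlinarith [sq_nonneg ‖n‖]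
  simp only [one_pow, mul_one, div_one] at h3
  linarith

theorem Flat.PB {u : E → ℝ} {z e x h : E} {L σ s γ ϱ G : ℝ} (hu : Lip L u)
    (hF : Flat u z 1 1 e) (hx : x = z + σ • e + h) (hσ : |σ| ≤ 1 / 2) (hh : ‖h‖ ≤ 1)
    (hs : 0 < s) (hs' : s ≤ 1 / 4) (hγ : 0 < γ) (hγ' : γ ≤ 1 / 64) (hϱ0 : 0 ≤ ϱ)
    (hϱ : 28 * γ ≤ ϱ ^ 2) (hG : 0 ≤ G) (hsub : Sub u x (1 / 4))
    (H : ∀ n, ‖n‖ ≤ ϱ → C s u (x + (γ • e + n)) ≤ u (x + (γ • e + n)) + G) :
    S γ (C s u) x ≤ u x + G + γ * (‖e‖ ^ 2 / 2 + 20) := by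
  refine S_le' fun m => ?_
  obtain ⟨n, rfl⟩ : ∃ n, m = γ • e + n := ⟨m - γ • e, by abel⟩
  rcases le_total ϱ ‖n‖ with hn | hn
  · have := hF.far hu hx hσ hh hs hs' hγ hγ' hϱ0 hϱ hn
    nlinarith
  · have h1 := H n hn
    have h2 := hF.UL hu one_pos hx hσ hh hsub hγ (by linarith)
    have h3 := le_S' hu hγ x (γ • e + n)
    linarith

theorem Flat.vel [FiniteDimensional ℝ E] {u : E → ℝ} {z e x h n : E} {L σ γ T G : ℝ}
    (hu : Lip L u) (hF : Flat u z 1 1 e) (hx : x = z + σ • e + h) (hσ : |σ| ≤ 1 / 2)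
    (hh : ‖h‖ ≤ 3 / 4) (hγ : 0 < γ) (hγT : γ ≤ T / 4) (hT : T ≤ 1 / 16) (hG8 : G ≤ 8)
    (hsub : Sub u x (1 / 4)) (H0 : C T u (x + γ • e) ≤ u (x + γ • e) + G)
    (H : -G + γ * ‖e‖ ^ 2 / 2 ≤ u (x + (γ • e + n)) - u x - ‖γ • e + n‖ ^ 2 / (2 * γ)) :
    ‖n‖ ^ 2 / γ ^ 2 ≤ 8 * G / γ + 80 + 384 / T := by
  have hT0 : 0 < T := by linarith
  have hσ' := abs_le.1 hσ
  obtain ⟨b', hb'⟩ := exists_parab hu hT0 (x + γ • e)
  obtain ⟨b, rfl⟩ : ∃ b, b' = e + b := ⟨b' - e, by abel⟩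
  have hV : ∀ k, V u z e (x + γ • e + k) ≤ V u z e (x + γ • e) + G + ⟪b, k⟫
      + ‖k‖ ^ 2 / (2 * T) := by
    intro k
    have h1 := hb' k
    have h2 := V_diff u z e (x + γ • e) k
    rw [inner_add_left] at h1
    linarith
  have hh2 : ‖h‖ ^ 2 ≤ 9 / 16 := by nlinarith [norm_nonneg h]
  have hb : T * ‖b‖ ^ 2 ≤ 48 := by
    have h1 := hV (-(T • b))
    have h2 := hF.lo (y := x + γ • e + -(T • b)) (σ + γ) (h + -(T • b))
      (by rw [hx, add_smul]; abel) (by rw [abs_le]; constructor <;> linarith)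
    have h3 := hF.up (y := x + γ • e) (σ + γ) h
      (by rw [hx, add_smul]; abel) (by rw [abs_le]; constructor <;> linarith)
    have h4 := norm_add_sq_le h (-(T • b))
    rw [norm_neg, norm_smul_sq] at h1 h4
    rw [inner_neg_right, real_inner_smul_right, real_inner_self_eq_norm_sq] at h1
    have e1 : T ^ 2 * ‖b‖ ^ 2 / (2 * T) = T * ‖b‖ ^ 2 / 2 := by field_simp
    rw [e1] at h1
    simp only [one_pow, mul_one, div_one] at h2 h3
    have h5 : T * (T * ‖b‖ ^ 2) ≤ 1 / 16 * (T * ‖b‖ ^ 2) :=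
      mul_le_mul_of_nonneg_right hT (by positivity)
    nlinarith
  have h1 := hF.UL hu one_pos hx hσ (by linarith) hsub hγ (by linarith)
  have h2 := le_S' hu hγ x (γ • e + 0)
  have h3 := pair_id hγ u z e x 0
  have h4 := pair_id hγ u z e x n
  have h5 := hV n
  simp only [norm_zero, ne_eq, OfNat.ofNat_ne_zero, not_false_eq_true, zero_pow, zero_div,
    add_zero] at h2 h3
  rw [← add_assoc] at h4 H
  have h6 := inner_le_split hγ b n
  have h7 : ‖n‖ ^ 2 / (2 * T) ≤ ‖n‖ ^ 2 / (8 * γ) :=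
    div_le_div_of_nonneg_left (by positivity) (by positivity) (by linarith)
  have e1 : ‖n‖ ^ 2 / (2 * γ) = 4 * (‖n‖ ^ 2 / (8 * γ)) := by field_simp; ring
  have h8 : 2 * (‖n‖ ^ 2 / (8 * γ)) ≤ 2 * G + 20 * γ + 2 * γ * ‖b‖ ^ 2 := by linarith
  have h9 : ‖b‖ ^ 2 ≤ 48 / T := by rw [le_div_iff₀ hT0]; linarith
  have h10 := mul_le_mul_of_nonneg_left h9 (by positivity : 0 ≤ 2 * γ)
  have e2 : ‖n‖ ^ 2 / γ ^ 2 = (4 / γ) * (2 * (‖n‖ ^ 2 / (8 * γ))) := by field_simp; ring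
  have e3 : 8 * G / γ + 80 + 384 / T = (4 / γ) * (2 * G + 20 * γ + 2 * γ * (48 / T)) := by
    field_simp; ring
  rw [e2, e3]
  exact mul_le_mul_of_nonneg_left (by linarith) (by positivity)

set_option maxHeartbeats 800000 in
theorem LM1 [FiniteDimensional ℝ E] {u : E → ℝ} {z e xs h : E} {L σ t T ϱ γ G : ℝ}
    (hu : Lip L u) (hF : Flat u z 1 1 e) (hgood : Good u z (2 * (L + 1)) (1 / 4))
    (hx : xs = z + σ • e + h) (hσ : |σ| ≤ 1 / 4) (hh : ‖h‖ ≤ 1 / 2)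
    (ht : 0 < t) (htT : t ≤ T) (hT : T ≤ 1 / 16) (hϱ0 : 0 < ϱ) (hϱ : ϱ ≤ 1 / 4)
    (hγ : 0 < γ) (hγT : γ ≤ T / 4) (hγϱ : 28 * γ ≤ ϱ ^ 2) (hG : 0 < G) (hG8 : G ≤ 8)
    (H : ∀ (s : ℝ) (n : E), |s| ≤ T → ‖n‖ ≤ 2 * ϱ →
      C T u (xs + s • e + n) ≤ u (xs + s • e + n) + G) :
    C t u xs ≤ u xs + G * t / T + 19 * γ / t
      + 2 * G * T ^ 2 / ϱ ^ 2 * (21 * G / γ + 800 / T) := by
  have hL := hu.1
  have hT0 : 0 < T := by linarith
  have hσ' := abs_le.1 hσ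
  have he := hF.slope_le hu one_pos
  have hGT : G * γ / T ≤ 8 * γ / t := by
    rw [div_le_div_iff₀ hT0 ht]
    have : G * t ≤ 8 * T := by nlinarith
    nlinarith
  have hγt : 0 < γ / t := by positivity
  have e8 : 8 * γ / t = 8 * (γ / t) := by ring
  have e19 : 19 * γ / t = 19 * (γ / t) := by ring
  set K : ℝ := 2 * G / ϱ ^ 2 * (21 * G / γ + 800 / T) with hK
  have hK0 : 0 < K := by positivity
  have eK : 2 * G * T ^ 2 / ϱ ^ 2 * (21 * G / γ + 800 / T) = K * T ^ 2 := by rw [hK]; ring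
  rw [eK]
  have hKT : 0 < K * T ^ 2 := by positivity
  by_cases hcase : T ≤ t + γ
  · have h1 := C_mono_t hu ht htT xs
    have h2 := H 0 0 (by simpa using hT0.le) (by simpa using hϱ0.le)
    simp only [zero_smul, add_zero] at h2
    have h3 : G ≤ G * t / T + G * γ / T := by
      rw [← add_div, le_div_iff₀ hT0]; nlinarith
    linarith
  push Not at hcase
  set c : E := xs - (t + γ) • e with hc
  set t₁ : ℝ := min t (γ / (L ^ 2 + 1)) with ht₁
  have ht₁0 : 0 < t₁ := by positivity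
  have ht₁t : t₁ ≤ t := min_le_left _ _
  have ht₁γ : L ^ 2 * t₁ / 2 ≤ γ := by
    have : t₁ ≤ γ / (L ^ 2 + 1) := min_le_right _ _
    rw [le_div_iff₀ (by positivity)] at this
    nlinarith
  set ρ : ℝ := ϱ ^ 2 / (2 * G) with hρ
  have hρ0 : 0 < ρ := by positivity
  have hpos : ∀ (s : ℝ) (k : E), c + s • e + k = z + (σ + s - t - γ) • e + (h + k) := by
    intro s k; rw [hc, hx]; module
  have hpos2 : ∀ (s : ℝ) (k n : E),
      c + s • e + k + (γ • e + n) = xs + (s - t) • e + (k + n) := by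
    intro s k n; rw [hc]; module
  have hσs : ∀ s, t₁ ≤ s → s ≤ T → |σ + s - t - γ| ≤ 1 / 2 := fun s h1 h2 => by
    rw [abs_le]; constructor <;> linarith
  have hdist : ∀ s, t₁ ≤ s → s ≤ T → ‖c + s • e - z‖ ≤ 5 / 16 * (L + 2) + 1 / 2 := by
    intro s h1 h2
    have e0 : c + s • e - z = (σ + s - t - γ) • e + h := by rw [hc, hx]; module
    rw [e0]
    refine (norm_add_le _ _).trans ?_
    rw [norm_smul, Real.norm_eq_abs]
    have : |σ + s - t - γ| ≤ 5 / 16 := by rw [abs_le]; constructor <;> linarith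
    have := mul_le_mul this he (norm_nonneg _) (by norm_num)
    linarith
  have hLγ : L * γ ≤ L * (1 / 64) := mul_le_mul_of_nonneg_left (by linarith) hL
  have hLT : L * T ≤ L * (1 / 16) := mul_le_mul_of_nonneg_left hT hL
  have hsubx : ∀ s k, t₁ ≤ s → s ≤ T → ‖k‖ ≤ ϱ → Sub u (c + s • e + k) (1 / 4) := by
    intro s k h1 h2 hk
    refine (hgood _ ?_).1
    have e0 : c + s • e + k - z = (c + s • e - z) + k := by abel
    rw [e0]
    have := norm_add_le (c + s • e - z) k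
    have := hdist s h1 h2
    linarith
  have hhk : ∀ k : E, ‖k‖ ≤ ϱ → ‖h + k‖ ≤ 3 / 4 := fun k hk => by
    have := norm_add_le h k; linarith
  have hgap : ∀ s k n, t₁ ≤ s → s ≤ T → ‖k‖ ≤ ϱ → ‖n‖ ≤ ϱ →
      C T u (c + s • e + k + (γ • e + n)) ≤ u (c + s • e + k + (γ • e + n)) + G := by
    intro s k n h1 h2 hk hn
    rw [hpos2]
    exact H _ _ (by rw [abs_le]; constructor <;> linarith)
      ((norm_add_le _ _).trans (by linarith))
  have hPB : ∀ s k, t₁ ≤ s → s ≤ T → ‖k‖ ≤ ϱ →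
      S γ (C s u) (c + s • e + k) ≤ u (c + s • e + k) + G + γ * (‖e‖ ^ 2 / 2 + 20) := by
    intro s k h1 h2 hk
    have hs0 : 0 < s := by linarith
    refine hF.PB hu (hpos s k) (hσs s h1 h2) (by linarith [hhk k hk]) hs0 (by linarith) hγ
      (by linarith) hϱ0.le hγϱ hG.le (hsubx s k h1 h2 hk) fun n hn => ?_
    exact (C_mono_t hu hs0 h2 _).trans (hgap s k n h1 h2 hk hn)
  have hζ : ∀ s, 0 ≤ s → s ≤ T → γ * (‖e‖ ^ 2 / 2 + 21)
      ≤ γ * (‖e‖ ^ 2 / 2 + 21) + (G / T + K * T) * s - K * s ^ 2 := by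
    intro s h1 h2
    have a1 : 0 ≤ G / T * s := by positivity
    have a2 : 0 ≤ K * (s * (T - s)) := by
      have : 0 ≤ T - s := by linarith
      positivity
    linarith
  have main := loc_conv (L := L) (γ := γ) (ρ := ρ) (K := K) (α := γ * (‖e‖ ^ 2 / 2 + 21))
    (β := G / T + K * T) (t₁ := t₁) (t₂ := T) (ϱ := ϱ) (T := 1 / 4) (c := c) (e := e)
    hu hγ hρ0 ht₁0 (by norm_num) ?_ ?_ ?_ ?_ (t + γ) 0 (by linarith) hcase.le
    (by simpa using hϱ0.le)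
  · have e0 : c + (t + γ) • e + 0 = xs := by rw [hc]; abel
    rw [e0] at main
    have hkb := hF.KB hu one_pos hx (by linarith) hh ht hγ (by linarith) (fun o ho => by
      refine (hgood o ?_).1.mono (by norm_num)
      have e1 : o - z = (o - xs) + (σ • e + h) := by rw [hx]; abel
      rw [e1]
      have a1 := norm_add_le (o - xs) (σ • e + h)
      have a2 := norm_add_le (σ • e) h
      rw [norm_smul, Real.norm_eq_abs] at a2
      have a3 := mul_le_mul hσ he (norm_nonneg _) (by norm_num)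
      have a4 : L * t ≤ L * (1 / 16) := mul_le_mul_of_nonneg_left (by linarith) hL
      linarith)
    have a1 : γ * 21 ≤ 2 * (γ / t) := by
      rw [← mul_div_assoc, le_div_iff₀ ht]
      have := mul_le_mul_of_nonneg_left (htT.trans hT) hγ.le
      linarith
    have a2 : K * ((t + γ) * (T - (t + γ))) ≤ K * T ^ 2 := by
      refine mul_le_mul_of_nonneg_left ?_ hK0.le
      rw [sq]
      exact mul_le_mul hcase.le (by linarith) (by linarith) hT0.le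
    have e1 : γ * (‖e‖ ^ 2 / 2 - 9 * 1 / t) = γ * (‖e‖ ^ 2 / 2) - 9 * (γ / t) := by ring
    have e2 : G / T * (t + γ) = G * t / T + G * γ / T := by ring
    simp only [norm_zero, ne_eq, OfNat.ofNat_ne_zero, not_false_eq_true, zero_pow, zero_div]
      at main
    linarith
  · intro z' s h1 h2 hz'
    refine hgood z' ?_
    have e0 : z' - z = (z' - (c + s • e)) + (c + s • e - z) := by abel
    rw [e0]
    have := norm_add_le (z' - (c + s • e)) (c + s • e - z)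
    have := hdist s h1 h2
    linarith
  · intro s k hk hs
    have hk2 : 0 ≤ ‖k‖ ^ 2 / (2 * ρ) := by positivity
    rcases hs with rfl | rfl
    · have a1 := hF.PB hu (hpos t₁ k) (hσs t₁ le_rfl (by linarith)) (by linarith [hhk k hk])
        ht₁0 (by linarith) hγ (by linarith) hϱ0.le hγϱ hγ.le
        (hsubx t₁ k le_rfl (by linarith) hk)
        (fun n _ => (C_le_self hu ht₁0 _).trans (by linarith))
      have a2 := hζ t₁ ht₁0.le (by linarith)
      linarith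
    · have a1 := hPB s k (by linarith) le_rfl hk
      have e1 : (G / s + K * s) * s - K * s ^ 2 = G := by field_simp; ring
      linarith
  · intro s k h1 h2 hk
    have a1 := hPB s k h1 h2 hk.le
    have a2 := hζ s (by linarith) h2
    have e1 : ‖k‖ ^ 2 / (2 * ρ) = G := by rw [hk, hρ]; field_simp
    linarith
  · intro s k d h1 h2 hk hd hval
    obtain ⟨n, rfl⟩ : ∃ n, d = γ • e + n := ⟨d - γ • e, by abel⟩
    have hs0 : 0 < s := by linarith
    have a2 := hζ s hs0.le h2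
    have hk2 : 0 ≤ ‖k‖ ^ 2 / (2 * ρ) := by positivity
    have hn : ‖n‖ ≤ ϱ := by
      by_contra hn
      push Not at hn
      have := hF.far hu (hpos s k) (hσs s h1 h2) (by linarith [hhk k hk]) hs0 (by linarith) hγ
        (by linarith) hϱ0.le hγϱ hn.le
      linarith
    have a3 := (C_mono_t hu hs0 h2 _).trans (hgap s k n h1 h2 hk hn)
    have a4 := hgap s k 0 h1 h2 hk (by simpa using hϱ0.le)
    rw [add_zero] at a4
    have hv := hF.vel hu (hpos s k) (hσs s h1 h2) (hhk k hk) hγ hγT hT hG8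
      (hsubx s k h1 h2 hk) a4 (n := n) (by linarith)
    have e0 : (1 / γ) • (γ • e + n) - (1 / ρ) • k - e = (1 / γ) • n + -((1 / ρ) • k) := by
      rw [smul_add, smul_smul, one_div_mul_cancel hγ.ne', one_smul]; abel
    have b1 := norm_add_sq_le ((1 / γ) • n) (-((1 / ρ) • k))
    rw [norm_neg, norm_smul_sq, norm_smul_sq] at b1
    have hk3 : ‖k‖ ^ 2 ≤ ϱ ^ 2 := pow_le_pow_left₀ (norm_nonneg _) hk 2
    have b2 : (1 / ρ) ^ 2 * ‖k‖ ^ 2 ≤ 3 / 2 * (G / γ) := by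
      have c1 : (1 / ρ) ^ 2 * ‖k‖ ^ 2 ≤ (1 / ρ) ^ 2 * ϱ ^ 2 :=
        mul_le_mul_of_nonneg_left hk3 (by positivity)
      have c2 : (1 / ρ) ^ 2 * ϱ ^ 2 = 4 * G ^ 2 / ϱ ^ 2 := by rw [hρ]; field_simp; ring
      have c3 : 4 * G ^ 2 / ϱ ^ 2 ≤ 3 / 2 * (G / γ) := by
        rw [← mul_div_assoc, div_le_div_iff₀ (by positivity) hγ]
        have : G * γ * G ≤ G * γ * 8 := mul_le_mul_of_nonneg_left hG8 (by positivity)
        have : G * (28 * γ) ≤ G * ϱ ^ 2 := mul_le_mul_of_nonneg_left hγϱ hG.le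
        have : 0 < G * γ := by positivity
        linarith
      linarith
    have b3 : ‖k‖ ^ 2 / (2 * γ * ρ ^ 2) ≤ 2 * G / ϱ ^ 2 * (G / γ) := by
      have c1 : ‖k‖ ^ 2 / (2 * γ * ρ ^ 2) ≤ ϱ ^ 2 / (2 * γ * ρ ^ 2) :=
        div_le_div_of_nonneg_right hk3 (by positivity)
      have c2 : ϱ ^ 2 / (2 * γ * ρ ^ 2) = 2 * G / ϱ ^ 2 * (G / γ) := by rw [hρ]; field_simp
      linarith
    have b4 : (160 : ℝ) ≤ 10 * (1 / T) := by
      rw [mul_one_div, le_div_iff₀ hT0]; linarith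
    have e1 : (1 / γ) ^ 2 * ‖n‖ ^ 2 = ‖n‖ ^ 2 / γ ^ 2 := by ring
    have e2 : 8 * G / γ = 8 * (G / γ) := by ring
    have e3 : 384 / T = 384 * (1 / T) := by ring
    have b5 : ‖(1 / γ) • n + -((1 / ρ) • k)‖ ^ 2 ≤ 19 * (G / γ) + 778 * (1 / T) := by linarith
    have b6 : ‖(1 / γ) • n + -((1 / ρ) • k)‖ ^ 2 / ρ
        ≤ 2 * G / ϱ ^ 2 * (19 * (G / γ) + 778 * (1 / T)) := by
      have : 2 * G / ϱ ^ 2 = 1 / ρ := by rw [hρ]; field_simp
      rw [this, div_eq_inv_mul, ← one_div]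
      exact mul_le_mul_of_nonneg_left b5 (by positivity)
    have b7 : 2 * G / ϱ ^ 2 * (20 * (G / γ) + 778 * (1 / T)) < K := by
      rw [hK]
      refine mul_lt_mul_of_pos_left ?_ (by positivity)
      have : 0 < G / γ := by positivity
      have : 0 < 1 / T := by positivity
      have e4 : 21 * G / γ = 21 * (G / γ) := by ring
      have e5 : 800 / T = 800 * (1 / T) := by ring
      linarith
    rw [e0]
    linarith

end Vale.Agent.P080
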