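import Vale.Agent.P080.Flat

/-! Anisotropic rescaling. -/

set_option linter.unusedSectionVars false

namespace Vale.Agent.P080

open scoped RealInnerProductSpace

variable {E : Type*} [NormedAddCommGroup E] [InnerProductSpace ℝ E]

/-- both convexity properties on a ball -/
def Good (u : E → ℝ) (x : E) (R T : ℝ) : Prop :=
  ∀ z, ‖z - x‖ ≤ R → Sub u z T ∧ Sub (fun y => - u y) z T

theorem Good.mono {u : E → ℝ} {x x' : E} {R T R' T' : ℝ} (h : Good u x R T)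
    (hR : ‖x' - x‖ + R' ≤ R) (hT : T' ≤ T) : Good u x' R' T' := fun z hz => by
  have e : z - x = (z - x') + (x' - x) := by abel
  have := h z (by rw [e]; exact (norm_add_le _ _).trans (by linarith))
  exact ⟨this.1.mono hT, this.2.mono hT⟩

theorem Good.neg {u : E → ℝ} {x : E} {R T : ℝ} (h : Good u x R T) :
    Good (fun y => - u y) x R T := fun z hz => by
  have := h z hz
  exact ⟨this.2, by simpa using this.1⟩

/-- the rescaled function -/
noncomputable def resc (u : E → ℝ) (x0 : E) (A μ : ℝ) : E → ℝ :=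
  fun y => u (x0 + (A * μ) • y) / (A ^ 2 * μ)

theorem Lip.resc {L A μ : ℝ} {u : E → ℝ} (hu : Lip L u) (x0 : E) (hA : 0 < A) (hμ : 0 < μ) :
    Lip (L / A) (resc u x0 A μ) := by
  have hL := hu.1
  refine ⟨by positivity, fun x y => ?_⟩
  have h1 := hu.2 (x0 + (A * μ) • x) (x0 + (A * μ) • y)
  rw [add_sub_add_left_eq_sub, ← smul_sub, norm_smul, Real.norm_of_nonneg (by positivity)] at h1
  unfold P080.resc
  rw [← sub_div, div_le_iff₀ (by positivity)]
  have : L / A * ‖x - y‖ * (A ^ 2 * μ) = L * (A * μ * ‖x - y‖) := by field_simp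
  linarith

theorem S_resc {L A μ t : ℝ} {u : E → ℝ} (hu : Lip L u) (x0 : E) (hA : 0 < A) (hμ : 0 < μ)
    (ht : 0 < t) : S t (resc u x0 A μ) = resc (S (μ * t) u) x0 A μ := by
  funext y
  have hd : 0 < A ^ 2 * μ := by positivity
  have key : ∀ m : E, resc u x0 A μ (y + m) - ‖m‖ ^ 2 / (2 * t)
      = (u (x0 + (A * μ) • y + (A * μ) • m) - ‖(A * μ) • m‖ ^ 2 / (2 * (μ * t)))
        / (A ^ 2 * μ) := by
    intro m
    unfold P080.resc
    rw [norm_smul_sq, smul_add, add_assoc]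
    field_simp
  apply le_antisymm
  · refine S_le' fun m => ?_
    rw [key]
    exact div_le_div_of_nonneg_right (le_S' hu (mul_pos hμ ht) _ _) hd.le
  · unfold P080.resc
    rw [div_le_iff₀ hd]
    refine S_le' fun m => ?_
    have h1 := le_S' (hu.resc x0 hA hμ) ht y ((1 / (A * μ)) • m)
    rw [key, smul_smul, mul_one_div_cancel (by positivity), one_smul, div_le_iff₀ hd] at h1
    exact h1

theorem resc_neg (u : E → ℝ) (x0 : E) (A μ : ℝ) :
    (fun y => - resc u x0 A μ y) = resc (fun y => - u y) x0 A μ := by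
  funext y; unfold P080.resc; ring

theorem I_resc {L A μ t : ℝ} {u : E → ℝ} (hu : Lip L u) (x0 : E) (hA : 0 < A) (hμ : 0 < μ)
    (ht : 0 < t) : I t (resc u x0 A μ) = resc (I (μ * t) u) x0 A μ := by
  funext y
  unfold I
  rw [resc_neg, S_resc hu.neg x0 hA hμ ht]
  unfold P080.resc; ring

theorem C_resc {L A μ t : ℝ} {u : E → ℝ} (hu : Lip L u) (x0 : E) (hA : 0 < A) (hμ : 0 < μ)
    (ht : 0 < t) : C t (resc u x0 A μ) = resc (C (μ * t) u) x0 A μ := by
  unfold C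
  rw [S_resc hu x0 hA hμ ht, I_resc (hu.S (mul_pos hμ ht)) x0 hA hμ ht]

theorem Sub.resc {L A μ T : ℝ} {u : E → ℝ} (hu : Lip L u) {x0 y : E} (hA : 0 < A) (hμ : 0 < μ)
    (h : Sub u (x0 + (A * μ) • y) (μ * T)) : Sub (resc u x0 A μ) y T := by
  intro t₁ t t₂ h1 h2 h3 h4
  have ht : 0 < t := lt_of_lt_of_le h1 h2
  have ht2 : 0 < t₂ := lt_of_lt_of_le ht h3
  rw [S_resc hu x0 hA hμ h1, S_resc hu x0 hA hμ ht, S_resc hu x0 hA hμ ht2]
  have h5 := h (μ * t₁) (μ * t) (μ * t₂) (mul_pos hμ h1) (by gcongr) (by gcongr) (by gcongr)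
  unfold P080.resc
  have hd : 0 < A ^ 2 * μ := by positivity
  have h6 : μ * ((t₂ - t₁) * S (μ * t) u (x0 + (A * μ) • y))
      ≤ μ * ((t₂ - t) * S (μ * t₁) u (x0 + (A * μ) • y)
        + (t - t₁) * S (μ * t₂) u (x0 + (A * μ) • y)) := by linarith
  have h7 := div_le_div_of_nonneg_right (le_of_mul_le_mul_left h6 hμ) hd.le
  calc _ = (t₂ - t₁) * S (μ * t) u (x0 + (A * μ) • y) / (A ^ 2 * μ) := by ring
    _ ≤ _ := h7
    _ = _ := by ring

theorem Good.resc {L A μ R T : ℝ} {u : E → ℝ} (hu : Lip L u) {x0 : E} (hA : 0 < A) (hμ : 0 < μ)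
    (h : Good u x0 (A * μ * R) (μ * T)) : Good (resc u x0 A μ) 0 R T := by
  intro z hz
  rw [sub_zero] at hz
  have := h (x0 + (A * μ) • z) (by
    rw [add_sub_cancel_left, norm_smul, Real.norm_of_nonneg (by positivity)]
    exact mul_le_mul_of_nonneg_left hz (by positivity))
  refine ⟨Sub.resc hu hA hμ this.1, ?_⟩
  rw [resc_neg]
  exact Sub.resc hu.neg hA hμ this.2

theorem flat_resc_iff {A μ ν B : ℝ} {u : E → ℝ} {x0 y e : E} (hA : 0 < A) (hμ : 0 < μ)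
    (hν : 0 < ν) :
    Flat (resc u x0 A μ) y ν B e ↔ Flat u (x0 + (A * μ) • y) (μ * ν) (A * B) (A • e) := by
  have hd : 0 < A ^ 2 * μ := by positivity
  have key : ∀ (σ : ℝ) (h : E),
      (|resc u x0 A μ (y + σ • e + h) - resc u x0 A μ y - σ * ‖e‖ ^ 2 - ⟪e, h⟫|
        ≤ B ^ 2 * ν + ‖h‖ ^ 2 / ν) ↔
      (|u (x0 + (A * μ) • y + (μ * σ) • A • e + (A * μ) • h) - u (x0 + (A * μ) • y)
        - (μ * σ) * ‖A • e‖ ^ 2 - ⟪A • e, (A * μ) • h⟫|
        ≤ (A * B) ^ 2 * (μ * ν) + ‖(A * μ) • h‖ ^ 2 / (μ * ν)) := by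
    intro σ h
    have e0 : x0 + (A * μ) • y + (μ * σ) • A • e + (A * μ) • h
        = x0 + (A * μ) • (y + σ • e + h) := by module
    rw [e0, norm_smul_sq, norm_smul_sq, real_inner_smul_left, real_inner_smul_right]
    unfold P080.resc
    have e1 : u (x0 + (A * μ) • (y + σ • e + h)) - u (x0 + (A * μ) • y)
        - μ * σ * (A ^ 2 * ‖e‖ ^ 2) - A * (A * μ * ⟪e, h⟫)
        = (A ^ 2 * μ) * (u (x0 + (A * μ) • (y + σ • e + h)) / (A ^ 2 * μ)
          - u (x0 + (A * μ) • y) / (A ^ 2 * μ) - σ * ‖e‖ ^ 2 - ⟪e, h⟫) := by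
      field_simp
    have e2 : (A * B) ^ 2 * (μ * ν) + (A * μ) ^ 2 * ‖h‖ ^ 2 / (μ * ν)
        = (A ^ 2 * μ) * (B ^ 2 * ν + ‖h‖ ^ 2 / ν) := by field_simp
    rw [e1, e2, abs_mul, abs_of_pos hd, mul_le_mul_iff_right₀ hd]
  constructor
  · intro H σ h hσ
    have h1 := (key (σ / μ) ((1 / (A * μ)) • h)).1 (H _ _ (by
      rw [abs_div, abs_of_pos hμ, div_le_iff₀ hμ]; linarith))
    rw [smul_smul (A * μ), mul_one_div_cancel (by positivity), one_smul,
      mul_div_cancel₀ _ hμ.ne'] at h1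
    exact h1
  · intro H σ h hσ
    exact (key σ h).2 (H _ _ (by
      rw [abs_mul, abs_of_pos hμ]; exact mul_le_mul_of_nonneg_left hσ hμ.le))

theorem Flat.resc {A μ ν B : ℝ} {u : E → ℝ} {x0 y e : E} (hA : 0 < A) (hμ : 0 < μ)
    (hν : 0 < ν) (h : Flat u (x0 + (A * μ) • y) (μ * ν) (A * B) e) :
    Flat (resc u x0 A μ) y ν B ((1 / A) • e) := by
  rw [flat_resc_iff hA hμ hν, smul_smul, mul_one_div_cancel hA.ne', one_smul]
  exact h

theorem gap_resc {L A μ t c : ℝ} {u : E → ℝ} (hu : Lip L u) {x0 y : E} (hA : 0 < A)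
    (hμ : 0 < μ) (ht : 0 < t) :
    C t (resc u x0 A μ) y ≤ resc u x0 A μ y + c ↔
      C (μ * t) u (x0 + (A * μ) • y) ≤ u (x0 + (A * μ) • y) + A ^ 2 * μ * c := by
  have hd : 0 < A ^ 2 * μ := by positivity
  rw [C_resc hu x0 hA hμ ht]
  unfold P080.resc
  rw [div_le_iff₀ hd]
  have : (u (x0 + (A * μ) • y) / (A ^ 2 * μ) + c) * (A ^ 2 * μ)
      = u (x0 + (A * μ) • y) + A ^ 2 * μ * c := by field_simp
  rw [this]

end Vale.Agent.P080
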