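import Vale.Agent.P080.DL

/-! Improvement of flatness. -/

set_option linter.unusedSectionVars false

namespace Vale.Agent.P080

open scoped RealInnerProductSpace

section
variable {E : Type*} [NormedAddCommGroup E] [InnerProductSpace ℝ E]

/-- two-sided approximation by an affine function -/
def Two (u : E → ℝ) (y : E) (K δ : ℝ) (β : E) : Prop :=
  ∀ k, |u (y + k) - u y - ⟪β, k⟫| ≤ δ + ‖k‖ ^ 2 / K

theorem Two.neg {u : E → ℝ} {y β : E} {K δ : ℝ} (h : Two u y K δ β) :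
    Two (fun y => - u y) y K δ (-β) := fun k => by
  have := h k
  rw [← abs_neg] at this
  rw [inner_neg_left]
  convert this using 2; ring

theorem exists_two [FiniteDimensional ℝ E] {u : E → ℝ} {y : E} {L K η : ℝ} (hu : Lip L u)
    (hK : 0 < K) (h1 : C K u y ≤ u y + η) (h2 : C K (fun y => - u y) y ≤ - u y + η) :
    ∃ β, Two u y K (5 * η) β := by
  obtain ⟨b, hb⟩ := exists_parab hu hK y
  obtain ⟨b', hb'⟩ := exists_parab hu.neg hK y
  have hη : 0 ≤ η := by have := le_C hu hK y; linarith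
  have e1 : ∀ k : E, ‖k‖ ^ 2 / (2 * K) = ‖k‖ ^ 2 / K / 2 := fun k => by field_simp
  have hbb : K * ‖b + b'‖ ^ 2 ≤ 8 * η := by
    have a1 := hb ((-(K / 2)) • (b + b'))
    have a2 := hb' ((-(K / 2)) • (b + b'))
    have a3 : ⟪b, (-(K / 2)) • (b + b')⟫ + ⟪b', (-(K / 2)) • (b + b')⟫
        = -(K / 2) * ‖b + b'‖ ^ 2 := by
      rw [← inner_add_left, real_inner_smul_right, real_inner_self_eq_norm_sq]
    have a4 : ‖(-(K / 2)) • (b + b')‖ ^ 2 / (2 * K) = K * ‖b + b'‖ ^ 2 / 8 := by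
      rw [norm_smul_sq]; field_simp; ring
    linarith
  refine ⟨b, fun k => ?_⟩
  have a1 := hb k
  have a2 := hb' k
  have a3 := inner_le_split (by positivity : 0 < K / 4) (b + b') k
  have a4 : ‖k‖ ^ 2 / (8 * (K / 4)) = ‖k‖ ^ 2 / K / 2 := by field_simp; ring
  rw [inner_add_left] at a3
  have a5 : 0 ≤ ‖k‖ ^ 2 / K := by positivity
  rw [e1] at a1 a2
  rw [abs_le]
  constructor <;> linarith

theorem sd_up {u : E → ℝ} {y b β : E} {L K δ t ω : ℝ} (hu : Lip L u) (ht : 0 < t)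
    (hK : 8 * t ≤ K) (hs : Sub u y (2 * t)) (h2 : Two u (y + (2 * t) • b) K δ β)
    (hω : ‖β - b‖ ≤ ω) :
    2 * u (y + t • b) ≤ u y + u (y + (2 * t) • b) + δ + 2 * t * ω ^ 2 := by
  have ht2 : 0 < 2 * t := by positivity
  have a1 := Sub.zero hu hs ht (by linarith) le_rfl
  have a2 := le_S' hu ht y (t • b)
  rw [norm_smul_sq] at a2
  have e1 : t ^ 2 * ‖b‖ ^ 2 / (2 * t) = t * ‖b‖ ^ 2 / 2 := by field_simp
  have a3 : S (2 * t) u y ≤ u (y + (2 * t) • b) - t * ‖b‖ ^ 2 + δ + 2 * t * ω ^ 2 := by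
    refine S_le' fun m => ?_
    obtain ⟨k, rfl⟩ : ∃ k, m = (2 * t) • b + k := ⟨m - (2 * t) • b, by abel⟩
    rw [sq_div_shift ht2, ← add_assoc]
    have b1 := (abs_le.1 (h2 k)).2
    have b2 := inner_le_split ht (β - b) k
    rw [inner_sub_left] at b2
    have b3 : ‖k‖ ^ 2 / K ≤ ‖k‖ ^ 2 / (8 * t) :=
      div_le_div_of_nonneg_left (by positivity) (by positivity) hK
    have b4 : ‖k‖ ^ 2 / (2 * (2 * t)) = 2 * (‖k‖ ^ 2 / (8 * t)) := by field_simp; ring
    have b5 := mul_le_mul_of_nonneg_left (pow_le_pow_left₀ (norm_nonneg _) hω 2) ht2.le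
    linarith
  have a4 : t * (2 * (S t u y - u y)) ≤ t * (S (2 * t) u y - u y) := by linarith
  have := le_of_mul_le_mul_left a4 ht
  linarith

theorem chord_up {D : ℝ → ℝ} {η : ℝ} (hc : Continuous D) (h1 : D (-4) = 0) (h2 : D 4 = 0)
    (hη : 0 ≤ η) (H : ∀ s t, 0 < t → -4 ≤ s → s + 2 * t ≤ 4 →
      2 * D (s + t) ≤ D s + D (s + 2 * t) + η) : ∀ σ, |σ| ≤ 4 → D σ ≤ η := by
  obtain ⟨x, hx, hmax⟩ := (isCompact_Icc (a := (-4 : ℝ)) (b := 4)).exists_isMaxOn
    ⟨0, by norm_num, by norm_num⟩ hc.continuousOn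
  have key : D x ≤ η := by
    rcases le_total x 0 with h | h
    · rcases hx.1.eq_or_lt with h0 | h0
      · rw [← h0, h1]; exact hη
      · have a1 := H (-4) (x + 4) (by linarith) le_rfl (by linarith)
        have a2 : D (-4 + 2 * (x + 4)) ≤ D x := hmax ⟨by linarith, by linarith⟩
        have e : -4 + (x + 4) = x := by ring
        rw [e] at a1
        linarith
    · rcases hx.2.eq_or_lt with h0 | h0
      · rw [h0, h2]; exact hη
      · have a1 := H (2 * x - 4) (4 - x) (by linarith) (by linarith) (by linarith)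
        have a2 : D (2 * x - 4) ≤ D x := hmax ⟨by linarith, by linarith⟩
        have e : 2 * x - 4 + (4 - x) = x := by ring
        have e' : 2 * x - 4 + 2 * (4 - x) = 4 := by ring
        rw [e, e'] at a1
        linarith
  intro σ hσ
  exact (hmax (abs_le.1 hσ)).trans key

theorem chord {G : ℝ → ℝ} {η : ℝ} (hc : Continuous G) (hη : 0 ≤ η)
    (H : ∀ s t, 0 < t → -4 ≤ s → s + 2 * t ≤ 4 →
      |2 * G (s + t) - G s - G (s + 2 * t)| ≤ η) :
    ∀ σ, |σ| ≤ 4 → |G σ - G 0 - (G 4 - G (-4)) / 8 * σ| ≤ 2 * η := by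
  have a1 := chord_up (D := fun σ => G σ - (G 4 + G (-4)) / 2 - (G 4 - G (-4)) / 8 * σ)
    (by fun_prop) (by ring) (by ring) hη (fun s t h1 h2 h3 => by
      have := (abs_le.1 (H s t h1 h2 h3)).2
      linarith)
  have a2 := chord_up (D := fun σ => -(G σ - (G 4 + G (-4)) / 2 - (G 4 - G (-4)) / 8 * σ))
    (by fun_prop) (by ring) (by ring) hη (fun s t h1 h2 h3 => by
      have := (abs_le.1 (H s t h1 h2 h3)).1
      linarith)
  intro σ hσ
  have b1 := a1 σ hσ
  have b2 := a2 σ hσ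
  have b3 := a1 0 (by norm_num)
  have b4 := a2 0 (by norm_num)
  rw [abs_le]
  constructor <;> linarith

set_option maxHeartbeats 400000 in
theorem TL_core {u : E → ℝ} {x0 : E} {L K : ℝ} {J : ℕ} (hu : Lip L u)
    (hK : 2 * K / 2 ^ J = 16) (hJ : 432000 * ((J : ℝ) + 1) ^ 2 ≤ 2 ^ J)
    (hyp : Hyp u x0 (2 * K * (L + 1)) (2 * K))
    (H2 : ∀ y, ‖y - x0‖ ≤ K * (L + 1) → ∃ β, Two u y K (1 / 96) β) :
    ∃ e, Flat u x0 1 (1 / 2) e := by
  have hL := hu.1
  set N : ℝ := (J : ℝ) + 1 with hN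
  have hN1 : 1 ≤ N := by have : (0 : ℝ) ≤ J := Nat.cast_nonneg J
                         linarith
  have hN2 : N ≤ N ^ 2 := by nlinarith
  have hK8 : K = 8 * 2 ^ J := by
    rw [div_eq_iff (by positivity)] at hK; linarith
  have hKN : 3456000 * N ^ 2 ≤ K := by linarith
  have hK1 : 3456000 ≤ K := by linarith
  have hK0 : 0 < K := by linarith
  have hLK : L * 4 ≤ L * K := mul_le_mul_of_nonneg_left (by linarith) hL
  have hx0 : ‖x0 - x0‖ ≤ 2 * K * (L + 1) := by simp; positivity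
  obtain ⟨b, hb⟩ := H2 x0 (by simp; positivity)
  obtain ⟨e, hF⟩ := hyp.2 x0 hx0 (2 * K) (by positivity) le_rfl
  obtain ⟨e1, hF1⟩ := hyp.2 x0 hx0 16 (by norm_num) (by linarith)
  obtain ⟨c1, c2⟩ := chain hu (by positivity) (hyp.2 x0 hx0) hF J e1 (by rwa [hK])
  rw [← hN] at c1 c2
  have he := hF.slope_le hu (by positivity)
  obtain ⟨w, rfl⟩ : ∃ w, b = e + w := ⟨b - e, by abel⟩
  have hw : ‖w‖ ≤ 4 := by
    refine norm_le_of_inner hK0 (by norm_num) fun h hh => ?_
    have a1 := (abs_le.1 (hb h)).1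
    have a2 := hF.up (y := x0 + h) 0 h (by simp) (by simp; linarith)
    unfold V at a2
    rw [add_sub_cancel_left, hh] at a2
    rw [hh, inner_add_left] at a1
    have e1 : K ^ 2 / K = K := by field_simp
    have e2 : K ^ 2 / (2 * K) = K / 2 := by field_simp
    linarith
  have hbn : ‖e + w‖ ≤ L + 6 := (norm_add_le _ _).trans (by linarith)
  have hline : ∀ σ : ℝ, |σ| ≤ 4 → ‖x0 + σ • (e + w) - x0‖ ≤ 4 * (L + 6) := by
    intro σ hσ
    rw [add_sub_cancel_left, norm_smul, Real.norm_eq_abs]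
    exact mul_le_mul hσ hbn (norm_nonneg _) (by norm_num)
  have hY : ∀ σ : ℝ, |σ| ≤ 4 → |V u x0 e (x0 + σ • (e + w))| ≤ 261 * N ^ 2 := by
    intro σ hσ
    have a1 := hF1.bd (y := x0 + σ • (e + w)) σ (σ • (w + (e - e1))) (by module) (by linarith)
    have a2 : ‖w + (e - e1)‖ ≤ 9 * N := (norm_add_le _ _).trans (by linarith)
    have a3 := pow_le_pow_left₀ (norm_nonneg _) a2 2
    have a4 : σ ^ 2 ≤ 4 ^ 2 := by rw [← sq_abs]; exact pow_le_pow_left₀ (abs_nonneg _) hσ 2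
    have a5 := mul_le_mul a4 a3 (by positivity) (by positivity)
    rw [norm_smul_sq] at a1
    have a6 : V u x0 e (x0 + σ • (e + w))
        = V u x0 e1 (x0 + σ • (e + w)) - σ * ⟪e - e1, e + w⟫ := by
      unfold V
      rw [add_sub_cancel_left, real_inner_smul_right, real_inner_smul_right, inner_sub_left]
      ring
    have a7 : ⟪e - e1, e + w⟫ = (‖e‖ ^ 2 / 2 - ‖e1‖ ^ 2 / 2) + ‖e - e1‖ ^ 2 / 2
        + ⟪e - e1, w⟫ := by
      rw [inner_add_right, norm_sub_sq_real, inner_sub_left e e1 e, real_inner_self_eq_norm_sq,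
        real_inner_comm]
      ring
    have a8 : |⟪e - e1, w⟫| ≤ 5 * N * 4 :=
      (abs_real_inner_le_norm _ _).trans (mul_le_mul c1 hw (norm_nonneg _) (by positivity))
    have a9 := pow_le_pow_left₀ (norm_nonneg _) c1 2
    have a10 : |⟪e - e1, e + w⟫| ≤ 41 * N ^ 2 := by
      have : 0 ≤ ‖e - e1‖ ^ 2 := by positivity
      rw [a7]
      rw [abs_le] at a8 c2 ⊢
      constructor <;> linarith [a8.1, a8.2, c2.1, c2.2]
    have a11 : |σ * ⟪e - e1, e + w⟫| ≤ 4 * (41 * N ^ 2) := by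
      rw [abs_mul]; exact mul_le_mul hσ a10 (abs_nonneg _) (by norm_num)
    rw [a6]
    rw [abs_le] at a1 a11 ⊢
    constructor <;> linarith [a1.1, a1.2, a11.1, a11.2]
  have hclose : ∀ (σ₁ σ₂ : ℝ) (β₁ β₂ : E), |σ₁| ≤ 4 → |σ₂| ≤ 4 → σ₁ ≤ σ₂ →
      Two u (x0 + σ₁ • (e + w)) K (1 / 96) β₁ → Two u (x0 + σ₂ • (e + w)) K (1 / 96) β₂ →
      ‖β₂ - β₁‖ ≤ 1 / 24 := by
    intro σ₁ σ₂ β₁ β₂ h1 h2 h12 t1 t2
    have h1' := abs_le.1 h1
    have h2' := abs_le.1 h2
    refine norm_le_of_inner (s := K / 96) (by positivity) (by norm_num) fun h hh => ?_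
    have a1 := (abs_le.1 (t1 h)).2
    have a2 := (abs_le.1 (t2 h)).1
    have a3 := V_diff u x0 e (x0 + σ₁ • (e + w)) h
    have a4 := V_diff u x0 e (x0 + σ₂ • (e + w)) h
    have a5 := abs_le.1 (hY σ₁ h1)
    have a6 := abs_le.1 (hY σ₂ h2)
    have a7 : V u x0 e (x0 + σ₂ • (e + w) + h) - V u x0 e (x0 + σ₁ • (e + w) + h) ≤ 224 := by
      rcases h12.eq_or_lt with rfl | hlt
      · linarith
      have hτ : 0 < σ₂ - σ₁ := by linarith
      have b1 := hF.UL hu (by positivity) (x := x0 + σ₁ • (e + w) + h) (σ := σ₁)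
        (h := σ₁ • w + h) (τ := σ₂ - σ₁) (by module) (by linarith) (by
          refine (norm_add_le _ _).trans ?_
          rw [norm_smul, Real.norm_eq_abs]
          have := mul_le_mul h1 hw (norm_nonneg _) (by norm_num)
          linarith) ((hyp.1 _ (by
            have e0 : x0 + σ₁ • (e + w) + h - x0 = (x0 + σ₁ • (e + w) - x0) + h := by abel
            rw [e0]
            refine (norm_add_le _ _).trans ?_
            have := hline σ₁ h1
            linarith)).1.mono (by linarith)) hτ (by linarith)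
      have b2 := le_S' hu hτ (x0 + σ₁ • (e + w) + h) ((σ₂ - σ₁) • e + (σ₂ - σ₁) • w)
      have b3 := pair_id hτ u x0 e (x0 + σ₁ • (e + w) + h) ((σ₂ - σ₁) • w)
      have e0 : x0 + σ₁ • (e + w) + h + ((σ₂ - σ₁) • e + (σ₂ - σ₁) • w)
          = x0 + σ₂ • (e + w) + h := by module
      rw [e0] at b2 b3
      have b4 : ‖(σ₂ - σ₁) • w‖ ^ 2 / (2 * (σ₂ - σ₁)) ≤ (σ₂ - σ₁) * 8 := by
        rw [norm_smul_sq, div_le_iff₀ (by positivity)]
        have := mul_le_mul_of_nonneg_left (pow_le_pow_left₀ (norm_nonneg _) hw 2)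
          (sq_nonneg (σ₂ - σ₁))
        linarith
      linarith
    have e1 : (K / 96) ^ 2 / K = K / 9216 := by field_simp; norm_num
    rw [hh, e1] at a1 a2
    rw [inner_sub_left]
    linarith
  have hb0 : Two u (x0 + (0 : ℝ) • (e + w)) K (1 / 96) (e + w) := by simpa using hb
  have hβ : ∀ σ : ℝ, |σ| ≤ 4 →
      ∃ β, Two u (x0 + σ • (e + w)) K (1 / 96) β ∧ ‖β - (e + w)‖ ≤ 1 / 24 := by
    intro σ hσ
    obtain ⟨β, hβ⟩ := H2 (x0 + σ • (e + w)) (by linarith [hline σ hσ])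
    refine ⟨β, hβ, ?_⟩
    rcases le_total 0 σ with h | h
    · exact hclose 0 σ _ _ (by norm_num) hσ h hb0 hβ
    · rw [norm_sub_rev]; exact hclose σ 0 _ _ hσ (by norm_num) h hβ hb0
  have hch := chord (G := fun σ => u (x0 + σ • (e + w))) (η := 1 / 96 + 8 * (1 / 24) ^ 2)
    (by have := hu.continuous; fun_prop) (by norm_num) (fun s t h1 h2 h3 => by
      have s1 : |s| ≤ 4 := by rw [abs_le]; constructor <;> linarith
      have s2 : |s + 2 * t| ≤ 4 := by rw [abs_le]; constructor <;> linarith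
      obtain ⟨β₁, t1, n1⟩ := hβ s s1
      obtain ⟨β₂, t2, n2⟩ := hβ (s + 2 * t) s2
      have e1 : x0 + s • (e + w) + (2 * t) • (e + w) = x0 + (s + 2 * t) • (e + w) := by module
      have e2 : x0 + s • (e + w) + t • (e + w) = x0 + (s + t) • (e + w) := by module
      have e3 : x0 + (s + 2 * t) • (e + w) + (2 * t) • (-(e + w)) = x0 + s • (e + w) := by
        module
      have e4 : x0 + (s + 2 * t) • (e + w) + t • (-(e + w)) = x0 + (s + t) • (e + w) := by
        module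
      have a1 := sd_up (y := x0 + s • (e + w)) (b := e + w) hu h1 (by linarith : 8 * t ≤ K)
        ((hyp.1 _ (by linarith [hline s s1])).1.mono (by linarith)) (by rw [e1]; exact t2) n2
      have a2 := sd_up (y := x0 + (s + 2 * t) • (e + w)) (b := -(e + w)) (ω := 1 / 24) hu.neg h1
        (by linarith : 8 * t ≤ K)
        ((hyp.1 _ (by linarith [hline _ s2])).2.mono (by linarith)) (by rw [e3]; exact t1.neg)
        (by
          have e5 : -β₁ - -(e + w) = -(β₁ - (e + w)) := by abel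
          rw [e5, norm_neg]; exact n1)
      rw [e1, e2] at a1
      rw [e3, e4] at a2
      rw [abs_le]
      constructor <;> linarith)
  have := flat_of_pre (u := u) (z := x0) (b := e + w) (μ := 4) (A := 1 / 8)
    (κ := (u (x0 + (4 : ℝ) • (e + w)) - u (x0 + (-4 : ℝ) • (e + w))) / 8) (by norm_num)
    (by norm_num) (fun σ h hσ => by
      obtain ⟨β, t1, n1⟩ := hβ σ hσ
      have a1 := abs_le.1 (t1 h)
      have a2 := abs_le.1 (hch σ hσ)
      simp only [zero_smul, add_zero] at a2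
      have a3 := inner_le_split one_pos (β - (e + w)) h
      have a4 := inner_le_split one_pos (-(β - (e + w))) h
      rw [norm_neg, inner_neg_left] at a4
      rw [inner_sub_left] at a3 a4
      have a5 := pow_le_pow_left₀ (norm_nonneg _) n1 2
      have a6 : ‖h‖ ^ 2 / K ≤ ‖h‖ ^ 2 / 8 :=
        div_le_div_of_nonneg_left (by positivity) (by norm_num) (by linarith)
      rw [abs_le]
      constructor <;> linarith [a1.1, a1.2, a2.1, a2.2])
  norm_num at this
  simpa using this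

end

theorem improve : ∃ Q : ℝ, 2 ≤ Q ∧
    ∀ (E : Type) [NormedAddCommGroup E] [InnerProductSpace ℝ E] [FiniteDimensional ℝ E]
      (u : E → ℝ) (x0 : E) (L : ℝ), Lip L u → Hyp u x0 (Q * (L + 1)) Q →
      ∃ e, Flat u x0 1 (1 / 2) e := by
  obtain ⟨J, -, hJ⟩ := exists_pow_big 432000 2 2 0 (by norm_num)
  set K : ℝ := 8 * 2 ^ J with hK
  have hK1 : (1 : ℝ) ≤ 2 ^ J := one_le_pow₀ (by norm_num)
  have hK0 : 0 < K := by positivity
  obtain ⟨Q, hQ, H⟩ := Pm_all (ε₁ := 1 / 480 / K) (by positivity)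
  have hQK : 0 < Q * K := by positivity
  refine ⟨2 * K + Q * K, by linarith, fun E _ _ _ u x0 L hu hyp => ?_⟩
  have hL := hu.1
  have c1 : 0 ≤ Q * K * (L + 1) := by positivity
  have c2 : 0 ≤ K * (L + 1) := by positivity
  refine TL_core (K := K) (J := J) hu (by rw [hK]; field_simp; norm_num) hJ
    (hyp.mono (by simp only [sub_self, norm_zero]; linarith) (by linarith)) fun y hy => ?_
  have hy' : Hyp u y (Q * (L + 1) * K) (Q * K) := hyp.mono (by linarith) (by linarith)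
  have a1 := H E u y L K hu hK0 hy'
  have a2 := H E _ y L K hu.neg hK0 hy'.neg
  have e : 1 / 480 / K * K = 1 / 480 := by field_simp
  rw [e] at a1 a2
  have := exists_two hu hK0 a1 a2
  norm_num at this
  simpa using this

end Vale.Agent.P080
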