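import Vale.Agent.P080.Defs
import Vale.Agent.P080.Iter

/-! From the viscosity formulation to comparison with cones and convexity in time. -/

set_option linter.unusedSectionVars false

namespace Vale.Agent.P080

open scoped RealInnerProductSpace

variable {E : Type*} [NormedAddCommGroup E] [InnerProductSpace ℝ E]

/-- a quadratic test polynomial -/
noncomputable def quad (z ν : E) (c₀ c A B : ℝ) (y : E) : ℝ :=
  c₀ + c * ⟪ν, y - z⟫ + A * ‖y - z‖ ^ 2 + B * ⟪ν, y - z⟫ ^ 2

theorem quad_contDiff (z ν : E) (c₀ c A B : ℝ) : ContDiff ℝ 2 (quad z ν c₀ c A B) := by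
  unfold quad
  have h1 : ContDiff ℝ 2 fun y : E => ⟪ν, y - z⟫ :=
    contDiff_const.inner ℝ (contDiff_id.sub contDiff_const)
  have h2 : ContDiff ℝ 2 fun y : E => ‖y - z‖ ^ 2 :=
    (contDiff_id.sub contDiff_const).norm_sq ℝ
  exact ((contDiff_const.add (contDiff_const.mul h1)).add (contDiff_const.mul h2)).add
    (contDiff_const.mul (h1.pow 2))

theorem quad_hasFDerivAt (z ν : E) (c₀ c A B : ℝ) (y : E) :
    HasFDerivAt (quad z ν c₀ c A B) (c • innerSL ℝ ν + (2 * A) • innerSL ℝ (y - z)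
      + (2 * B * ⟪ν, y - z⟫) • innerSL ℝ ν) y := by
  have h0 : HasFDerivAt (fun y : E => y - z) (ContinuousLinearMap.id ℝ E) y :=
    (hasFDerivAt_id y).sub_const z
  have h1 : HasFDerivAt (fun y : E => ⟪ν, y - z⟫) (innerSL ℝ ν) y := by
    have := (innerSL ℝ ν).hasFDerivAt.comp y h0
    rw [ContinuousLinearMap.comp_id] at this
    exact this
  have h2 := h0.norm_sq
  have h3 := (((h1.const_mul c).const_add c₀).add (h2.const_mul A)).add ((h1.pow 2).const_mul B)
  refine h3.congr_fderiv ?_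
  ext v
  simp
  ring

theorem quad_infLap [CompleteSpace E] (z ν : E) (hν : ‖ν‖ = 1) (c₀ c A B : ℝ) :
    infLap (quad z ν c₀ c A B) z = 2 * c ^ 2 * (A + B) := by
  have hg : gradient (quad z ν c₀ c A B) z = c • ν := by
    apply HasGradientAt.gradient
    rw [hasGradientAt_iff_hasFDerivAt]
    refine (quad_hasFDerivAt z ν c₀ c A B z).congr_fderiv ?_
    ext v
    simp
  let J : E →L[ℝ] E →L[ℝ] ℝ := innerSL ℝ
  have hJ : ∀ v, J v = innerSL ℝ v := fun _ => rfl
  let D : E →L[ℝ] E →L[ℝ] ℝ := (2 * A) • J + (2 * B) • (innerSL ℝ ν).smulRight (innerSL ℝ ν)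
  have hf : fderiv ℝ (quad z ν c₀ c A B) = fun y => c • innerSL ℝ ν + D (y - z) := by
    funext y
    rw [(quad_hasFDerivAt z ν c₀ c A B y).fderiv]
    ext v
    simp [D, hJ]
    ring
  have hD : HasFDerivAt (fun y => c • innerSL ℝ ν + D (y - z)) D z := by
    have := (D.hasFDerivAt.comp z ((hasFDerivAt_id z).sub_const z)).const_add (c • innerSL ℝ ν)
    simpa using this
  unfold infLap
  rw [hf, hD.fderiv, hg]
  simp [D, hJ, hν]
  ring

/-- comparison with cones from above on annuli -/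
def Cone (u : E → ℝ) (Ω : Set E) : Prop :=
  ∀ (x : E) (r₁ r₂ a b : ℝ), 0 ≤ r₁ → r₁ ≤ r₂ → 0 ≤ b → Metric.closedBall x r₂ ⊆ Ω →
    (∀ y, ‖y - x‖ = r₁ ∨ ‖y - x‖ = r₂ → u y ≤ a + b * ‖y - x‖) →
    ∀ y, r₁ ≤ ‖y - x‖ → ‖y - x‖ ≤ r₂ → u y ≤ a + b * ‖y - x‖

theorem norm_le_quad {ν k : E} {s : ℝ} (hν : ‖ν‖ = 1) (hs : 0 < s) (hk : ‖k‖ ≤ s / 2) :
    ‖s • ν + k‖ ≤ s + ⟪ν, k⟫ + (‖k‖ ^ 2 - ⟪ν, k⟫ ^ 2) / s := by
  have h1 := abs_real_inner_le_norm ν k
  rw [hν, one_mul] at h1
  have h2 := abs_le.1 (h1.trans hk)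
  have h3 : ⟪ν, k⟫ ^ 2 ≤ ‖k‖ ^ 2 := by
    rw [← sq_abs]; exact pow_le_pow_left₀ (abs_nonneg _) h1 2
  set w : ℝ := (‖k‖ ^ 2 - ⟪ν, k⟫ ^ 2) / s with hw
  have hw0 : 0 ≤ w := div_nonneg (by linarith) hs.le
  have hw1 : w * s = ‖k‖ ^ 2 - ⟪ν, k⟫ ^ 2 := by rw [hw]; field_simp
  refine (pow_le_pow_iff_left₀ (norm_nonneg _) (by linarith) two_ne_zero).1 ?_
  rw [norm_add_sq_real, norm_smul_sq, real_inner_smul_left, hν]
  have h4 : 0 ≤ w * (s + 2 * ⟪ν, k⟫) := mul_nonneg hw0 (by linarith)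
  nlinarith [sq_nonneg w]

theorem cone_of_visc [FiniteDimensional ℝ E] {u : E → ℝ} {Ω : Set E} (hc : ContinuousOn u Ω)
    (H : ∀ z ∈ Ω, ∀ (ν : E) (c₀ c A B : ℝ), ‖ν‖ = 1 →
      IsLocalMax (fun y => u y - quad z ν c₀ c A B y) z → 0 ≤ 2 * c ^ 2 * (A + B)) :
    Cone u Ω := by
  have : ProperSpace E := FiniteDimensional.proper ℝ E
  intro x r₁ r₂ a b h1 h12 hb hΩ hbd y₀ hy1 hy2
  by_contra hcon
  push Not at hcon
  have hr₂ : 0 ≤ r₂ := h1.trans h12
  set δ : ℝ := (u y₀ - (a + b * ‖y₀ - x‖)) / (3 * r₂ ^ 2 + 1) with hδ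
  have hδ0 : 0 < δ := div_pos (by linarith) (by positivity)
  have hδ1 : δ * (3 * r₂ ^ 2 + 1) = u y₀ - (a + b * ‖y₀ - x‖) := by rw [hδ]; field_simp
  set b' : ℝ := b + 3 * δ * r₂ with hb'
  set K : Set E := Metric.closedBall x r₂ ∩ {y | r₁ ≤ ‖y - x‖} with hK
  have hKc : IsCompact K := (isCompact_closedBall x r₂).inter_right
    (isClosed_le continuous_const (by fun_prop))
  set f : E → ℝ := fun y => u y - (a + b' * ‖y - x‖ - δ * ‖y - x‖ ^ 2) with hf
  have hfc : ContinuousOn f K :=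
    (hc.mono (Set.inter_subset_left.trans hΩ)).sub (Continuous.continuousOn (by fun_prop))
  have hy₀ : y₀ ∈ K := ⟨by rwa [Metric.mem_closedBall, dist_eq_norm], hy1⟩
  obtain ⟨z, ⟨hz2, hz1⟩, hmax⟩ := hKc.exists_isMaxOn ⟨y₀, hy₀⟩ hfc
  have hzΩ := hΩ hz2
  rw [Metric.mem_closedBall, dist_eq_norm] at hz2
  have hz1' : r₁ ≤ ‖z - x‖ := hz1
  have hpos : 0 < f z := by
    refine lt_of_lt_of_le ?_ (hmax hy₀)
    simp only [hf, hb']
    have a1 : δ * r₂ * ‖y₀ - x‖ ≤ δ * r₂ * r₂ := mul_le_mul_of_nonneg_left hy2 (by positivity)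
    have a2 : 0 ≤ δ * ‖y₀ - x‖ ^ 2 := by positivity
    linarith
  set s : ℝ := ‖z - x‖ with hs
  have hs0 : 0 ≤ s := norm_nonneg _
  have hint : ¬ (s = r₁ ∨ s = r₂) := by
    intro h
    have a1 := hbd z h
    have a2 : δ * s * s ≤ δ * s * r₂ := mul_le_mul_of_nonneg_left hz2 (by positivity)
    have a3 : 0 ≤ δ * s * r₂ := by positivity
    simp only [hf, hb', ← hs] at hpos
    linarith
  push Not at hint
  have hs1 : r₁ < s := lt_of_le_of_ne hz1' hint.1.symm
  have hs2 : s < r₂ := lt_of_le_of_ne hz2 hint.2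
  have hsp : 0 < s := by linarith
  set ν : E := (1 / s) • (z - x) with hν
  have hν1 : ‖ν‖ = 1 := by
    rw [hν, norm_smul, Real.norm_of_nonneg (by positivity), ← hs]; field_simp
  have hzx : z - x = s • ν := by rw [hν, smul_smul, mul_one_div_cancel hsp.ne', one_smul]
  have hb'0 : 0 ≤ b' := by positivity
  have key := H z hzΩ ν (a + b' * s - δ * s ^ 2) (b' - 2 * δ * s) (b' / s - δ) (-(b' / s)) hν1
    (by
      have hρ : 0 < min (s / 2) (min (s - r₁) (r₂ - s)) := by
        have : 0 < s - r₁ := by linarith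
        have : 0 < r₂ - s := by linarith
        positivity
      filter_upwards [Metric.closedBall_mem_nhds z hρ] with y hy
      rw [Metric.mem_closedBall, dist_eq_norm] at hy
      have k1 := hy.trans (min_le_left _ _)
      have k2 := hy.trans ((min_le_right _ _).trans (min_le_left _ _))
      have k3 := hy.trans ((min_le_right _ _).trans (min_le_right _ _))
      have e0 : y - x = s • ν + (y - z) := by rw [← hzx]; abel
      have hyK : y ∈ K := by
        have a1 := norm_add_le (z - x) (y - z)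
        have a2 := norm_sub_le (y - x) (y - z)
        have e1 : z - x + (y - z) = y - x := by abel
        have e2 : y - x - (y - z) = z - x := by abel
        rw [e1] at a1
        rw [e2] at a2
        refine ⟨by rw [Metric.mem_closedBall, dist_eq_norm]; linarith, ?_⟩
        show r₁ ≤ ‖y - x‖
        linarith
      have a1 : f y ≤ f z := hmax hyK
      have a2 := mul_le_mul_of_nonneg_left (norm_le_quad hν1 hsp k1) hb'0
      have a3 : ‖y - x‖ ^ 2 = s ^ 2 + 2 * (s * ⟪ν, y - z⟫) + ‖y - z‖ ^ 2 := by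
        rw [e0, norm_add_sq_real, norm_smul_sq, real_inner_smul_left, hν1]; ring
      rw [← e0] at a2
      simp only [hf, ← hs] at a1
      rw [a3] at a1
      have e3 : b' * ((‖y - z‖ ^ 2 - ⟪ν, y - z⟫ ^ 2) / s)
          = b' / s * ‖y - z‖ ^ 2 - b' / s * ⟪ν, y - z⟫ ^ 2 := by ring
      simp only [quad, sub_self, inner_zero_right, norm_zero]
      linarith)
  have a1 : 0 < b' - 2 * δ * s := by
    have : δ * s < δ * r₂ := mul_lt_mul_of_pos_left hs2 hδ0
    have : 0 < δ * s := by positivity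
    rw [hb']; linarith
  have a2 : 0 < 2 * (b' - 2 * δ * s) ^ 2 * δ := by positivity
  linarith

theorem InfHarmonicOn.cone [FiniteDimensional ℝ E] [CompleteSpace E] {u : E → ℝ} {Ω : Set E}
    (h : InfHarmonicOn u Ω) : Cone u Ω ∧ Cone (fun y => - u y) Ω := by
  constructor
  · refine cone_of_visc h.1 fun z hz ν c₀ c A B hν hm => ?_
    have := (h.2 _ (quad_contDiff z ν c₀ c A B) z hz).1 hm
    rwa [quad_infLap z ν hν] at this
  · refine cone_of_visc h.1.neg fun z hz ν c₀ c A B hν hm => ?_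
    have := (h.2 _ (quad_contDiff z ν (-c₀) (-c) (-A) (-B)) z hz).2 (by
      have e : (fun y => u y - quad z ν (-c₀) (-c) (-A) (-B) y)
          = fun y => -(-u y - quad z ν c₀ c A B y) := by
        funext y; simp only [quad]; ring
      rw [e]; exact hm.neg)
    rw [quad_infLap z ν hν] at this
    linarith

theorem Cone.congr {u g : E → ℝ} {Ω B : Set E} (h : Cone u Ω) (hB : B ⊆ Ω)
    (he : ∀ y ∈ B, u y = g y) : Cone g B := by
  intro x r₁ r₂ a b h1 h12 hb hΩ hbd y hy1 hy2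
  have hm : ∀ w, ‖w - x‖ ≤ r₂ → u w = g w := fun w hw =>
    he w (hΩ (by rwa [Metric.mem_closedBall, dist_eq_norm]))
  rw [← hm y hy2]
  refine h x r₁ r₂ a b h1 h12 hb (hΩ.trans hB) (fun w hw => ?_) y hy1 hy2
  rw [hm w (by rcases hw with hw | hw <;> linarith)]
  exact hbd w hw

theorem Cone.sub {u : E → ℝ} {Ω : Set E} {x : E} {L T : ℝ} (h : Cone u Ω) (hu : Lip L u)
    (hΩ : Metric.closedBall x (L * T) ⊆ Ω) : Sub u x T := by
  intro t₁ t t₂ h1 h2 h3 h4
  have hL := hu.1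
  have ht : 0 < t := by linarith
  have ht₂ : 0 < t₂ := by linarith
  rcases (h2.trans h3).eq_or_lt with h12 | h12
  · have e1 : t = t₁ := by linarith
    have e2 : t₂ = t₁ := h12.symm
    rw [e1, e2]; simp
  have hd : 0 < t₂ - t₁ := by linarith
  set β : ℝ := (S t₂ u x - S t₁ u x) / (t₂ - t₁) with hβ
  have hβe : β * (t₂ - t₁) = S t₂ u x - S t₁ u x := by rw [hβ]; field_simp
  have hβ0 : 0 ≤ β := div_nonneg (by linarith [S_mono_t hu h1 h12.le x]) hd.le
  have hβ1 : 2 * β ≤ L ^ 2 := by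
    have := S_le_t hu h1 h12.le x
    exact le_of_mul_le_mul_right (a := t₂ - t₁) (by linarith) hd
  set α : ℝ := S t₁ u x - β * t₁ with hα
  set b : ℝ := Real.sqrt (2 * β) with hb
  have hb0 : 0 ≤ b := Real.sqrt_nonneg _
  have hb2 : b ^ 2 = 2 * β := Real.sq_sqrt (by positivity)
  have hbL : b ≤ L := (pow_le_pow_iff_left₀ hb0 hL two_ne_zero).1 (by linarith)
  have e1 : S t₁ u x = α + β * t₁ := by rw [hα]; ring
  have e2 : S t₂ u x = α + β * t₂ := by rw [hα]; linarith
  have hS : S t u x ≤ α + β * t := by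
    refine S_le fun y => ?_
    have a1 := le_S hu h1 x y
    have a2 := le_S hu ht₂ x y
    set s := ‖y - x‖ with hs
    have hs0 : 0 ≤ s := norm_nonneg _
    rcases le_total s (b * t₁) with c1 | c1
    · have b1 : s ^ 2 ≤ 2 * β * t₁ ^ 2 := by
        have := pow_le_pow_left₀ hs0 c1 2
        rwa [mul_pow, hb2] at this
      have b2 : s ^ 2 / (2 * t₁) - s ^ 2 / (2 * t) = s ^ 2 * (t - t₁) / (2 * t * t₁) := by
        field_simp
      have b3 : s ^ 2 * (t - t₁) / (2 * t * t₁) ≤ β * (t - t₁) := by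
        rw [div_le_iff₀ (by positivity)]
        have d1 := mul_le_mul_of_nonneg_right b1 (sub_nonneg.2 h2)
        have d2 : β * (t - t₁) * t₁ * t₁ ≤ β * (t - t₁) * t₁ * t :=
          mul_le_mul_of_nonneg_left h2 (by have := sub_nonneg.2 h2; positivity)
        linarith
      linarith
    rcases le_total (b * t₂) s with c2 | c2
    · have b1 : 2 * β * t₂ ^ 2 ≤ s ^ 2 := by
        have := pow_le_pow_left₀ (by positivity) c2 2
        rwa [mul_pow, hb2] at this
      have b2 : s ^ 2 / (2 * t) - s ^ 2 / (2 * t₂) = s ^ 2 * (t₂ - t) / (2 * t * t₂) := by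
        field_simp
      have b3 : β * (t₂ - t) ≤ s ^ 2 * (t₂ - t) / (2 * t * t₂) := by
        rw [le_div_iff₀ (by positivity)]
        have d1 := mul_le_mul_of_nonneg_right b1 (sub_nonneg.2 h3)
        have d2 : β * (t₂ - t) * t₂ * t ≤ β * (t₂ - t) * t₂ * t₂ :=
          mul_le_mul_of_nonneg_left h3 (by have := sub_nonneg.2 h3; positivity)
        linarith
      linarith
    have b1 := h x (b * t₁) (b * t₂) α b (by positivity)
      (mul_le_mul_of_nonneg_left h12.le hb0) hb0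
      ((Metric.closedBall_subset_closedBall (mul_le_mul hbL h4 ht₂.le hL)).trans hΩ)
      (fun w hw => by
        rcases hw with hw | hw
        · have d1 := le_S hu h1 x w
          have d2 : (b * t₁) ^ 2 / (2 * t₁) = b ^ 2 * t₁ / 2 := by field_simp
          have d3 : b * (b * t₁) = b ^ 2 * t₁ := by ring
          rw [hw, d2, hb2] at d1
          rw [hw, d3, hb2]; linarith
        · have d1 := le_S hu ht₂ x w
          have d2 : (b * t₂) ^ 2 / (2 * t₂) = b ^ 2 * t₂ / 2 := by field_simp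
          have d3 : b * (b * t₂) = b ^ 2 * t₂ := by ring
          rw [hw, d2, hb2] at d1
          rw [hw, d3, hb2]; linarith) y c1 c2
    have b2 := quad_aux (L := b) (r := s) ht
    rw [hb2] at b2
    linarith
  have := mul_le_mul_of_nonneg_left hS hd.le
  rw [e1, e2]
  linarith

theorem Cone.lip {u : E → ℝ} {Ω : Set E} {c : E} {r M : ℝ} (h : Cone u Ω) (hr : 0 < r)
    (hM : 0 ≤ M) (hΩ : Metric.ball c r ⊆ Ω)
    (hosc : ∀ p ∈ Metric.ball c r, ∀ q ∈ Metric.ball c r, u p - u q ≤ M) :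
    ∀ x ∈ Metric.ball c (3 * r / 4), ∀ y ∈ Metric.ball c (3 * r / 4),
      u y - u x ≤ 8 * M / r * ‖y - x‖ := by
  intro x hx y hy
  have hsub : Metric.ball c (3 * r / 4) ⊆ Metric.ball c r := Metric.ball_subset_ball (by linarith)
  have e : 8 * M / r * (r / 8) = M := by field_simp
  rcases le_total ‖y - x‖ (r / 8) with h1 | h1
  · have hB : Metric.closedBall x (r / 8) ⊆ Metric.ball c r :=
      Metric.closedBall_subset_ball' (by rw [Metric.mem_ball] at hx; linarith)
    have := h x 0 (r / 8) (u x) (8 * M / r) le_rfl (by positivity) (by positivity)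
      (hB.trans hΩ) (fun w hw => by
        rcases hw with hw | hw
        · rw [hw, sub_eq_zero.1 (norm_eq_zero.1 hw)]; simp
        · have := hosc w (hB (by rw [Metric.mem_closedBall, dist_eq_norm, hw])) x (hsub hx)
          rw [hw, e]; linarith) y (norm_nonneg _) h1
    linarith
  · have a1 := hosc y (hsub hy) x (hsub hx)
    have a2 := mul_le_mul_of_nonneg_left h1 (by positivity : 0 ≤ 8 * M / r)
    linarith

end Vale.Agent.P080
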