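import Vale.Agent.P080.LM

/-! The interior second-difference estimate and the one-step monotonicity at a general scale. -/

set_option linter.unusedSectionVars false

namespace Vale.Agent.P080

open scoped RealInnerProductSpace

variable {E : Type*} [NormedAddCommGroup E] [InnerProductSpace ℝ E]

theorem LM2 [FiniteDimensional ℝ E] {u : E → ℝ} {z e xs h : E} {L σ t τ ϱ G : ℝ}
    (hu : Lip L u) (hF : Flat u z 1 1 e) (hgood : Good u z (2 * (L + 1)) (1 / 4))
    (hx : xs = z + σ • e + h) (hσ : |σ| ≤ 1 / 4) (hh : ‖h‖ ≤ 1 / 2)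
    (ht : 0 < t) (hτ0 : 0 < τ) (htT : t ≤ τ ^ 2) (hT : τ ≤ 1 / 4) (hϱ0 : 0 < ϱ) (hϱ : ϱ ≤ 1 / 4)
    (hG : 0 < G) (hG8 : G ≤ 8) (h1 : 4 * G * τ ≤ ϱ) (h2 : 28 * G * τ ^ 3 ≤ ϱ ^ 3)
    (H : ∀ (s : ℝ) (n : E), |s| ≤ τ ^ 2 → ‖n‖ ≤ 2 * ϱ →
      C (τ ^ 2) u (xs + s • e + n) ≤ u (xs + s • e + n) + G) :
    C t u xs ≤ u xs + G * t / τ ^ 2 + 19 * G * τ ^ 3 / (ϱ * t) + 42 * G * (τ / ϱ)
      + 1600 * G * (τ / ϱ) ^ 2 := by
  have := LM1 (γ := G * τ ^ 3 / ϱ) hu hF hgood hx hσ hh ht htT (by nlinarith) hϱ0 hϱ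
    (by positivity) (by
      rw [div_le_div_iff₀ hϱ0 (by norm_num)]
      have := mul_le_mul_of_nonneg_left h1 (by positivity : 0 ≤ τ ^ 2)
      linarith) (by
      rw [← mul_div_assoc, div_le_iff₀ hϱ0]; linarith) hG hG8 H
  have e1 : 19 * (G * τ ^ 3 / ϱ) / t = 19 * G * τ ^ 3 / (ϱ * t) := by field_simp
  have e2 : 2 * G * (τ ^ 2) ^ 2 / ϱ ^ 2 * (21 * G / (G * τ ^ 3 / ϱ) + 800 / τ ^ 2)
      = 42 * G * (τ / ϱ) + 1600 * G * (τ / ϱ) ^ 2 := by field_simp; ring
  rw [e1, e2] at this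
  linarith

/-- the time threshold of the interior estimate -/
noncomputable def T0 : ℝ := (1 / 2 ^ 19) ^ 2

theorem T0_pos : 0 < T0 := by unfold T0; positivity

theorem ZE_step [FiniteDimensional ℝ E] {u : E → ℝ} {z e : E} {L : ℝ}
    (hu : Lip L u) (hF : Flat u z 1 1 e) (hgood : Good u z (2 * (L + 1)) (1 / 4)) (k : ℕ) :
    ∀ (σ : ℝ) (h : E), |σ| ≤ 1 / 8 + (1 / 2) ^ k / 8 → ‖h‖ ≤ 1 / 4 + (1 / 2) ^ k / 4 →
      C (T0 * ((1 / 2) ^ k) ^ 4) u (z + σ • e + h)
        ≤ u (z + σ • e + h) + 3 * (2 - (1 / 2) ^ k) * ((1 / 2) ^ k) ^ 4 := by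
  induction k with
  | zero =>
    intro σ h hσ hh
    simp only [pow_zero, one_pow, mul_one] at hσ hh ⊢
    have h1 := hF.C_crude hu (y := z + σ • e + h) rfl (by linarith) T0_pos
      (by unfold T0; norm_num)
    have h2 := hF.lo σ h rfl (by linarith)
    have h3 : ‖h‖ ^ 2 ≤ 1 / 4 := by nlinarith [norm_nonneg h]
    simp only [one_pow, mul_one, div_one] at h2
    linarith
  | succ k ih =>
    intro σ h hσ hh
    set q : ℝ := (1 / 2) ^ k with hq
    have hq0 : 0 < q := by positivity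
    have hq1 : q ≤ 1 := pow_le_one₀ (by norm_num) (by norm_num)
    have eq : (1 / 2 : ℝ) ^ (k + 1) = q / 2 := by rw [pow_succ]; ring
    rw [eq] at hσ hh ⊢
    have hσ' := abs_le.1 hσ
    have hq2 : q ^ 2 ≤ q := by nlinarith
    have hq4 : q ^ 4 ≤ q := by nlinarith
    have hq40 : 0 < q ^ 4 := by positivity
    set G : ℝ := 3 * (2 - q) * q ^ 4 with hG
    have hG0 : 0 < G := by have : 0 < 2 - q := by linarith
                           positivity
    have hG6 : G ≤ 6 * q ^ 4 := by rw [hG]; nlinarith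
    have eT : (q ^ 2 / 2 ^ 19) ^ 2 = T0 * q ^ 4 := by unfold T0; ring
    have hTq : T0 * q ^ 4 ≤ q / 16 := by unfold T0; nlinarith
    have hm := LM2 (t := T0 * (q / 2) ^ 4) (τ := q ^ 2 / 2 ^ 19) (ϱ := q / 16) (G := G)
      hu hF hgood (xs := z + σ • e + h) rfl (by linarith) (by linarith)
      (by have := T0_pos; positivity) (by positivity)
      (by rw [eT]; have := T0_pos; nlinarith) (by linarith) (by positivity) (by linarith)
      hG0 (by linarith) (by nlinarith) (by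
        have a1 : G * q ^ 6 ≤ 6 * q ^ 3 := by
          have : q ^ 6 ≤ q ^ 3 := pow_le_pow_of_le_one hq0.le hq1 (by norm_num)
          have : G ≤ 6 := by linarith
          exact mul_le_mul this ‹_› (by positivity) (by norm_num)
        have : 0 < q ^ 3 := by positivity
        nlinarith) (fun s n hs hn => by
        rw [eT] at hs ⊢
        have hs' := abs_le.1 hs
        have e0 : z + σ • e + h + s • e + n = z + (σ + s) • e + (h + n) := by
          rw [add_smul]; abel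
        rw [e0]
        exact ih _ _ (by rw [abs_le]; constructor <;> linarith)
          ((norm_add_le _ _).trans (by linarith)))
    have e1 : G * (T0 * (q / 2) ^ 4) / (q ^ 2 / 2 ^ 19) ^ 2 = G / 16 := by
      unfold T0; field_simp; ring
    have e2 : 19 * G * (q ^ 2 / 2 ^ 19) ^ 3 / (q / 16 * (T0 * (q / 2) ^ 4))
        = 304 * G * (q / 2 ^ 15) := by unfold T0; field_simp; ring
    have e3 : q ^ 2 / 2 ^ 19 / (q / 16) = q / 2 ^ 15 := by field_simp; ring
    rw [e1, e2, e3] at hm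
    have a1 : G * q ≤ 6 * q ^ 4 * q := mul_le_mul_of_nonneg_right hG6 hq0.le
    have a2 : G * q ^ 2 ≤ G * q := mul_le_mul_of_nonneg_left hq2 hG0.le
    have a3 : 0 < q ^ 4 * q := by positivity
    have e4 : 3 * (2 - q / 2) * (q / 2) ^ 4 = G / 16 + 3 / 32 * (q ^ 4 * q) := by
      rw [hG]; ring
    rw [e4]
    nlinarith

theorem ZE_unit [FiniteDimensional ℝ E] {u : E → ℝ} {z e h : E} {L σ t : ℝ}
    (hu : Lip L u) (hF : Flat u z 1 1 e) (hgood : Good u z (2 * (L + 1)) (1 / 4))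
    (hσ : |σ| ≤ 1 / 8) (hh : ‖h‖ ≤ 1 / 4) (ht : 0 < t) (htT : t ≤ T0) :
    C t u (z + σ • e + h) ≤ u (z + σ • e + h) + 96 / T0 * t := by
  have hT := T0_pos
  obtain ⟨k, hk1, hk2⟩ := exists_nat_pow_near_of_lt_one (x := t / T0) (y := 1 / 16)
    (by positivity) (by rwa [div_le_one hT]) (by norm_num) (by norm_num)
  have eq : ((1 / 2 : ℝ) ^ k) ^ 4 = (1 / 16) ^ k := by
    rw [← pow_mul, mul_comm, pow_mul]; norm_num
  have hq0 : (0 : ℝ) < (1 / 2) ^ k := by positivity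
  have h1 := ZE_step hu hF hgood k σ h (by linarith) (by linarith)
  rw [eq] at h1
  have h2 := C_mono_t hu ht (b := T0 * (1 / 16) ^ k)
    (by rw [div_le_iff₀ hT] at hk2; linarith) (z + σ • e + h)
  have h3 : (0 : ℝ) < (1 / 16) ^ k := by positivity
  rw [pow_succ] at hk1
  have e1 : 96 / T0 * t = 96 * (t / T0) := by ring
  have h4 : 0 < (1 / 2 : ℝ) ^ k * (1 / 16) ^ k := by positivity
  nlinarith

theorem ZE [FiniteDimensional ℝ E] {u : E → ℝ} {z e h : E} {L μ A σ t : ℝ}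
    (hu : Lip L u) (hμ : 0 < μ) (hA : 0 < A) (hF : Flat u z μ A e)
    (hgood : Good u z (2 * μ * (L + A)) (μ / 4))
    (hσ : |σ| ≤ μ / 8) (hh : ‖h‖ ≤ A * μ / 4) (ht : 0 < t) (htT : t ≤ T0 * μ) :
    C t u (z + σ • e + h) ≤ u (z + σ • e + h) + 96 / T0 * A ^ 2 * t := by
  have hF' : Flat (resc u z A μ) 0 1 1 ((1 / A) • e) :=
    Flat.resc hA hμ one_pos (by simpa using hF)
  have hg' : Good (resc u z A μ) 0 (2 * (L / A + 1)) (1 / 4) :=
    Good.resc hu hA hμ (by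
      convert hgood using 1
      · field_simp
      · ring)
  have h1 := ZE_unit (σ := σ / μ) (h := (1 / (A * μ)) • h) (t := t / μ) (hu.resc z hA hμ) hF' hg'
    (by rw [abs_div, abs_of_pos hμ, div_le_iff₀ hμ]; linarith)
    (by rw [norm_smul, Real.norm_of_nonneg (by positivity), one_div, inv_mul_le_iff₀
      (by positivity)]; linarith) (by positivity) (by rw [div_le_iff₀ hμ]; exact htT)
  rw [gap_resc hu hA hμ (by positivity)] at h1
  have e0 : z + (A * μ) • (0 + (σ / μ) • (1 / A) • e + (1 / (A * μ)) • h) = z + σ • e + h := by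
    rw [zero_add, smul_add, smul_smul, smul_smul, smul_smul, add_assoc]
    congr 2
    · congr 1; field_simp
    · rw [mul_one_div_cancel (by positivity), one_smul]
  rw [e0, mul_div_cancel₀ _ hμ.ne'] at h1
  have e1 : A ^ 2 * μ * (96 / T0 * (t / μ)) = 96 / T0 * A ^ 2 * t := by field_simp
  linarith

theorem LMb [FiniteDimensional ℝ E] {u : E → ℝ} {y e : E} {L τ θ η T m t : ℝ}
    (hτ : 0 < τ) (hτ1 : τ ≤ 1 / 16) (hθ : 0 < θ) (hη : τ * (152 / θ + 336 + 51200) ≤ η)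
    (hu : Lip L u) (hT : 0 < T) (hm : 0 < m) (hm2 : m ≤ 2) (hF : Flat u y (T / τ ^ 2) 1 e)
    (hgood : Good u y (2 * (T / τ ^ 2) * (L + 1)) (T / τ ^ 2 / 4))
    (H : ∀ w, ‖w - y‖ ≤ T / τ ^ 2 * (L + 1) → C T u w ≤ u w + m * T)
    (ht1 : θ * T ≤ t) (ht2 : t ≤ T) : C t u y ≤ u y + m * t + η * T := by
  set μ := T / τ ^ 2 with hμdef
  have hμ : 0 < μ := by positivity
  have hL := hu.1
  have ht : 0 < t := lt_of_lt_of_le (by positivity) ht1
  have hF' : Flat (resc u y 1 μ) 0 1 1 ((1 / 1 : ℝ) • e) :=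
    Flat.resc one_pos hμ one_pos (by simpa using hF)
  have hg' : Good (resc u y 1 μ) 0 (2 * (L / 1 + 1)) (1 / 4) :=
    Good.resc hu one_pos hμ (by
      convert hgood using 1
      · ring
      · ring)
  have he := hF.slope_le hu hμ
  have hτ2 : τ ^ 2 ≤ 1 / 256 := by nlinarith
  have hτ3 : τ ^ 3 ≤ 1 / 4096 := by nlinarith
  have hτ20 : 0 < τ ^ 2 := by positivity
  have eμ : μ * τ ^ 2 = T := by rw [hμdef]; field_simp
  have h1 := LM2 (t := t / μ) (τ := τ) (ϱ := 1 / 4) (G := m * τ ^ 2) (xs := 0) (σ := 0) (h := 0)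
    (hu.resc y one_pos hμ) hF' hg' (by simp) (by simp) (by simp) (by positivity) hτ
    (by rw [div_le_iff₀ hμ]; linarith) (by linarith) (by norm_num) le_rfl (by positivity)
    (by nlinarith) (by nlinarith) (by
      have : m * τ ^ 2 * τ ^ 3 ≤ 2 * (1 / 256) * (1 / 4096) := by gcongr
      linarith) (fun s n hs hn => by
      rw [gap_resc hu one_pos hμ hτ20, eμ]
      have := H (y + (1 * μ) • (0 + s • (1 / 1 : ℝ) • e + n)) (by
        rw [add_sub_cancel_left, norm_smul, Real.norm_of_nonneg (by positivity), one_mul]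
        refine mul_le_mul_of_nonneg_left ?_ hμ.le
        rw [zero_add, div_one, one_smul]
        refine (norm_add_le _ _).trans ?_
        rw [norm_smul, Real.norm_eq_abs]
        have := mul_le_mul (hs.trans hτ2) he (norm_nonneg _) (by norm_num)
        linarith)
      have e1 : 1 ^ 2 * μ * (m * τ ^ 2) = m * T := by rw [← eμ]; ring
      linarith)
  have h2 : C (t / μ) (resc u y 1 μ) 0 ≤ resc u y 1 μ 0 + (m * t / μ + η * τ ^ 2) := by
    have e1 : m * τ ^ 2 * (t / μ) / τ ^ 2 = m * t / μ := by field_simp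
    have a1 : 19 * (m * τ ^ 2) * τ ^ 3 / (1 / 4 * (t / μ)) ≤ τ * (152 / θ) * τ ^ 2 := by
      rw [div_le_iff₀ (by positivity)]
      have b1 : θ * τ ^ 2 ≤ t / μ := by rw [le_div_iff₀ hμ]; nlinarith
      have b2 : τ * (152 / θ) * τ ^ 2 * (1 / 4 * (θ * τ ^ 2)) = 38 * (τ ^ 2 * τ ^ 3) := by
        field_simp; ring
      have b3 : τ * (152 / θ) * τ ^ 2 * (1 / 4 * (θ * τ ^ 2))
          ≤ τ * (152 / θ) * τ ^ 2 * (1 / 4 * (t / μ)) := by gcongr
      have b4 : m * (τ ^ 2 * τ ^ 3) ≤ 2 * (τ ^ 2 * τ ^ 3) := by gcongr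
      linarith
    have a2 : m * (τ * τ ^ 2) ≤ 2 * (τ * τ ^ 2) := by gcongr
    have a3 : m * (τ ^ 2 * τ ^ 2) ≤ 2 * (τ * τ ^ 2) := by
      have : τ ^ 2 ≤ τ := by nlinarith
      gcongr
    have a4 := mul_le_mul_of_nonneg_right hη hτ20.le
    rw [e1] at h1
    nlinarith
  rw [gap_resc hu one_pos hμ (by positivity), smul_zero, add_zero,
    mul_div_cancel₀ _ hμ.ne'] at h2
  have e2 : 1 ^ 2 * μ * (m * t / μ + η * τ ^ 2) = m * t + η * T := by
    rw [← eμ]; field_simp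
  linarith

end Vale.Agent.P080
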